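import Vale.Agent.P116D.K1

/-!
Box: flow boxes at regular points.
-/

namespace Vale.P116D

open Set Filter Topology MeasureTheory Complex
open scoped ContDiff

variable {D : Dom} {S : Gens D} {φ ψ χ η g d v w : ℂ → ℝ} {s σ r τ u : D.End → ℝ} {y : D.End}
  {U : Set ℂ} {z : ℂ}

theorem box_cont (c e : ℂ) : Continuous fun p : ℝ × ℝ => c + e * (p.1 + p.2 * I) := by
  fun_prop

theorem box_mono {c e : ℂ} {x b : ℝ}
    (h : ∀ s : ℝ, |s| ≤ b → 0 < fderiv ℝ w (c + e * (x + s * I)) (e * I)) :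
    StrictMonoOn (fun s : ℝ => w (c + e * (x + s * I))) (Icc (-b) b) := by
  have hd : ∀ s : ℝ, |s| ≤ b → HasDerivAt (fun s : ℝ => w (c + e * (x + s * I)))
      (fderiv ℝ w (c + e * (x + s * I)) (e * I)) s := by
    intro s hs
    have h1 : DifferentiableAt ℝ w (c + e * (x + s * I)) := by
      by_contra hn
      have h2 := h s hs
      rw [fderiv_zero_of_not_differentiableAt hn] at h2
      simp at h2
    have h3 : HasDerivAt (fun s : ℝ => (s : ℂ)) 1 s := Complex.ofRealCLM.hasDerivAt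
    have h4 := (((h3.mul_const I).const_add (x : ℂ)).const_mul e).const_add c
    rw [one_mul] at h4
    exact h1.hasFDerivAt.comp_hasDerivAt s h4
  refine strictMonoOn_of_deriv_pos (convex_Icc _ _)
    (fun s hs => (hd s (abs_le.2 hs)).continuousAt.continuousWithinAt) fun s hs => ?_
  have hs1 : s ∈ Icc (-b) b := interior_subset hs
  have hs' : |s| ≤ b := abs_le.2 hs1
  rw [(hd s hs').deriv]
  exact h s hs'

theorem box_up_open (hw : ContinuousOn w D.G) (t : ℝ) : IsOpen {z ∈ D.G | t < w z} :=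
  hw.isOpen_inter_preimage (G_open D) (isOpen_Ioi (a := t))

theorem box_dn_open (hw : ContinuousOn w D.G) (t : ℝ) : IsOpen {z ∈ D.G | w z < t} :=
  hw.isOpen_inter_preimage (G_open D) (isOpen_Iio (a := t))

theorem box_hor (R : Rect) (y : ℝ) :
    IsPreconnected ((fun x : ℝ => R.pt x y) '' Icc (-R.a) R.a) := by
  refine isPreconnected_Icc.image _ (Continuous.continuousOn ?_)
  unfold Rect.pt
  fun_prop

theorem box_ver (R : Rect) (x p q : ℝ) :
    IsPreconnected ((fun y : ℝ => R.pt x y) '' Icc p q) := by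
  refine isPreconnected_Icc.image _ (Continuous.continuousOn ?_)
  unfold Rect.pt
  fun_prop

theorem box_norm {e : ℂ} (he : ‖e‖ = 1) (x y : ℝ) : ‖e * (x + y * I)‖ ≤ |x| + |y| := by
  rw [norm_mul, he, one_mul]
  refine (norm_add_le _ _).trans (le_of_eq ?_)
  simp

theorem box_ex {O : Set ℂ} (hw : ContDiffOn ℝ ∞ w D.G) (hz : z ∈ D.G) (hg : gr w z ≠ 0)
    (hO : O ∈ 𝓝 z) : ∃ R, IsBox D w R ∧ R.set ⊆ O ∧ z ∈ interior (R.core w) := by
  have hn : 0 < ‖gr w z‖ := norm_pos_iff.2 hg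
  obtain ⟨e, he, hpos⟩ : ∃ e : ℂ, ‖e‖ = 1 ∧ 0 < fderiv ℝ w z (e * I) := by
    refine ⟨-I * (gr w z * ((‖gr w z‖⁻¹ : ℝ) : ℂ)), ?_, ?_⟩
    · rw [norm_mul, norm_mul, norm_neg, norm_I, one_mul, norm_real, Real.norm_eq_abs,
        abs_of_pos (inv_pos.2 hn), mul_inv_cancel₀ hn.ne']
    · have h1 : -I * (gr w z * ((‖gr w z‖⁻¹ : ℝ) : ℂ)) * I = gr w z * ((‖gr w z‖⁻¹ : ℝ) : ℂ) := by
        have h2 : -I * (gr w z * ((‖gr w z‖⁻¹ : ℝ) : ℂ)) * I =
            -(I * I) * (gr w z * ((‖gr w z‖⁻¹ : ℝ) : ℂ)) := by ring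
        rw [h2, I_mul_I, neg_neg, one_mul]
      rw [h1, fderiv_eq_dt]
      unfold dt
      rw [re_mul_ofReal, im_mul_ofReal]
      have h3 : 0 < normSq (gr w z) := normSq_pos.2 hg
      rw [normSq_apply] at h3
      have h4 := mul_pos h3 (inv_pos.2 hn)
      linarith
  have hGz : D.G ∈ 𝓝 z := (G_open D).mem_nhds hz
  have hc : ContinuousOn w D.G := hw.continuousOn
  have hf : ContinuousAt (fun u => fderiv ℝ w u (e * I)) z :=
    ((hw.continuousOn_fderiv_of_isOpen (G_open D) (by simp)).continuousAt hGz).clm_apply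
      continuousAt_const
  have hev : ∀ᶠ u in 𝓝 z, u ∈ O ∧ u ∈ D.G ∧ 0 < fderiv ℝ w u (e * I) :=
    Eventually.and hO (Eventually.and hGz (hf.eventually (lt_mem_nhds hpos)))
  obtain ⟨δ, hδ, hb⟩ := Metric.eventually_nhds_iff.1 hev
  have hin : ∀ x y : ℝ, |x| ≤ δ / 4 → |y| ≤ δ / 4 → z + e * (x + y * I) ∈ O ∧
      z + e * (x + y * I) ∈ D.G ∧ 0 < fderiv ℝ w (z + e * (x + y * I)) (e * I) := by
    intro x y hx hy
    apply hb
    rw [dist_eq_norm, add_sub_cancel_left]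
    have := box_norm he x y
    linarith
  have hδ4 : 0 < δ / 4 := by linarith
  have h0 : |(0 : ℝ)| ≤ δ / 4 := by rw [abs_zero]; exact hδ4.le
  have hbp : |δ / 4| ≤ δ / 4 := (abs_of_pos hδ4).le
  have hbn : |-(δ / 4)| ≤ δ / 4 := by rw [abs_neg]; exact hbp
  have hm := box_mono (w := w) (c := z) (e := e) (x := 0) (b := δ / 4)
    fun s hs => (hin 0 s h0 hs).2.2
  have hz0 : z + e * (((0 : ℝ) : ℂ) + ((0 : ℝ) : ℂ) * I) = z := by simp
  have l1 := hm (abs_le.1 hbn) (abs_le.1 h0) (by linarith)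
  have l2 := hm (abs_le.1 h0) (abs_le.1 hbp) hδ4
  simp only [hz0] at l1 l2
  obtain ⟨t₁, p1, p2⟩ := exists_between l1
  obtain ⟨t₂, p3, p4⟩ := exists_between l2
  have hcx : ∀ y : ℝ, |y| ≤ δ / 4 → ContinuousAt (fun x : ℝ => w (z + e * (x + y * I))) 0 := by
    intro y hy
    have h1 : ContinuousAt w (z + e * (((0 : ℝ) : ℂ) + y * I)) :=
      hc.continuousAt ((G_open D).mem_nhds (hin 0 y h0 hy).2.1)
    have h2 : ContinuousAt (fun x : ℝ => z + e * (x + y * I)) 0 := by fun_prop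
    exact ContinuousAt.comp (f := fun x : ℝ => z + e * (x + y * I)) h1 h2
  have hev2 : ∀ᶠ x : ℝ in 𝓝 0, w (z + e * (x + ((-(δ / 4) : ℝ) : ℂ) * I)) < t₁ ∧
      t₂ < w (z + e * (x + ((δ / 4 : ℝ) : ℂ) * I)) :=
    ((hcx _ hbn).eventually (gt_mem_nhds p1)).and ((hcx _ hbp).eventually (lt_mem_nhds p4))
  obtain ⟨ε, hε, hx⟩ := Metric.eventually_nhds_iff.1 hev2
  have ha : 0 < min (ε / 2) (δ / 4) := lt_min (by linarith) hδ4
  have hxa : ∀ x : ℝ, |x| ≤ min (ε / 2) (δ / 4) → dist x 0 < ε := by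
    intro x h
    rw [Real.dist_eq, sub_zero]
    have := h.trans (min_le_left _ _)
    linarith
  refine ⟨⟨z, e, min (ε / 2) (δ / 4), δ / 4, t₁, t₂⟩, ⟨he, ha, hδ4, p2.trans p3, ?_, ?_, ?_, ?_⟩,
    ?_, ?_⟩
  · rintro u ⟨x, y, h1, h2, rfl⟩
    exact (hin x y (h1.trans (min_le_right _ _)) h2).2.1
  · rintro u ⟨x, y, h1, h2, rfl⟩
    exact (hin x y (h1.trans (min_le_right _ _)) h2).2.2
  · exact fun x h => (hx (hxa x h)).1
  · exact fun x h => (hx (hxa x h)).2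
  · rintro u ⟨x, y, h1, h2, rfl⟩
    exact (hin x y (h1.trans (min_le_right _ _)) h2).1
  · rw [mem_interior_iff_mem_nhds]
    have h1 : ∀ᶠ u in 𝓝 z, w u ∈ Ioo t₁ t₂ :=
      (hc.continuousAt hGz).eventually (Ioo_mem_nhds p2 p3)
    filter_upwards [h1, Metric.ball_mem_nhds z ha] with u hu hu'
    have he0 : e ≠ 0 := by
      rintro rfl
      simp at he
    have h2 : ‖(u - z) / e‖ ≤ min (ε / 2) (δ / 4) := by
      rw [norm_div, he, div_one, ← dist_eq_norm]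
      exact (Metric.mem_ball.1 hu').le
    refine ⟨⟨((u - z) / e).re, ((u - z) / e).im, (abs_re_le_norm _).trans h2,
      ((abs_im_le_norm _).trans h2).trans (min_le_right _ _), ?_⟩, hu⟩
    show u = z + e * ((((u - z) / e).re : ℂ) + ((u - z) / e).im * I)
    rw [re_add_im, mul_div_cancel₀ _ he0, add_sub_cancel]

theorem IsBox.cpt {R : Rect} (hR : IsBox D w R) : IsCompact R.set := by
  have h : R.set = (fun p : ℝ × ℝ => R.c + R.e * (p.1 + p.2 * I)) ''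
      (Icc (-R.a) R.a ×ˢ Icc (-R.b) R.b) := by
    ext u
    constructor
    · rintro ⟨x, y, h1, h2, rfl⟩
      exact ⟨(x, y), ⟨abs_le.1 h1, abs_le.1 h2⟩, rfl⟩
    · rintro ⟨p, ⟨h1, h2⟩, rfl⟩
      exact ⟨p.1, p.2, abs_le.2 h1, abs_le.2 h2, rfl⟩
  have _ := hR.a0
  rw [h]
  exact (isCompact_Icc.prod isCompact_Icc).image (box_cont _ _)

theorem IsBox.core_sub {R : Rect} (hR : IsBox D w R) (hw : ContinuousOn w D.G) :
    R.core w ⊆ Bs D w R := by
  rintro u ⟨⟨x, y, hx, hy, rfl⟩, hu⟩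
  have ha := hR.a0
  have hb := hR.b0
  have hmem : ∀ x y : ℝ, |x| ≤ R.a → |y| ≤ R.b → R.pt x y ∈ R.set :=
    fun x y h1 h2 => ⟨x, y, h1, h2, rfl⟩
  have hm : StrictMonoOn (fun s : ℝ => w (R.pt x s)) (Icc (-R.b) R.b) :=
    box_mono (w := w) (c := R.c) (e := R.e) (x := x) (b := R.b)
      fun s hs => hR.up _ (hmem x s hx hs)
  have hy' := abs_le.1 hy
  have h0 : (0 : ℝ) ∈ Icc (-R.a) R.a := ⟨by linarith, ha.le⟩
  have hbp : |R.b| ≤ R.b := (abs_of_pos hb).le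
  have hbn : |-R.b| ≤ R.b := by rw [abs_neg]; exact hbp
  refine ⟨hR.sub (hmem x y hx hy), hu, fun t ht => ⟨fun h hU => ?_, fun h => ?_⟩⟩
  · have hp : IsPreconnected ((fun x : ℝ => R.pt x R.b) '' Icc (-R.a) R.a ∪
        (fun y : ℝ => R.pt x y) '' Icc y R.b) :=
      IsPreconnected.union (R.pt x R.b) ⟨x, abs_le.1 hx, rfl⟩ ⟨R.b, ⟨hy'.2, le_rfl⟩, rfl⟩
        (box_hor R _) (box_ver R _ _ _)
    have hs : ((fun x : ℝ => R.pt x R.b) '' Icc (-R.a) R.a ∪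
        (fun y : ℝ => R.pt x y) '' Icc y R.b) ⊆ {z ∈ D.G | t < w z} := by
      rintro u (⟨x', h1, rfl⟩ | ⟨y', h1, rfl⟩)
      · exact ⟨hR.sub (hmem _ _ (abs_le.2 h1) hbp), ht.2.trans (hR.top _ (abs_le.2 h1))⟩
      · have h2 : y' ∈ Icc (-R.b) R.b := ⟨hy'.1.trans h1.1, h1.2⟩
        exact ⟨hR.sub (hmem _ _ hx (abs_le.2 h2)), h.trans_le (hm.monotoneOn hy' h2 h1.1)⟩
    have hV : R.pt x y ∈ Vt D w R t :=
      hp.subset_connectedComponentIn (x := R.top) (Or.inl ⟨0, h0, rfl⟩) hs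
        (Or.inr ⟨y, ⟨le_rfl, hy'.2⟩, rfl⟩)
    exact (connectedComponentIn_subset _ _ hU).2 (subset_closure hV)
  · have hp : IsPreconnected ((fun x : ℝ => R.pt x (-R.b)) '' Icc (-R.a) R.a ∪
        (fun y : ℝ => R.pt x y) '' Icc (-R.b) y) :=
      IsPreconnected.union (R.pt x (-R.b)) ⟨x, abs_le.1 hx, rfl⟩ ⟨-R.b, ⟨le_rfl, hy'.1⟩, rfl⟩
        (box_hor R _) (box_ver R _ _ _)
    have hs : ((fun x : ℝ => R.pt x (-R.b)) '' Icc (-R.a) R.a ∪
        (fun y : ℝ => R.pt x y) '' Icc (-R.b) y) ⊆ {z ∈ D.G | w z < t} := by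
      rintro u (⟨x', h1, rfl⟩ | ⟨y', h1, rfl⟩)
      · exact ⟨hR.sub (hmem _ _ (abs_le.2 h1) hbn), (hR.bot _ (abs_le.2 h1)).trans ht.1⟩
      · have h2 : y' ∈ Icc (-R.b) R.b := ⟨h1.1, h1.2.trans hy'.2⟩
        exact ⟨hR.sub (hmem _ _ hx (abs_le.2 h2)), (hm.monotoneOn h2 hy' h1.2).trans_lt h⟩
    have hd : Disjoint (Vt D w R t) {z ∈ D.G | w z < t} :=
      Set.disjoint_left.2 fun u h1 h2 =>
        lt_asymm (connectedComponentIn_subset _ _ h1).2 h2.2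
    have hd' := hd.closure_left (box_dn_open hw t)
    exact hp.subset_connectedComponentIn (x := R.bot) (F := D.G \ closure (Vt D w R t))
      (Or.inl ⟨0, h0, rfl⟩)
      (fun u h1 => ⟨(hs h1).1, fun h2 => Set.disjoint_left.1 hd' h2 (hs h1)⟩)
      (Or.inr ⟨y, ⟨hy'.1, le_rfl⟩, rfl⟩)

theorem IsBox.top_mem {R : Rect} (hR : IsBox D w R) : R.top ∈ R.set ∧ R.bot ∈ R.set := by
  have h0 : |(0 : ℝ)| ≤ R.a := by rw [abs_zero]; exact hR.a0.le
  have hbp : |R.b| ≤ R.b := (abs_of_pos hR.b0).le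
  have hbn : |-R.b| ≤ R.b := by rw [abs_neg]; exact hbp
  exact ⟨⟨0, R.b, h0, hbp, rfl⟩, ⟨0, -R.b, h0, hbn, rfl⟩⟩

theorem Vt_open {R : Rect} (hw : ContinuousOn w D.G) (t : ℝ) : IsOpen (Vt D w R t) :=
  (box_up_open hw t).connectedComponentIn

theorem Ut_open {R : Rect} (t : ℝ) : IsOpen (Ut D w R t) :=
  ((G_open D).sdiff isClosed_closure).connectedComponentIn

theorem Vt_anti {R : Rect} {t t' : ℝ} (h : t ≤ t') : Vt D w R t' ⊆ Vt D w R t :=
  connectedComponentIn_mono _ fun _ hu => ⟨hu.1, h.trans_lt hu.2⟩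

theorem Ut_mono {R : Rect} {t t' : ℝ} (h : t ≤ t') : Ut D w R t ⊆ Ut D w R t' :=
  connectedComponentIn_mono _ fun _ hu => ⟨hu.1, fun h' => hu.2 (closure_mono (Vt_anti h) h')⟩

/-- reduce to rational levels with `Ut_mono` -/
theorem bs_meas {R : Rect} (hw : ContinuousOn w D.G) : MeasurableSet (Bs D w R) := by
  have h : Bs D w R = ({z ∈ D.G | R.t₁ < w z} ∩ {z ∈ D.G | w z < R.t₂}) ∩
      ⋂ q : ℚ, ⋂ _ : (q : ℝ) ∈ Ioo R.t₁ R.t₂,
        (({z ∈ D.G | (q : ℝ) < w z}ᶜ ∪ (Ut D w R q)ᶜ) ∩ ({z ∈ D.G | w z < q}ᶜ ∪ Ut D w R q)) := by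
    ext u
    simp only [mem_inter_iff, mem_iInter, mem_union, mem_compl_iff]
    constructor
    · rintro ⟨h1, h2, h3⟩
      refine ⟨⟨⟨h1, h2.1⟩, ⟨h1, h2.2⟩⟩, fun q hq => ⟨?_, ?_⟩⟩
      · by_cases h4 : (q : ℝ) < w u
        · exact Or.inr ((h3 q hq).1 h4)
        · exact Or.inl fun h5 => h4 h5.2
      · by_cases h4 : w u < q
        · exact Or.inr ((h3 q hq).2 h4)
        · exact Or.inl fun h5 => h4 h5.2
    · rintro ⟨⟨⟨h1, h2⟩, ⟨-, h2'⟩⟩, h3⟩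
      refine ⟨h1, ⟨h2, h2'⟩, fun t ht => ⟨fun h hU => ?_, fun h => ?_⟩⟩
      · obtain ⟨q, q1, q2⟩ := exists_rat_btwn h
        rcases (h3 q ⟨ht.1.trans q1, q2.trans h2'⟩).1 with h4 | h4
        · exact h4 ⟨h1, q2⟩
        · exact h4 (Ut_mono q1.le hU)
      · obtain ⟨q, q1, q2⟩ := exists_rat_btwn h
        rcases (h3 q ⟨h2.trans q1, q2.trans ht.2⟩).2 with h4 | h4
        · exact (h4 ⟨h1, q1⟩).elim
        · exact Ut_mono q2.le h4
  rw [h]
  refine ((box_up_open hw _).measurableSet.inter (box_dn_open hw _).measurableSet).inter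
    (MeasurableSet.iInter fun q => MeasurableSet.iInter fun _ => ?_)
  exact ((box_up_open hw _).measurableSet.compl.union (Ut_open _).measurableSet.compl).inter
    ((box_dn_open hw _).measurableSet.compl.union (Ut_open _).measurableSet)

end Vale.P116D
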