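import Vale.Agent.P116D.EndsH

/-!
Connected neighbourhood bases of the ends.
-/

namespace Vale.P116D

open Set Filter Topology MeasureTheory Complex Metric
open scoped ContDiff Real

lemma ch_const {S : Set ℂ} {f : ℂ → ℂ} {p q : ℂ} (hS : IsPreconnected S) (hf : ContinuousOn f S)
    (h1 : ∀ z ∈ S, exp (f z) = 1) (hp : p ∈ S) (hq : q ∈ S) : f p = f q :=
  isCoveringMap_exp.constOn_of_comp hS hf
    (fun x hx y hy => Subtype.ext ((h1 x hx).trans (h1 y hy).symm)) hp hq

lemma ch_cont {X Y : Set ℂ} {f : ℂ → ℂ} {z : ℂ} (hX : IsOpen X) (hY : IsOpen Y)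
    (hd : Disjoint X Y) (hf : Continuous f) (hz : z ∈ X ∨ z ∈ Y ∨ ∀ᶠ w in 𝓝 z, f w = 0) :
    ContinuousAt (X.indicator f) z := by
  rcases hz with hz | hz | hz
  · refine hf.continuousAt.congr ?_
    filter_upwards [hX.mem_nhds hz] with w hw
    rw [indicator_of_mem hw]
  · refine (continuousAt_const (y := (0 : ℂ))).congr ?_
    filter_upwards [hY.mem_nhds hz] with w hw
    rw [indicator_of_notMem (disjoint_right.1 hd hw)]
  · refine (continuousAt_const (y := (0 : ℂ))).congr ?_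
    filter_upwards [hz] with w hw
    by_cases hw' : w ∈ X
    · rw [indicator_of_mem hw', hw]
    · rw [indicator_of_notMem hw']

lemma ch_log {f : ℂ → ℂ} (hf : Continuous f) (h0 : ∀ z, f z ≠ 0) :
    ∃ l : ℂ → ℂ, Continuous l ∧ ∀ z, exp (l z) = f z := by
  have hs : IsSimplyConnected (univ : Set ℂ) := by
    have := (convex_univ : Convex ℝ (univ : Set ℂ)).contractibleSpace univ_nonempty
    exact SimplyConnectedSpace.ofContractible _
  obtain ⟨l, hl, he⟩ := exists_continuousOn_eqOn_exp_comp hs isOpen_univ hf.continuousOn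
    (by rintro ⟨z, -, hz⟩; exact h0 z hz)
  exact ⟨l, continuousOn_univ.1 hl, fun z => he (mem_univ z)⟩

/-- The plane is unicoherent. -/
lemma ch_unicoh {A B : Set ℂ} (hA : IsClosed A) (hB : IsClosed B) (hd : Disjoint A B)
    (cA : IsPreconnected Aᶜ) (cB : IsPreconnected Bᶜ) : IsPreconnected (A ∪ B)ᶜ := by
  intro u v hu hv huv hne1 hne2
  by_contra hcon
  rw [not_nonempty_iff_eq_empty] at hcon
  obtain ⟨x, hx⟩ := hne1
  obtain ⟨y, hy⟩ := hne2
  have hO : IsOpen (A ∪ B)ᶜ := (hA.union hB).isOpen_compl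
  have hX : IsOpen ((A ∪ B)ᶜ ∩ u) := hO.inter hu
  have hY : IsOpen ((A ∪ B)ᶜ ∩ v) := hO.inter hv
  have hXY : Disjoint ((A ∪ B)ᶜ ∩ u) ((A ∪ B)ᶜ ∩ v) := by
    rw [disjoint_left]
    intro z hz1 hz2
    have : z ∈ (A ∪ B)ᶜ ∩ (u ∩ v) := ⟨hz1.1, hz1.2, hz2.2⟩
    rw [hcon] at this
    exact this
  have hcov : ∀ z, z ∉ A → z ∉ B → z ∈ (A ∪ B)ᶜ ∩ u ∨ z ∈ (A ∪ B)ᶜ ∩ v := by
    intro z hz1 hz2
    have hz : z ∈ (A ∪ B)ᶜ := fun h => h.elim hz1 hz2
    exact (huv hz).imp (fun h => ⟨hz, h⟩) fun h => ⟨hz, h⟩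
  obtain ⟨θ, t0, t1, -⟩ := exists_contMDiffMap_zero_one_nhds_of_isClosed
    (modelWithCornersSelf ℝ ℂ) (n := ⊤) hA hB hd
  have hθ : Continuous fun z => ((θ z : ℝ) : ℂ) := continuous_ofReal.comp θ.contMDiff.continuous
  set X := (A ∪ B)ᶜ ∩ u with hXd
  set a : ℂ → ℂ := X.indicator fun z => 2 * π * I * θ z with ha
  set b : ℂ → ℂ := X.indicator fun z => 2 * π * I * (θ z - 1) with hb
  have hac : ∀ z, z ∉ B → ContinuousAt a z := fun z hz => by
    refine ch_cont hX hY hXY (continuous_const.mul hθ) ?_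
    by_cases h1 : z ∈ A
    · refine Or.inr (Or.inr ?_)
      filter_upwards [t0.filter_mono (nhds_le_nhdsSet h1)] with w hw
      simp [hw]
    · exact (hcov z h1 hz).imp id Or.inl
  have hbc : ∀ z, z ∉ A → ContinuousAt b z := fun z hz => by
    refine ch_cont hX hY hXY (continuous_const.mul (hθ.sub continuous_const)) ?_
    by_cases h1 : z ∈ B
    · refine Or.inr (Or.inr ?_)
      filter_upwards [t1.filter_mono (nhds_le_nhdsSet h1)] with w hw
      simp [hw]
    · exact (hcov z hz h1).imp id Or.inl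
  have hab : ∀ z, exp (a z) = exp (b z) := fun z => by
    by_cases h1 : z ∈ X
    · rw [ha, hb, indicator_of_mem h1, indicator_of_mem h1, mul_sub, mul_one, exp_sub,
        exp_two_pi_mul_I, div_one]
    · rw [ha, hb, indicator_of_notMem h1, indicator_of_notMem h1]
  have hc : Continuous fun z => exp (a z) := by
    rw [continuous_iff_continuousAt]
    intro z
    by_cases h1 : z ∈ B
    · simp only [hab]
      exact (hbc z (disjoint_right.1 hd h1)).cexp
    · exact (hac z h1).cexp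
  obtain ⟨l, hl, he⟩ := ch_log hc fun z => exp_ne_zero _
  have e1 := ch_const (f := fun z => l z - a z) cB
    (fun z hz => (hl.continuousAt.sub (hac z hz)).continuousWithinAt)
    (fun z _ => by rw [exp_sub, he, div_self (exp_ne_zero _)])
    (p := x) (q := y) (fun h => hx.1 (Or.inr h)) fun h => hy.1 (Or.inr h)
  have e2 := ch_const (f := fun z => l z - b z) cA
    (fun z hz => (hl.continuousAt.sub (hbc z hz)).continuousWithinAt)
    (fun z _ => by rw [exp_sub, he, hab, div_self (exp_ne_zero _)])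
    (p := x) (q := y) (fun h => hx.1 (Or.inl h)) fun h => hy.1 (Or.inl h)
  have hyX : y ∉ X := disjoint_right.1 hXY hy
  simp only [ha, hb, indicator_of_mem (show x ∈ X from hx), indicator_of_notMem hyX] at e1 e2
  have : (2 * π * I : ℂ) = 0 := by linear_combination e2 - e1
  exact two_pi_I_ne_zero this

/-- The complement of a compact part of `K` that is open in `K` is connected. -/
lemma ch_compl_piece {K₁ K₂ : Set ℂ} (h1 : IsCompact K₁) (h2 : IsCompact K₂)
    (hd : Disjoint K₁ K₂) (hc : IsConnected (K₁ ∪ K₂)ᶜ) : IsPreconnected K₁ᶜ := by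
  obtain ⟨p, hp⟩ := hc.nonempty
  have hsub : (K₁ ∪ K₂)ᶜ ⊆ K₁ᶜ := compl_subset_compl.2 subset_union_left
  refine isPreconnected_of_forall p fun z hz => ?_
  set V := connectedComponentIn K₁ᶜ z with hV
  have hVo : IsOpen V := h1.isClosed.isOpen_compl.connectedComponentIn
  have hVc : IsPreconnected V := isPreconnected_connectedComponentIn
  have hVs : V ⊆ K₁ᶜ := connectedComponentIn_subset _ _
  have hzV : z ∈ V := mem_connectedComponentIn hz
  by_cases hm : (V ∩ (K₁ ∪ K₂)ᶜ).Nonempty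
  · obtain ⟨w, hw1, hw2⟩ := hm
    exact ⟨V ∪ (K₁ ∪ K₂)ᶜ, union_subset hVs hsub, Or.inr hp, Or.inl hzV,
      hVc.union w hw1 hw2 hc.isPreconnected⟩
  · exfalso
    have h3 : V ⊆ K₂ := fun w hw => by_contra fun h4 =>
      hm ⟨w, hw, fun h5 => h5.elim (hVs hw) h4⟩
    have h4 : closure V ⊆ K₂ := closure_minimal h3 h2.isClosed
    have h5 : closure V ⊆ V := hVc.closure.subset_connectedComponentIn (subset_closure hzV)
      (h4.trans hd.subset_compl_left)
    have h6 := IsClopen.eq_univ ⟨closure_subset_iff_isClosed.1 h5, hVo⟩ ⟨z, hzV⟩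
    exact h2.ne_univ (eq_univ_of_univ_subset (h6 ▸ h3))

namespace Dom

variable {D : Dom}

/-- The ends have a basis of connected open sets. -/
lemma ch_basis (y : D.End) {U : Set ℂ} (hU : U ∈ D.nb y) :
    ∃ W ∈ D.nb y, IsOpen W ∧ W ⊆ U ∧ W ⊆ D.G ∧ IsPreconnected W := by
  cases y with
  | none =>
    obtain ⟨R, hR, hK, h⟩ := D.eh_mem_nb_none.1 hU
    refine ⟨(closedBall 0 R)ᶜ, D.eh_mem_nb_none.2 ⟨R + 1, by linarith,
      hK.trans (ball_subset_ball (by linarith)), fun z hz => ?_⟩, isClosed_closedBall.isOpen_compl,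
      fun z hz => h z ?_, compl_subset_compl.2 (hK.trans ball_subset_closedBall),
      Vale.P116.isPreconnected_compl_closedBall R hR.le⟩
    · rw [mem_compl_iff, mem_closedBall_zero_iff, not_le]; linarith
    · rw [mem_compl_iff, mem_closedBall_zero_iff, not_le] at hz; exact hz.le
  | some c =>
    obtain ⟨O, h1, h2, h3⟩ := D.eh_mem_nb_some.1 hU
    obtain ⟨K₁, K₂, k1, k2, kd, ku, kc, ko⟩ := D.eh_clopen c h1 h2
    obtain ⟨z, hz⟩ := D.eh_cmp_ne c
    have hO' : IsOpen (O ∩ K₂ᶜ) := h1.inter k2.isClosed.isOpen_compl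
    have hK₁ : K₁ ⊆ O ∩ K₂ᶜ := subset_inter ko kd.subset_compl_right
    set V := connectedComponentIn (O ∩ K₂ᶜ) z with hV
    have hVo : IsOpen V := hO'.connectedComponentIn
    have hVc : IsPreconnected V := isPreconnected_connectedComponentIn
    have hVs : V ⊆ O ∩ K₂ᶜ := connectedComponentIn_subset _ _
    have hcV : D.cmp c ⊆ V := (D.eh_cmp_conn c).subset_connectedComponentIn hz (kc.trans hK₁)
    have hcl : IsClosed (K₁ ∩ V) := by
      rw [← closure_subset_iff_isClosed]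
      intro w hw
      have w1 : w ∈ K₁ := closure_minimal inter_subset_left k1.isClosed hw
      have w2 : w ∈ closure V := closure_mono inter_subset_right hw
      refine ⟨w1, ?_⟩
      have w3 : connectedComponentIn (O ∩ K₂ᶜ) w ∈ 𝓝 w :=
        hO'.connectedComponentIn.mem_nhds (mem_connectedComponentIn (hK₁ w1))
      obtain ⟨x, x1, x2⟩ := mem_closure_iff_nhds.1 w2 _ w3
      rw [hV, connectedComponentIn_eq x2, ← connectedComponentIn_eq x1]
      exact mem_connectedComponentIn (hK₁ w1)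
    have c1 : IsCompact (K₁ ∩ V) := k1.of_isClosed_subset hcl inter_subset_left
    have c2 : IsCompact (K₁ \ V ∪ K₂) := (k1.diff hVo).union k2
    have cd : Disjoint (K₁ ∩ V) (K₁ \ V ∪ K₂) := by
      rw [disjoint_left]
      rintro w ⟨w1, w2⟩ (w3 | w3)
      · exact w3.2 w2
      · exact disjoint_left.1 kd w1 w3
    have cu : K₁ ∩ V ∪ (K₁ \ V ∪ K₂) = D.K := by
      rw [← union_assoc, inter_union_sdiff, ku]
    have c3 := ch_compl_piece c1 c2 cd (cu ▸ D.conn)
    have c4 := ch_unicoh hVo.isClosed_compl hcl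
      (disjoint_left.2 fun w w1 w2 => w1 w2.2) (by rwa [compl_compl]) c3
    have he : (Vᶜ ∪ K₁ ∩ V)ᶜ = V ∩ D.G := by
      ext w
      simp only [mem_compl_iff, mem_union, mem_inter_iff, not_or, not_not, G, ← ku]
      constructor
      · rintro ⟨w1, w2⟩
        exact ⟨w1, fun h => w2 ⟨h, w1⟩, (hVs w1).2⟩
      · rintro ⟨w1, w2, -⟩
        exact ⟨w1, fun h => w2 h.1⟩
    rw [he] at c4
    exact ⟨V ∩ D.G, D.eh_mem_nb_some.2 ⟨V, hVo, hcV, fun w w1 w2 => ⟨w1, w2⟩⟩,
      hVo.inter D.eh_open, fun w hw => h3 w (hVs hw.1).1 hw.2, inter_subset_right, c4⟩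

end Dom

end Vale.P116D
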