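import Vale.Agent.P116.Contracts

/-!
Part A of the circle-domain theorem: notions.  See skeleton/P116A/PROOF69.md.
-/

namespace Vale.P116D

open Set Filter Topology MeasureTheory Complex
open scoped ContDiff

noncomputable section

/-- A compact set with connected complement. -/
structure Dom where
  K : Set ℂ
  cpt : IsCompact K
  conn : IsConnected Kᶜ

/-- The gradient as a complex number. -/
def gr (φ : ℂ → ℝ) (z : ℂ) : ℂ := ⟨fderiv ℝ φ z 1, fderiv ℝ φ z I⟩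

/-- The wedge product of two vectors. -/
def wd (p q : ℂ) : ℝ := p.re * q.im - p.im * q.re

/-- The scalar product of two vectors. -/
def dt (p q : ℂ) : ℝ := p.re * q.re + p.im * q.im

namespace Dom

variable (D : Dom)

/-- The domain. -/
def G : Set ℂ := D.Kᶜ

/-- The ends: the components of `K` and infinity. -/
def End : Type := Option (ConnectedComponents D.K)

/-- A component of `K` as a subset of the plane. -/
def cmp (c : ConnectedComponents D.K) : Set ℂ := Subtype.val '' (ConnectedComponents.mk ⁻¹' {c})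

/-- The neighbourhood filter of an end. -/
def nb : D.End → Filter ℂ
  | none => cocompact ℂ ⊓ 𝓟 D.G
  | some c => 𝓝ˢ (D.cmp c) ⊓ 𝓟 D.G

/-- Smooth functions of finite energy. -/
structure Fn (φ : ℂ → ℝ) : Prop where
  sm : ContDiffOn ℝ ∞ φ D.G
  l2 : MemLp (gr φ) 2 (volume.restrict D.G)

/-- Bounded by `M` on the domain. -/
def Le (φ : ℂ → ℝ) (M : ℝ) : Prop := ∀ z ∈ D.G, |φ z| ≤ M

/-- Bounded on the domain. -/
def Bd (φ : ℂ → ℝ) : Prop := ∃ M, D.Le φ M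

/-- The skew form. -/
def om (φ ψ : ℂ → ℝ) : ℝ := ∫ z in D.G, wd (gr φ z) (gr ψ z)

/-- The Dirichlet form. -/
def di (φ ψ : ℂ → ℝ) : ℝ := ∫ z in D.G, dt (gr φ z) (gr ψ z)

/-- The Dirichlet norm. -/
def nr (φ : ℂ → ℝ) : ℝ := √(∫ z in D.G, ‖gr φ z‖ ^ 2)

/-- Upper cluster value at an end. -/
def hi (y : D.End) (φ : ℂ → ℝ) : ℝ := limsup φ (D.nb y)

/-- Lower cluster value at an end. -/
def lo (y : D.End) (φ : ℂ → ℝ) : ℝ := liminf φ (D.nb y)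

/-- Oscillation at an end. -/
def osc (y : D.End) (φ : ℂ → ℝ) : ℝ := D.hi y φ - D.lo y φ

/-- Wired functions with their values at the ends. -/
structure Wd (η : ℂ → ℝ) (v : D.End → ℝ) : Prop where
  sm : ContDiff ℝ ∞ η
  cs : ∃ C, IsCompact C ∧ C ⊆ D.G ∧ ∀ z, z ∉ C → fderiv ℝ η z = 0
  ev : ∀ y, ∀ᶠ z in D.nb y, η z = v y

/-- Cutoff functions. -/
structure Cut (η : ℂ → ℝ) (v : D.End → ℝ) : Prop where
  wd : D.Wd η v
  mem : ∀ z, η z ∈ Icc (0 : ℝ) 1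
  val : ∀ y, v y = 0 ∨ v y = 1

/-- `χ` vanishes off `U`. -/
def Supp (χ : ℂ → ℝ) (U : Set ℂ) : Prop := ∀ z ∈ D.G, z ∉ U → χ z = 0

/-- `χ` vanishes near the end `y`. -/
def Van (y : D.End) (χ : ℂ → ℝ) : Prop := ∀ᶠ z in D.nb y, χ z = 0

/-- Convergence in energy and locally in mean square. -/
def Conv (φ : ℕ → ℂ → ℝ) (ψ : ℂ → ℝ) : Prop :=
  Tendsto (fun n => D.nr fun z => φ n z - ψ z) atTop (𝓝 0) ∧
    ∀ C, IsCompact C → C ⊆ D.G → Tendsto (fun n => ∫ z in C, (φ n z - ψ z) ^ 2) atTop (𝓝 0)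

end Dom

section costs

variable {Y : Type}

/-- Square summable. -/
def Sq (s : Y → ℝ) : Prop := Summable fun y => s y ^ 2

/-- Nonnegative and square summable. -/
def Cost (s : Y → ℝ) : Prop := (∀ y, 0 ≤ s y) ∧ Sq s

/-- The scalar product of two costs. -/
def ip (s σ : Y → ℝ) : ℝ := ∑' y, s y * σ y

/-- The norm of a cost. -/
def nl (s : Y → ℝ) : ℝ := √(∑' y, s y ^ 2)

open Classical in
/-- Change the value at one point. -/
def upd (s : Y → ℝ) (y : Y) (a : ℝ) : Y → ℝ := fun y' => if y' = y then a else s y'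

open Classical in
/-- Take `a` on the finite set `F` and `s` elsewhere. -/
def pw (F : Finset Y) (a s : Y → ℝ) : Y → ℝ := fun y => if y ∈ F then a y else s y

end costs

/-- Sets of marked functions. -/
abbrev Gens (D : Dom) : Type := Set ((ℂ → ℝ) × (D.End → ℝ))

variable {D : Dom}

/-- Regulated marked functions. -/
structure Reg (D : Dom) (g : ℂ → ℝ) (σ : D.End → ℝ) : Prop where
  fn : D.Fn g
  bd : D.Bd g
  co : Cost σ
  le : ∀ y, D.osc y g ≤ σ y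

/-- Membership in the cone defined by a set of generators. -/
structure In (S : Gens D) (φ : ℂ → ℝ) (s : D.End → ℝ) : Prop where
  fn : D.Fn φ
  co : Cost s
  le : ∀ p ∈ S, |D.om φ p.1| ≤ ip s p.2

/-- Bounded members. -/
def InB (S : Gens D) (φ : ℂ → ℝ) (s : D.End → ℝ) : Prop := In S φ s ∧ D.Bd φ

/-- `r` bounds the oscillation of `Θ` on the boxes with corner `a` and sides `s`. -/
def OscLe {Y : Type} {k : ℕ} (Θ : (Fin k → ℝ) → ℝ) (a s : Fin k → Y → ℝ) (r : Y → ℝ) : Prop :=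
  ∀ y (x x' : Fin k → ℝ), (∀ i, x i ∈ Icc (a i y) (a i y + s i y)) →
    (∀ i, x' i ∈ Icc (a i y) (a i y + s i y)) → Θ x - Θ x' ≤ r y

/-- The box calculus with the corners `a`. -/
def BoxAt (S : Gens D) {k : ℕ} (φ : Fin k → ℂ → ℝ) (s a : Fin k → D.End → ℝ) : Prop :=
  ∀ Θ : (Fin k → ℝ) → ℝ, ContDiff ℝ ∞ Θ → ∀ η v, D.Wd η v → ∀ r, Cost r → OscLe Θ a s r →
    In S (fun z => η z * Θ fun i => φ i z) fun y => |v y| * r y

/-- Structures. -/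
structure Str (S : Gens D) : Prop where
  reg : ∀ p ∈ S, Reg D p.1 p.2
  iso : ∀ p ∈ S, In S p.1 p.2
  trunc : ∀ φ s, In S φ s → ∀ T : ℝ → ℝ, ContDiff ℝ ∞ T → (∀ x, |deriv T x| ≤ 1) →
    (∃ M, ∀ x, |T x| ≤ M) → In S (fun z => T (φ z)) s
  box : ∀ (k : ℕ) (φ : Fin k → ℂ → ℝ) (s : Fin k → D.End → ℝ), (∀ i, InB S (φ i) (s i)) →
    ∃ a, BoxAt S φ s a
  glue : ∀ χ s y, D.Fn χ → D.Bd χ → Cost s →
    (∀ η v, D.Wd η v → v y = 0 → In S (fun z => η z * χ z) fun y' => |v y'| * s y') →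
    In S χ (upd s y (D.osc y χ))

/-- Maximal structures. -/
def Max (S : Gens D) : Prop := Str S ∧ ∀ S', Str S' → S ⊆ S' → S' ⊆ S

/-- Dual marked functions. -/
structure Du (S : Gens D) (g : ℂ → ℝ) (σ : D.End → ℝ) : Prop where
  fn : D.Fn g
  co : Cost σ
  le : ∀ φ s, InB S φ s → |D.om φ g| ≤ ip s σ

/-- A small local correction brings the cluster set of `φ` at `y` into `[a, b]`. -/
def Adm (S : Gens D) (y : D.End) (φ : ℂ → ℝ) (a b : ℝ) : Prop :=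
  ∀ δ > 0, ∀ ε > 0, ∀ U ∈ D.nb y, ∃ ζ r, InB S ζ r ∧ D.Supp ζ U ∧ D.nr ζ ≤ ε ∧
    nl (upd r y 0) ≤ ε ∧ ∀ᶠ z in D.nb y, φ z - ζ z ∈ Icc (a - δ) (b + δ)

/-- A small function that agrees with `φ` near `y`. -/
def Cert (S : Gens D) (y : D.End) (φ : ℂ → ℝ) : Prop :=
  ∀ ε > 0, ∀ U ∈ D.nb y, ∃ ζ r, InB S ζ r ∧ D.Supp ζ U ∧ D.nr ζ ≤ ε ∧ nl r ≤ ε ∧
    ζ =ᶠ[D.nb y] φ

/-- Every bounded member has admissible intervals. -/
def Tcl (S : Gens D) : Prop := ∀ φ s, InB S φ s → ∀ y, ∃ a, Adm S y φ a (a + s y)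

/-- Critical pairs at an end. -/
structure Crit (S : Gens D) (d v : ℂ → ℝ) (c : ℝ) (τ : D.End → ℝ) (y : D.End) : Prop where
  fd : D.Fn d
  fv : D.Fn v
  c0 : 0 ≤ c
  co : Cost τ
  hol : ∃ U ∈ D.nb y, IsOpen U ∧ DifferentiableOn ℂ (fun z => (d z : ℂ) + v z * I) U
  loc : ∀ ε > 0, ∃ U ∈ D.nb y, ∀ χ s, In S χ s → D.Le χ 1 → D.Supp χ U → D.Van y χ →
    D.om χ v ≤ c * ip τ s + ε
  svi : ∃ (ε₀ : ℝ) (e : ℂ → ℝ) (dm : ℕ → ℂ → ℝ) (τm : ℕ → D.End → ℝ) (U : ℕ → Set ℂ) (C : ℝ),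
    0 < ε₀ ∧ D.Fn e ∧ e =ᶠ[D.nb y] d ∧ D.Conv dm e ∧
    (∀ m, InB S (dm m) (τm m) ∧ U m ∈ D.nb y ∧ nl (τm m) ≤ C) ∧
    ∀ ε, 0 < ε → ε ≤ ε₀ → ∀ (χ : ℕ → ℂ → ℝ) (r : ℕ → D.End → ℝ) (η : ℕ → ℂ → ℝ)
      (w : ℕ → D.End → ℝ), (∀ m, D.Fn (χ m) ∧ D.Le (χ m) 1 ∧ Sq (r m) ∧ D.Cut (η m) (w m) ∧
        D.Supp (η m) (U m) ∧ In S (fun z => dm m z - ε * χ m z) fun y' => τm m y' + ε * r m y') →
      ∀ δ > 0, ∀ᶠ m in atTop,
        D.om (fun z => η m z * χ m z) v ≤ c * ip τ (fun y' => w m y' * r m y') + δ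

/-- Rectangles with a direction and two levels. -/
structure Rect where
  c : ℂ
  e : ℂ
  a : ℝ
  b : ℝ
  t₁ : ℝ
  t₂ : ℝ

namespace Rect

variable (R : Rect)

/-- The point with coordinates `x`, `y`. -/
def pt (x y : ℝ) : ℂ := R.c + R.e * (x + y * I)

/-- The closed rectangle. -/
def set : Set ℂ := {z | ∃ x y : ℝ, |x| ≤ R.a ∧ |y| ≤ R.b ∧ z = R.pt x y}

/-- The midpoint of the bottom side. -/
def bot : ℂ := R.pt 0 (-R.b)

/-- The midpoint of the top side. -/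
def top : ℂ := R.pt 0 R.b

/-- The point of level `t` on the vertical segment with abscissa `x`. -/
def ep (w : ℂ → ℝ) (x t : ℝ) : ℂ :=
  R.pt x (Classical.epsilon fun y : ℝ => |y| ≤ R.b ∧ w (R.pt x y) = t)

/-- The part of the rectangle between the two levels. -/
def core (w : ℂ → ℝ) : Set ℂ := {z ∈ R.set | w z ∈ Ioo R.t₁ R.t₂}

end Rect

/-- Flow boxes of `w`. -/
structure IsBox (D : Dom) (w : ℂ → ℝ) (R : Rect) : Prop where
  un : ‖R.e‖ = 1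
  a0 : 0 < R.a
  b0 : 0 < R.b
  lt : R.t₁ < R.t₂
  sub : R.set ⊆ D.G
  up : ∀ z ∈ R.set, 0 < fderiv ℝ w z (R.e * I)
  bot : ∀ x, |x| ≤ R.a → w (R.pt x (-R.b)) < R.t₁
  top : ∀ x, |x| ≤ R.a → R.t₂ < w (R.pt x R.b)

/-- The upper region at level `t`. -/
def Vt (D : Dom) (w : ℂ → ℝ) (R : Rect) (t : ℝ) : Set ℂ :=
  connectedComponentIn {z ∈ D.G | t < w z} R.top

/-- The lower region at level `t`. -/
def Ut (D : Dom) (w : ℂ → ℝ) (R : Rect) (t : ℝ) : Set ℂ :=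
  connectedComponentIn (D.G \ closure (Vt D w R t)) R.bot

/-- The union of the cycles through the anchor box. -/
def Bs (D : Dom) (w : ℂ → ℝ) (R : Rect) : Set ℂ :=
  {z ∈ D.G | w z ∈ Ioo R.t₁ R.t₂ ∧ ∀ t ∈ Ioo R.t₁ R.t₂,
    (t < w z → z ∉ Ut D w R t) ∧ (w z < t → z ∈ Ut D w R t)}

/-- Smooth weights supported in `[a, b]`. -/
def Wt (a b : ℝ) (l : ℝ → ℝ) : Prop := ContDiff ℝ ∞ l ∧ ∀ t, l t ≠ 0 → t ∈ Icc a b

/-- Smooth weights supported inside the window of the box. -/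
def Lam (R : Rect) (l : ℝ → ℝ) : Prop := ∃ a b, R.t₁ < a ∧ b < R.t₂ ∧ Wt a b l

/-- The pairing with the cycles. -/
def omB (D : Dom) (w : ℂ → ℝ) (R : Rect) (l : ℝ → ℝ) (χ : ℂ → ℝ) : ℝ :=
  ∫ z in Bs D w R, l (w z) * wd (gr χ z) (gr w z)

/-- The cost of the cycles at the ends. -/
def cl (D : Dom) (w : ℂ → ℝ) (l : ℝ → ℝ) (y : D.End) : ℝ :=
  ∫ t in Icc (D.lo y w) (D.hi y w), |l t|

/-- The linear condition along the cycles, for cutoffs that vanish near the ends in `F`. -/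
def Lin (D : Dom) (w : ℂ → ℝ) (R : Rect) (F : Set D.End) (χ : ℂ → ℝ) (s : D.End → ℝ) : Prop :=
  ∀ η v, D.Wd η v → (∀ y ∈ F, v y = 0) → ∀ l, Lam R l →
    |omB D w R l fun z => η z * χ z| ≤ ip (fun y => |v y| * s y) (cl D w l)

/-- `w` is asymptotically dual at `y`. -/
def AD (S : Gens D) (w : ℂ → ℝ) (R : Rect) (y : D.End) : Prop :=
  ∃ σ, Cost σ ∧ ∀ ε > 0, ∃ U ∈ D.nb y, ∃ v, D.Fn v ∧
    (∀ z ∈ D.G, z ∈ U → w z ∈ Ioo R.t₁ R.t₂ → gr v z = gr w z) ∧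
    ∀ χ s, In S χ s → D.Le χ 1 → D.Supp χ U → |D.om χ v| ≤ ip σ s + ε

/-- Smooth approximations of the cycles. -/
structure Apx (S : Gens D) (w : ℂ → ℝ) (R : Rect) (l : ℝ → ℝ) (ζ M : ℕ → ℂ → ℝ) (m : ℂ → ℝ) :
    Prop where
  zin : ∀ n, ∃ s, InB S (ζ n) s
  zle : ∀ n, ∀ z ∈ D.G, ∃ θ ∈ Icc (0 : ℝ) 1, ζ n z = θ * l (w z)
  zwd : ∀ n, ∀ z ∈ D.G, wd (gr (ζ n) z) (gr w z) = 0
  grM : ∀ n, ∀ z ∈ D.G, gr (M n) z = ζ n z • gr w z
  inM : ∀ n, InB S (M n) (cl D w l)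
  lim : ∀ᵐ z ∂volume.restrict D.G, Tendsto (fun n => ζ n z • gr w z) atTop
    (𝓝 ((Bs D w R).indicator (fun z => l (w z) • gr w z) z))
  unif : TendstoUniformlyOn M m atTop D.G
  osc : ∀ y, D.osc y m ≤ cl D w l y
  onB : ∀ z ∈ Bs D w R, m z = ∫ t in Iic (w z), l t

end

end Vale.P116D
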