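import Vale.Agent.P116D.Defs
import Vale.Agent.P116.Glue

/-!
Ends of a planar domain: basic facts, cutoffs and covers.
-/

namespace Vale.P116D

open Set Filter Topology MeasureTheory Complex Metric
open scoped ContDiff

namespace Dom

variable (D : Dom)

lemma eh_open : IsOpen D.G := D.cpt.isClosed.isOpen_compl

lemma eh_G_mem (y : D.End) : D.G ∈ D.nb y := by
  cases y <;> exact mem_inf_of_right (mem_principal_self _)

lemma eh_cmp_eq {z : ℂ} (hz : z ∈ D.K) :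
    D.cmp (ConnectedComponents.mk ⟨z, hz⟩) = connectedComponentIn D.K z := by
  rw [cmp, connectedComponents_preimage_singleton, connectedComponentIn_eq_image hz]

lemma eh_cmp_rep (c : ConnectedComponents D.K) :
    ∃ z, ∃ hz : z ∈ D.K, c = ConnectedComponents.mk ⟨z, hz⟩ := by
  obtain ⟨⟨z, hz⟩, rfl⟩ := ConnectedComponents.surjective_coe c
  exact ⟨z, hz, rfl⟩

lemma eh_mem_cmp {c : ConnectedComponents D.K} {z : ℂ} :
    z ∈ D.cmp c ↔ ∃ hz : z ∈ D.K, ConnectedComponents.mk ⟨z, hz⟩ = c := by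
  constructor
  · rintro ⟨⟨w, hw⟩, h, rfl⟩
    exact ⟨hw, h⟩
  · rintro ⟨hz, h⟩
    exact ⟨⟨z, hz⟩, h, rfl⟩

lemma eh_cmp_sub (c : ConnectedComponents D.K) : D.cmp c ⊆ D.K := fun _ h =>
  (D.eh_mem_cmp.1 h).1

lemma eh_cmp_ne (c : ConnectedComponents D.K) : (D.cmp c).Nonempty := by
  obtain ⟨z, hz, rfl⟩ := D.eh_cmp_rep c
  exact ⟨z, D.eh_mem_cmp.2 ⟨hz, rfl⟩⟩

lemma eh_cmp_conn (c : ConnectedComponents D.K) : IsPreconnected (D.cmp c) := by
  obtain ⟨z, hz, rfl⟩ := D.eh_cmp_rep c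
  rw [eh_cmp_eq]
  exact isPreconnected_connectedComponentIn

lemma eh_cmp_of_mem {c : ConnectedComponents D.K} {z : ℂ} (h : z ∈ D.cmp c) :
    D.cmp c = connectedComponentIn D.K z := by
  obtain ⟨hz, rfl⟩ := D.eh_mem_cmp.1 h
  exact D.eh_cmp_eq hz

lemma eh_cmp_cpt (c : ConnectedComponents D.K) : IsCompact (D.cmp c) := by
  have := isCompact_iff_compactSpace.1 D.cpt
  exact (isClosed_singleton.preimage ConnectedComponents.continuous_coe).isCompact.image
    continuous_subtype_val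

lemma eh_sub_cmp {c : ConnectedComponents D.K} {S : Set ℂ} (hS : IsPreconnected S) (hK : S ⊆ D.K)
    {z : ℂ} (h1 : z ∈ S) (h2 : z ∈ D.cmp c) : S ⊆ D.cmp c := by
  rw [D.eh_cmp_of_mem h2]
  exact hS.subset_connectedComponentIn h1 hK

lemma eh_mem_nb_some {c : ConnectedComponents D.K} {U : Set ℂ} :
    U ∈ D.nb (some c) ↔ ∃ O, IsOpen O ∧ D.cmp c ⊆ O ∧ ∀ z ∈ O, z ∈ D.G → z ∈ U := by
  change U ∈ 𝓝ˢ (D.cmp c) ⊓ 𝓟 D.G ↔ _
  rw [mem_inf_principal, mem_nhdsSet_iff_exists]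
  constructor
  · rintro ⟨O, h1, h2, h3⟩
    exact ⟨O, h1, h2, fun z hz => h3 hz⟩
  · rintro ⟨O, h1, h2, h3⟩
    exact ⟨O, h1, h2, fun z hz => h3 z hz⟩

lemma eh_mem_nb_none {U : Set ℂ} :
    U ∈ D.nb none ↔ ∃ R : ℝ, 0 < R ∧ D.K ⊆ ball 0 R ∧ ∀ z : ℂ, R ≤ ‖z‖ → z ∈ U := by
  change U ∈ cocompact ℂ ⊓ 𝓟 D.G ↔ _
  rw [mem_inf_principal, mem_cocompact]
  constructor
  · rintro ⟨C, h1, h2⟩
    obtain ⟨R, hR0, hR⟩ := (h1.union D.cpt).isBounded.subset_ball_lt 0 (0 : ℂ)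
    refine ⟨R, hR0, subset_union_right.trans hR, fun z hz => ?_⟩
    have h3 : z ∉ C ∪ D.K := fun h => by
      have := hR h
      rw [mem_ball_zero_iff] at this
      linarith
    exact h2 (fun h => h3 (Or.inl h)) fun h => h3 (Or.inr h)
  · rintro ⟨R, -, -, h⟩
    refine ⟨closedBall 0 R, isCompact_closedBall _ _, fun z hz _ => h z ?_⟩
    rw [mem_compl_iff, mem_closedBall_zero_iff, not_le] at hz
    exact hz.le

instance eh_neBot (y : D.End) : (D.nb y).NeBot := by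
  rw [← forall_mem_nonempty_iff_neBot]
  intro U hU
  cases y with
  | none =>
    obtain ⟨R, hR, -, h⟩ := D.eh_mem_nb_none.1 hU
    exact ⟨R, h _ (by simp [abs_of_pos hR])⟩
  | some c =>
    obtain ⟨O, h1, h2, h3⟩ := D.eh_mem_nb_some.1 hU
    by_contra hne
    have hOK : O ⊆ D.K := fun z hz => by_contra fun h => hne ⟨z, h3 z hz h⟩
    have ho : IsOpen (D.cmp c) := by
      rw [Metric.isOpen_iff]
      intro z hz
      obtain ⟨ε, hε, hb⟩ := Metric.isOpen_iff.1 h1 z (h2 hz)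
      exact ⟨ε, hε, D.eh_sub_cmp (convex_ball z ε).isPreconnected (hb.trans hOK)
        (mem_ball_self hε) hz⟩
    have := IsClopen.eq_univ ⟨(D.eh_cmp_cpt c).isClosed, ho⟩ (D.eh_cmp_ne c)
    exact (D.eh_cmp_cpt c).ne_univ this

lemma eh_compl_mem {C : Set ℂ} (hC : IsCompact C) (h : C ⊆ D.G) (y : D.End) : Cᶜ ∈ D.nb y := by
  cases y with
  | none => exact mem_inf_of_left hC.compl_mem_cocompact
  | some c =>
    exact D.eh_mem_nb_some.2 ⟨Cᶜ, hC.isClosed.isOpen_compl,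
      fun z hz hc => h hc (D.eh_cmp_sub c hz), fun z hz _ => hz⟩

lemma eh_open_basis {y : D.End} {U : Set ℂ} (hU : U ∈ D.nb y) :
    ∃ W ∈ D.nb y, IsOpen W ∧ W ⊆ U ∧ W ⊆ D.G := by
  cases y with
  | none =>
    obtain ⟨R, hR, hK, h⟩ := D.eh_mem_nb_none.1 hU
    refine ⟨(closedBall 0 R)ᶜ, D.eh_mem_nb_none.2 ⟨R + 1, by linarith,
      hK.trans (ball_subset_ball (by linarith)), fun z hz => ?_⟩, isClosed_closedBall.isOpen_compl,
      fun z hz => h z ?_, compl_subset_compl.2 (hK.trans ball_subset_closedBall)⟩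
    · rw [mem_compl_iff, mem_closedBall_zero_iff, not_le]; linarith
    · rw [mem_compl_iff, mem_closedBall_zero_iff, not_le] at hz; exact hz.le
  | some c =>
    obtain ⟨O, h1, h2, h3⟩ := D.eh_mem_nb_some.1 hU
    exact ⟨O ∩ D.G, D.eh_mem_nb_some.2 ⟨O, h1, h2, fun z hz hg => ⟨hz, hg⟩⟩, h1.inter D.eh_open,
      fun z hz => h3 z hz.1 hz.2, inter_subset_right⟩

/-- A clopen piece of `K` around a component. -/
lemma eh_clopen (c : ConnectedComponents D.K) {O : Set ℂ} (hO : IsOpen O) (h : D.cmp c ⊆ O) :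
    ∃ K₁ K₂ : Set ℂ, IsCompact K₁ ∧ IsCompact K₂ ∧ Disjoint K₁ K₂ ∧ K₁ ∪ K₂ = D.K ∧
      D.cmp c ⊆ K₁ ∧ K₁ ⊆ O := by
  have := isCompact_iff_compactSpace.1 D.cpt
  obtain ⟨z, hz, rfl⟩ := D.eh_cmp_rep c
  have h1 : (Subtype.val ⁻¹' Oᶜ : Set D.K) ∩
      ⋂ s : {s : Set D.K // IsClopen s ∧ (⟨z, hz⟩ : D.K) ∈ s}, s.1 = ∅ := by
    rw [← connectedComponent_eq_iInter_isClopen, eq_empty_iff_forall_notMem]
    rintro x ⟨hx1, hx2⟩
    apply hx1
    apply h
    exact ⟨x, by rw [connectedComponents_preimage_singleton]; exact hx2, rfl⟩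
  obtain ⟨t, ht⟩ := (hO.isClosed_compl.preimage continuous_subtype_val).isCompact.elim_finite_subfamily_closed
    _ (fun s => s.2.1.1) h1
  set s : Set D.K := ⋂ i ∈ t, i.1 with hs
  have h2 : IsClopen s := isClopen_biInter_finset fun i _ => i.2.1
  have h3 : (⟨z, hz⟩ : D.K) ∈ s := mem_iInter₂.2 fun i _ => i.2.2
  refine ⟨(↑) '' s, (↑) '' sᶜ, h2.1.isCompact.image continuous_subtype_val,
    h2.compl.1.isCompact.image continuous_subtype_val,
    disjoint_image_of_injective Subtype.val_injective disjoint_compl_right, ?_, ?_, ?_⟩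
  · rw [← image_union, union_compl_self, image_univ, Subtype.range_coe]
  · apply image_mono
    rw [connectedComponents_preimage_singleton]
    exact h2.connectedComponent_subset h3
  · rintro _ ⟨x, hx, rfl⟩
    by_contra h4
    exact (eq_empty_iff_forall_notMem.1 ht) x ⟨h4, hx⟩

lemma eh_cmp_side {K₁ K₂ : Set ℂ} (h1 : IsCompact K₁) (h2 : IsCompact K₂) (hd : Disjoint K₁ K₂)
    (hu : K₁ ∪ K₂ = D.K) (c : ConnectedComponents D.K) : D.cmp c ⊆ K₁ ∨ D.cmp c ⊆ K₂ :=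
  isPreconnected_iff_subset_of_disjoint_closed.1 (D.eh_cmp_conn c) K₁ K₂ h1.isClosed h2.isClosed
    (hu ▸ D.eh_cmp_sub c) (by rw [hd.inter_eq, inter_empty])

end Dom

lemma eh_bump {A O : Set ℂ} (hA : IsCompact A) (hO : IsOpen O) (h : A ⊆ O) :
    ∃ ψ : ℂ → ℝ, ContDiff ℝ ∞ ψ ∧ HasCompactSupport ψ ∧ tsupport ψ ⊆ O ∧
      (∀ z, ψ z ∈ Icc (0 : ℝ) 1) ∧ ∀ᶠ z in 𝓝ˢ A, ψ z = 1 := by
  obtain ⟨L, hL, h1, h2⟩ := exists_compact_between hA hO h
  obtain ⟨f, f1, f2, f3⟩ := exists_contMDiffMap_one_nhds_of_subset_interior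
    (modelWithCornersSelf ℝ ℂ) (n := ⊤) hA.isClosed h1
  have h3 : tsupport f ⊆ L :=
    closure_minimal (fun x hx => by_contra fun hx' => hx (f2 x hx')) hL.isClosed
  exact ⟨f, f.contMDiff.contDiff, hL.of_isClosed_subset (isClosed_tsupport _) h3, h3.trans h2,
    fun z => f3 z, f1⟩

namespace Dom

variable {D : Dom}

open Classical in
/-- The cutoff of a clopen piece. -/
lemma eh_cut_piece {K₁ K₂ O : Set ℂ} (h1 : IsCompact K₁) (h2 : IsCompact K₂) (hd : Disjoint K₁ K₂)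
    (hu : K₁ ∪ K₂ = D.K) (hO : IsOpen O) (h : K₁ ⊆ O) :
    ∃ η v, D.Cut η v ∧ HasCompactSupport η ∧ tsupport η ⊆ O ∧ v none = 0 ∧
      (∀ c, D.cmp c ⊆ K₁ → v (some c) = 1) ∧ (∀ c, D.cmp c ⊆ K₂ → v (some c) = 0) ∧
      (∀ᶠ z in 𝓝ˢ K₁, η z = 1) ∧ ∀ᶠ z in 𝓝ˢ K₂, η z = 0 := by
  obtain ⟨ψ, p1, p2, p3, p4, p5⟩ := eh_bump h1 (hO.inter h2.isClosed.isOpen_compl)
    (subset_inter h hd.subset_compl_right)
  have p6 : ∀ᶠ z in 𝓝ˢ K₂, ψ z = 0 := by
    have : (tsupport ψ)ᶜ ∈ 𝓝ˢ K₂ := (isClosed_tsupport ψ).isOpen_compl.mem_nhdsSet.2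
      fun z hz hs => (p3 hs).2 hz
    filter_upwards [this] with z hz using image_eq_zero_of_notMem_tsupport hz
  obtain ⟨O₁, o1, o2, o3⟩ := mem_nhdsSet_iff_exists.1 p5
  let v : D.End → ℝ := fun y => Option.elim y 0 fun c => if D.cmp c ⊆ K₁ then 1 else 0
  have hv2 : ∀ c, D.cmp c ⊆ K₂ → ¬D.cmp c ⊆ K₁ := fun c hc hc' => by
    obtain ⟨z, hz⟩ := D.eh_cmp_ne c
    exact disjoint_left.1 hd (hc' hz) (hc hz)
  refine ⟨ψ, v, ⟨⟨p1, ⟨tsupport ψ \ O₁, p2.isCompact.diff o1, fun z hz hK => ?_, fun z hz => ?_⟩,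
    fun y => ?_⟩, p4, fun y => ?_⟩, p2, p3.trans inter_subset_left, rfl,
    fun c hc => if_pos hc, fun c hc => if_neg (hv2 c hc), p5, p6⟩
  · rw [← hu] at hK
    exact hK.elim (fun h3 => hz.2 (o2 h3)) fun h3 => (p3 hz.1).2 h3
  · by_cases hs : z ∈ tsupport ψ
    · have h3 : z ∈ O₁ := by_contra fun h3 => hz ⟨hs, h3⟩
      have : ψ =ᶠ[𝓝 z] fun _ => 1 := by
        filter_upwards [o1.mem_nhds h3] with w hw using o3 hw
      rw [this.fderiv_eq]; simp
    · exact fderiv_of_notMem_tsupport ℝ hs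
  · cases y with
    | none =>
      filter_upwards [mem_inf_of_left p2.isCompact.compl_mem_cocompact] with z hz
      exact image_eq_zero_of_notMem_tsupport hz
    | some c =>
      rcases D.eh_cmp_side h1 h2 hd hu c with h3 | h3
      · have : v (some c) = 1 := if_pos h3
        rw [this]
        exact mem_inf_of_left (nhdsSet_mono h3 p5)
      · have : v (some c) = 0 := if_neg (hv2 c h3)
        rw [this]
        exact mem_inf_of_left (nhdsSet_mono h3 p6)
  · cases y with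
    | none => exact Or.inl rfl
    | some c =>
      by_cases h3 : D.cmp c ⊆ K₁
      · exact Or.inr (if_pos h3)
      · exact Or.inl (if_neg h3)

lemma Wd.eh_const (a : ℝ) : D.Wd (fun _ => a) fun _ => a :=
  ⟨contDiff_const, ⟨∅, isCompact_empty, empty_subset _, fun z _ => by simp⟩,
    fun _ => Eventually.of_forall fun _ => rfl⟩

/-- Smooth functions of two wired functions are wired. -/
lemma Wd.eh_comp₂ {η η' : ℂ → ℝ} {v v' : D.End → ℝ} (h : D.Wd η v) (h' : D.Wd η' v')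
    {f : ℝ × ℝ → ℝ} (hf : ContDiff ℝ ∞ f) :
    D.Wd (fun z => f (η z, η' z)) fun y => f (v y, v' y) := by
  obtain ⟨C, c1, c2, c3⟩ := h.cs
  obtain ⟨C', c1', c2', c3'⟩ := h'.cs
  refine ⟨hf.comp (h.sm.prodMk h'.sm), ⟨C ∪ C', c1.union c1', union_subset c2 c2', fun z hz => ?_⟩,
    fun y => ?_⟩
  · have d1 := (h.sm.differentiable (by simp) z).hasFDerivAt
    have d2 := (h'.sm.differentiable (by simp) z).hasFDerivAt
    rw [c3 z fun h => hz (Or.inl h)] at d1
    rw [c3' z fun h => hz (Or.inr h)] at d2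
    have d3 := (hf.differentiable (by simp) (η z, η' z)).hasFDerivAt.comp z (d1.prodMk d2)
    have := d3.fderiv
    change fderiv ℝ (f ∘ fun x => (η x, η' x)) z = 0
    rw [this]
    ext x
    simp only [ContinuousLinearMap.comp_apply, ContinuousLinearMap.prod_apply,
      zero_apply]
    exact map_zero _
  · filter_upwards [h.ev y, h'.ev y] with z h1 h2
    rw [h1, h2]

lemma Wd.eh_add {η η' : ℂ → ℝ} {v v' : D.End → ℝ} (h : D.Wd η v) (h' : D.Wd η' v') :
    D.Wd (fun z => η z + η' z) fun y => v y + v' y :=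
  h.eh_comp₂ h' (f := fun p => p.1 + p.2) (by fun_prop)

lemma Wd.eh_sub {η η' : ℂ → ℝ} {v v' : D.End → ℝ} (h : D.Wd η v) (h' : D.Wd η' v') :
    D.Wd (fun z => η z - η' z) fun y => v y - v' y :=
  h.eh_comp₂ h' (f := fun p => p.1 - p.2) (by fun_prop)

lemma Wd.eh_mul {η η' : ℂ → ℝ} {v v' : D.End → ℝ} (h : D.Wd η v) (h' : D.Wd η' v') :
    D.Wd (fun z => η z * η' z) fun y => v y * v' y :=
  h.eh_comp₂ h' (f := fun p => p.1 * p.2) (by fun_prop)

lemma Wd.eh_sum {ι : Type} {η : ι → ℂ → ℝ} {v : ι → D.End → ℝ} (T : Finset ι)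
    (h : ∀ i ∈ T, D.Wd (η i) (v i)) :
    D.Wd (fun z => ∑ i ∈ T, η i z) fun y => ∑ i ∈ T, v i y := by
  classical
  induction T using Finset.induction_on with
  | empty => simpa using Wd.eh_const 0
  | insert a T ha ih =>
    simp only [Finset.sum_insert ha]
    exact (h a (Finset.mem_insert_self _ _)).eh_add
      (ih fun i hi => h i (Finset.mem_insert_of_mem hi))

lemma Cut.eh_compl {η : ℂ → ℝ} {v : D.End → ℝ} (h : D.Cut η v) :
    D.Cut (fun z => 1 - η z) fun y => 1 - v y :=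
  ⟨(Wd.eh_const 1).eh_sub h.wd, fun z => ⟨by linarith [(h.mem z).2], by linarith [(h.mem z).1]⟩,
    fun y => by rcases h.val y with h1 | h1 <;> simp [h1]⟩

lemma Cut.eh_mul {η η' : ℂ → ℝ} {v v' : D.End → ℝ} (h : D.Cut η v) (h' : D.Cut η' v') :
    D.Cut (fun z => η z * η' z) fun y => v y * v' y :=
  ⟨h.wd.eh_mul h'.wd, fun z => ⟨mul_nonneg (h.mem z).1 (h'.mem z).1,
    mul_le_one₀ (h.mem z).2 (h'.mem z).1 (h'.mem z).2⟩,
    fun y => by rcases h.val y with h1 | h1 <;> rcases h'.val y with h2 | h2 <;> simp [h1, h2]⟩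

lemma Cut.eh_one : D.Cut (fun _ => 1) fun _ => 1 :=
  ⟨Wd.eh_const 1, fun _ => ⟨zero_le_one, le_rfl⟩, fun _ => Or.inr rfl⟩

/-- Cutoffs at an end. -/
lemma eh_cut_ex (y : D.End) {U : Set ℂ} (hU : U ∈ D.nb y) :
    ∃ η v, D.Cut η v ∧ v y = 1 ∧ D.Supp η U := by
  cases y with
  | none =>
    obtain ⟨R, hR, hK, h⟩ := D.eh_mem_nb_none.1 hU
    obtain ⟨ψ, p1, p2, -, p4, p5⟩ := eh_bump (isCompact_closedBall (0 : ℂ) R) isOpen_univ
      (subset_univ _)
    have p6 : ∀ z ∈ ball (0 : ℂ) R, ψ z = 1 := fun z hz =>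
      p5.self_of_nhdsSet z (ball_subset_closedBall hz)
    have hc : D.Cut ψ fun y => Option.elim y 0 fun _ => 1 := by
      refine ⟨⟨p1, ⟨tsupport ψ \ ball 0 R, p2.isCompact.diff isOpen_ball,
        fun z hz hk => hz.2 (hK hk), fun z hz => ?_⟩, fun y => ?_⟩, p4, fun y => ?_⟩
      · by_cases hs : z ∈ tsupport ψ
        · have h3 : z ∈ ball (0 : ℂ) R := by_contra fun h3 => hz ⟨hs, h3⟩
          have : ψ =ᶠ[𝓝 z] fun _ => 1 := by
            filter_upwards [isOpen_ball.mem_nhds h3] with w hw using p6 w hw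
          rw [this.fderiv_eq]; simp
        · exact fderiv_of_notMem_tsupport ℝ hs
      · cases y with
        | none =>
          filter_upwards [mem_inf_of_left p2.isCompact.compl_mem_cocompact] with z hz
          exact image_eq_zero_of_notMem_tsupport hz
        | some c =>
          exact D.eh_mem_nb_some.2 ⟨ball 0 R, isOpen_ball, (D.eh_cmp_sub c).trans hK,
            fun z hz _ => p6 z hz⟩
      · cases y <;> simp
    refine ⟨_, _, hc.eh_compl, by simp, fun z _ hz => ?_⟩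
    have : z ∈ ball (0 : ℂ) R := by
      rw [mem_ball_zero_iff]
      exact lt_of_not_ge fun h3 => hz (h z h3)
    simp [p6 z this]
  | some c =>
    obtain ⟨O, h1, h2, h3⟩ := D.eh_mem_nb_some.1 hU
    obtain ⟨K₁, K₂, k1, k2, kd, ku, kc, ko⟩ := D.eh_clopen c h1 h2
    obtain ⟨η, v, c1, -, c3, -, c5, -⟩ := eh_cut_piece k1 k2 kd ku h1 ko
    exact ⟨η, v, c1, c5 c kc, fun z hz hU =>
      image_eq_zero_of_notMem_tsupport fun hs => hU (h3 z (c3 hs) hz)⟩

lemma Wd.eh_val_zero {η : ℂ → ℝ} {v : D.End → ℝ} (h : D.Wd η v) {U : Set ℂ} (hs : D.Supp η U)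
    {y : D.End} (hy : Uᶜ ∈ D.nb y) : v y = 0 := by
  obtain ⟨z, h1, h2, h3⟩ := ((h.ev y).and (Eventually.and hy (D.eh_G_mem y))).exists
  rw [← h1, hs z h3 h2]

/-- Distinct ends are separated. -/
lemma eh_sep {y y' : D.End} (h : y ≠ y') : ∃ U ∈ D.nb y, Uᶜ ∈ D.nb y' := by
  have key : ∀ c : ConnectedComponents D.K, ∀ y' : D.End, some c ≠ y' →
      ∃ U ∈ D.nb (some c), Uᶜ ∈ D.nb y' := by
    intro c y' h
    cases y' with
    | none =>
      obtain ⟨R, hR0, hR⟩ := D.cpt.isBounded.subset_ball_lt 0 (0 : ℂ)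
      exact ⟨ball 0 R, D.eh_mem_nb_some.2 ⟨_, isOpen_ball, (D.eh_cmp_sub c).trans hR,
        fun z hz _ => hz⟩, D.eh_mem_nb_none.2 ⟨R, hR0, hR, fun z hz => by simpa using hz⟩⟩
    | some c' =>
      have hd : Disjoint (D.cmp c) (D.cmp c') := by
        rw [disjoint_left]
        intro z h1 h2
        obtain ⟨_, e1⟩ := D.eh_mem_cmp.1 h1
        obtain ⟨_, e2⟩ := D.eh_mem_cmp.1 h2
        exact h (congrArg some (e1.symm.trans e2))
      obtain ⟨O, O', o1, o2, o3, o4, o5⟩ := SeparatedNhds.of_isCompact_isCompact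
        (D.eh_cmp_cpt c) (D.eh_cmp_cpt c') hd
      exact ⟨O, D.eh_mem_nb_some.2 ⟨O, o1, o3, fun z hz _ => hz⟩,
        D.eh_mem_nb_some.2 ⟨O', o2, o4, fun z hz _ => disjoint_right.1 o5 hz⟩⟩
  cases y with
  | some c => exact key c y' h
  | none =>
    cases y' with
    | none => exact absurd rfl h
    | some c =>
      obtain ⟨U, h1, h2⟩ := key c none h.symm
      exact ⟨Uᶜ, h2, by rwa [compl_compl]⟩

lemma eh_sep_finset (y : D.End) (F : Finset D.End) :
    ∃ U ∈ D.nb y, ∀ y' ∈ F, y' ≠ y → Uᶜ ∈ D.nb y' := by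
  classical
  induction F using Finset.induction_on with
  | empty => exact ⟨univ, univ_mem, by simp⟩
  | insert a F _ ih =>
    obtain ⟨U, h1, h2⟩ := ih
    by_cases ha : a = y
    · refine ⟨U, h1, fun y' hy' hne => ?_⟩
      rcases Finset.mem_insert.1 hy' with rfl | h3
      · exact absurd ha hne
      · exact h2 y' h3 hne
    · obtain ⟨V, h3, h4⟩ := eh_sep (D := D) (Ne.symm ha)
      refine ⟨U ∩ V, inter_mem h1 h3, fun y' hy' hne => ?_⟩
      rw [compl_inter]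
      rcases Finset.mem_insert.1 hy' with rfl | h5
      · exact mem_of_superset h4 subset_union_right
      · exact mem_of_superset (h2 y' h5 hne) subset_union_left

/-- A wired function takes its value on a full neighbourhood of each point of a component. -/
lemma Wd.eh_near {η : ℂ → ℝ} {v : D.End → ℝ} (h : D.Wd η v) {c : ConnectedComponents D.K}
    {z : ℂ} (hz : z ∈ D.cmp c) :
    ∀ᶠ w in 𝓝 z, ∀ c', w ∈ D.cmp c' → v (some c') = v (some c) := by
  obtain ⟨C, c1, c2, c3⟩ := h.cs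
  -- on each ball off `C` the function is constant
  have hloc : ∀ x : ℂ, x ∉ C → ∀ᶠ w in 𝓝 x, η w = η x := by
    intro x hx
    obtain ⟨ε, hε, hb⟩ := Metric.isOpen_iff.1 c1.isClosed.isOpen_compl x hx
    filter_upwards [ball_mem_nhds x hε] with w hw
    exact isOpen_ball.is_const_of_fderiv_eq_zero (𝕜 := ℝ) (convex_ball x ε).isPreconnected
      (h.sm.differentiable (by simp)).differentiableOn (fun u hu => c3 u (hb hu)) hw
      (mem_ball_self hε)
  have hval : ∀ c' : ConnectedComponents D.K, ∀ w ∈ D.cmp c', η w = v (some c') := by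
    intro c' w hw
    have h1 : ∀ u ∈ D.cmp c', η u = η w := by
      intro u hu
      have hc : ContinuousOn (fun u => decide (η u = η w)) (D.cmp c') := by
        intro x hx
        apply ContinuousAt.continuousWithinAt
        refine (continuousAt_const (y := decide (η x = η w))).congr ?_
        filter_upwards [hloc x fun h => c2 h (D.eh_cmp_sub c' hx)] with u hu
        rw [hu]
      have := (D.eh_cmp_conn c').constant hc hu hw
      simpa using this
    have h2 : ∀ᶠ u in D.nb (some c'), η u = η w := by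
      apply mem_inf_of_left
      rw [mem_nhdsSet_iff_forall]
      intro x hx
      filter_upwards [hloc x fun h => c2 h (D.eh_cmp_sub c' hx)] with u hu
      exact hu.trans (h1 x hx)
    have := D.eh_neBot (some c')
    obtain ⟨u, h3, h4⟩ := (h2.and (h.ev (some c'))).exists
    rw [← h3, h4]
  filter_upwards [hloc z fun h => c2 h (D.eh_cmp_sub c hz)] with w hw c' hc'
  rw [← hval c' w hc', hw, hval c z hz]

/-- Compactness of the space of ends. -/
lemma eh_compact (η : D.End → ℂ → ℝ) (v : D.End → D.End → ℝ) (h : ∀ y, D.Wd (η y) (v y)) :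
    ∃ T : Finset D.End, ∀ y', ∃ y ∈ T, v y y' = v y y := by
  classical
  let lab : D.K → D.End := fun x => some (ConnectedComponents.mk x)
  let N : D.K → Set ℂ := fun x => {w | ∀ c', w ∈ D.cmp c' → v (lab x) (some c') = v (lab x) (lab x)}
  have hN : ∀ x : D.K, N x ∈ 𝓝 (x : ℂ) := fun x =>
    (h (lab x)).eh_near (D.eh_mem_cmp.2 ⟨x.2, rfl⟩)
  obtain ⟨t, ht⟩ := D.cpt.elim_nhds_subcover' (fun x hx => N ⟨x, hx⟩) fun x hx => hN ⟨x, hx⟩
  refine ⟨insert none (t.image lab), fun y' => ?_⟩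
  cases y' with
  | none => exact ⟨none, Finset.mem_insert_self _ _, rfl⟩
  | some c =>
    obtain ⟨z, hz⟩ := D.eh_cmp_ne c
    obtain ⟨x, hx, hzx⟩ := mem_iUnion₂.1 (ht (D.eh_cmp_sub c hz))
    exact ⟨lab x, Finset.mem_insert_of_mem (Finset.mem_image_of_mem _ hx), hzx c hz⟩

lemma eh_disjointify {ι : Type} (T : Finset ι) (ξ : ι → ℂ → ℝ) (u : ι → D.End → ℝ)
    (h : ∀ i, D.Cut (ξ i) (u i)) :
    ∃ (η : ι → ℂ → ℝ) (v : ι → D.End → ℝ), (∀ i, D.Cut (η i) (v i) ∧ ∀ z, ξ i z = 0 → η i z = 0) ∧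
      (∀ z, ∑ i ∈ T, η i z = 1 - ∏ i ∈ T, (1 - ξ i z)) ∧
      (∀ y, ∑ i ∈ T, v i y = 1 - ∏ i ∈ T, (1 - u i y)) ∧
      D.Cut (fun z => ∏ i ∈ T, (1 - ξ i z)) fun y => ∏ i ∈ T, (1 - u i y) := by
  classical
  induction T using Finset.induction_on with
  | empty => exact ⟨ξ, u, fun i => ⟨h i, fun _ hz => hz⟩, by simp, by simp, by simpa using Cut.eh_one⟩
  | insert a T ha ih =>
    obtain ⟨η, v, h1, h2, h3, h4⟩ := ih
    refine ⟨Function.update η a fun z => ξ a z * ∏ i ∈ T, (1 - ξ i z),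
      Function.update v a fun y => u a y * ∏ i ∈ T, (1 - u i y), fun i => ?_, fun z => ?_,
      fun y => ?_, ?_⟩
    · by_cases hi : i = a
      · subst hi
        simp only [Function.update_self]
        exact ⟨(h i).eh_mul h4, fun z hz => by rw [hz, zero_mul]⟩
      · simp only [Function.update_of_ne hi]
        exact h1 i
    · rw [Finset.sum_insert ha, Finset.prod_insert ha, Function.update_self,
        Finset.sum_congr rfl fun i hi => by rw [Function.update_of_ne (ne_of_mem_of_not_mem hi ha)],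
        h2]
      ring
    · rw [Finset.sum_insert ha, Finset.prod_insert ha, Function.update_self,
        Finset.sum_congr rfl fun i hi => by rw [Function.update_of_ne (ne_of_mem_of_not_mem hi ha)],
        h3]
      ring
    · simp only [Finset.prod_insert ha]
      exact (h a).eh_compl.eh_mul h4

/-- Finite partitions of the ends by cutoffs; each end of `F` is the centre of its own cell. -/
lemma eh_cover (F : Finset D.End) (U : D.End → Set ℂ) (hU : ∀ y, U y ∈ D.nb y) :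
    ∃ (T : Finset D.End) (η : D.End → ℂ → ℝ) (v : D.End → D.End → ℝ), F ⊆ T ∧
      (∀ y, D.Cut (η y) (v y) ∧ D.Supp (η y) (U y)) ∧ (∀ z, ∑ y ∈ T, η y z ≤ 1) ∧
      (∀ y', ∑ y ∈ T, v y y' = 1) ∧ (∀ y' ∈ F, v y' y' = 1) ∧
      ∀ y' ∈ F, ∀ y, y ≠ y' → v y y' = 0 := by
  classical
  choose V hV1 hV2 using fun y => eh_sep_finset (D := D) y F
  choose ξ u h1 h2 h3 using fun y => eh_cut_ex y (inter_mem (hU y) (hV1 y))
  obtain ⟨T₀, hT₀⟩ := eh_compact ξ u fun y => (h1 y).wd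
  obtain ⟨η, v, k1, k2, k3, k4⟩ := eh_disjointify (T₀ ∪ F) ξ u h1
  have hs : ∀ y, D.Supp (η y) (U y ∩ V y) := fun y z hz hz' => (k1 y).2 z (h3 y z hz hz')
  have hsum : ∀ y', ∑ y ∈ T₀ ∪ F, v y y' = 1 := by
    intro y'
    obtain ⟨y, hy, he⟩ := hT₀ y'
    rw [k3, Finset.prod_eq_zero (Finset.mem_union_left F hy) (by rw [he, h2, sub_self]), sub_zero]
  have hz : ∀ y' ∈ F, ∀ y, y ≠ y' → v y y' = 0 := fun y' hy' y hne =>
    (k1 y).1.wd.eh_val_zero (hs y) (mem_of_superset (hV2 y y' hy' hne.symm)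
      (compl_subset_compl.2 inter_subset_right))
  refine ⟨T₀ ∪ F, η, v, Finset.subset_union_right, fun y => ⟨(k1 y).1, fun z h4 h5 =>
    hs y z h4 fun h6 => h5 h6.1⟩, fun z => ?_, hsum, fun y' hy' => ?_, hz⟩
  · rw [k2]; linarith [(k4.mem z).1]
  · have := hsum y'
    rwa [Finset.sum_eq_single y' (fun y _ hne => hz y' hy' y hne)
      (fun h => absurd (Finset.mem_union_right _ hy') h)] at this

end Dom

end Vale.P116D
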