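import Vale.Agent.P116D.Defs

/-!
G0: notions for the general move.
-/

namespace Vale.P116D

open Set Filter Topology MeasureTheory Complex
open scoped ContDiff

variable {D : Dom} {S : Gens D} {φ ψ χ η ξ g w : ℂ → ℝ} {s σ r u : D.End → ℝ} {y : D.End}
  {U : Set ℂ} {z : ℂ} {R : Rect} {l : ℝ → ℝ}

noncomputable section

/-- The standing assumptions of the general move. -/
structure Ctx (S : Gens D) (w : ℂ → ℝ) (σ : D.End → ℝ) (R : Rect) : Prop where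
  str : Str S
  mem : In S w σ
  reg : Reg D w σ
  box : IsBox D w R

open Classical in
/-- The level function of the band between `t` and `t'`. -/
def tau (D : Dom) (w : ℂ → ℝ) (R : Rect) (t t' : ℝ) (z : ℂ) : ℝ :=
  if z ∈ Ut D w R t then t else if z ∈ Ut D w R t' then w z else t'

/-- Smooth and constant outside the inner part of the band. -/
def Flat (t t' h : ℝ) (H : ℝ → ℝ) : Prop :=
  ContDiff ℝ ∞ H ∧ (∀ x ≤ t + h, H x = H t) ∧ ∀ x, t' - h ≤ x → H x = H t'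

/-- The primitive that vanishes far left. -/
def prim (l : ℝ → ℝ) (x : ℝ) : ℝ := ∫ t in Iic x, l t

/-- The monotone level function. -/
def lev (D : Dom) (w : ℂ → ℝ) (R : Rect) (z : ℂ) : ℝ := sSup {t | z ∉ Ut D w R t}

/-- The new generators. -/
structure Gen (S : Gens D) (w : ℂ → ℝ) (R : Rect) (l : ℝ → ℝ) (g : ℂ → ℝ) : Prop where
  fn : D.Fn g
  bd : D.Bd g
  osc : ∀ y, D.osc y g ≤ cl D w l y
  om : ∀ χ, D.Fn χ → D.om χ g = omB D w R l χ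
  mem : In S g (cl D w l)
  orth : ∀ l', Lam R l' → ∀ η v, D.Wd η v → omB D w R l' (fun z => η z * g z) = 0

/-- The total pairing of `ξ` with the cycles is at most `c`. -/
def Null (D : Dom) (w : ℂ → ℝ) (R : Rect) (ξ : ℂ → ℝ) (c : ℝ) : Prop :=
  ∀ (n : ℕ) (f : Fin n → ℝ → ℝ) (E : Fin n → ℂ → ℝ) (v : Fin n → D.End → ℝ) (L : ℝ), 0 < L →
    (∀ i, Lam R (f i) ∧ D.Wd (E i) (v i) ∧ ∀ y, |v i y| ≤ 1) → (∀ t, ∑ i, |f i t| ≤ L) →
    ∑ i, |omB D w R (f i) fun z => E i z * ξ z| ≤ L * c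

/-- Small functions that vanish on the anchor box. -/
structure Sm (D : Dom) (w : ℂ → ℝ) (R : Rect) (ξ : ℂ → ℝ) (ε : ℝ) : Prop where
  fn : D.Fn ξ
  anc : ∀ z ∈ R.set, ξ z = 0
  nr : D.nr ξ ≤ ε
  null : Null D w R ξ ε

/-- The error integral over `A`. -/
def er (w : ℂ → ℝ) (A : Set ℂ) (l : ℝ → ℝ) (ψ : ℂ → ℝ) : ℝ :=
  ∫ z in A, |l (w z) * wd (gr ψ z) (gr w z)|

/-- The local bound of the cell lemma. -/
def cb (D : Dom) (w : ℂ → ℝ) (R : Rect) (F : Finset D.End) (C : Set ℂ) (ψ : ℂ → ℝ) {m : ℕ}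
    (f : Fin m → ℂ → ℝ) (a : Fin m → D.End → ℝ) (A : ℝ) (ρ : D.End → ℝ) (ξ : ℂ → ℝ) (ε : ℝ)
    (l : ℝ → ℝ) (E : ℂ → ℝ) : ℝ :=
  ∑ y ∈ F, (ρ y + ε) * (∫ x in Icc (D.lo y w - 2 * ε) (D.hi y w + 2 * ε), |l x|) +
    F.card * (2 * (|omB D w R l fun z => E z * ξ z| + er w D.G l ξ + ε * ∫ x, |l x|)) +
    ip (pw F (fun _ => 0) fun y => A * ∑ k, a k y) (cl D w l) +
    er w (D.G \ C) l ψ + A * ∑ k, er w (D.G \ C) l (f k) + ε * ∫ x, |l x|

end

end Vale.P116D
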