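import Vale.Agent.P116D.K13

/-!
G1a: bumps on finer and finer grids that are eventually one almost everywhere.
For each `n` the closed `ε`-neighbourhoods of the finite grid decrease to the grid, which is null
(`tendsto_measure_iInter_atTop` or `tendsto_measure_biInter_gt`); choose `ε n` with measure at most
`2⁻¹ ^ n` and `4 * ε n ≤` mesh; `bump_ex` on each band (one on `[p + ε, q - ε]`, supported in
`[p + ε / 2, q - ε / 2]`); Borel-Cantelli `MeasureTheory.ae_eventually_notMem`.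
-/

namespace Vale.P116D

open Set Filter Topology MeasureTheory Complex
open scoped ContDiff

/-- The grid points. -/
noncomputable def grd (a b : ℝ) (n k : ℕ) : ℝ := a + k * ((b - a) / (n + 1))

theorem g1a_small (μ : Measure ℝ) [IsFiniteMeasure μ] (h0 : ∀ t, μ {t} = 0) {G : Set ℝ}
    (hG : G.Finite) {η : ENNReal} (hη : 0 < η) {m : ℝ} (hm : 0 < m) :
    ∃ ε : ℝ, 0 < ε ∧ 4 * ε ≤ m ∧ μ (Metric.cthickening (2 * ε) G) ≤ η := by
  have : NullSingletonClass μ := ⟨h0⟩
  have h1 := tendsto_measure_cthickening_of_isCompact (μ := μ) hG.isCompact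
  rw [hG.measure_zero μ] at h1
  have h2 : ∀ᶠ r in 𝓝[>] (0 : ℝ), μ (Metric.cthickening r G) ≤ η :=
    (h1.eventually (eventually_le_nhds hη)).filter_mono nhdsWithin_le_nhds
  have h3 : ∀ᶠ r in 𝓝[>] (0 : ℝ), r ≤ m / 2 :=
    (eventually_le_nhds (half_pos hm)).filter_mono nhdsWithin_le_nhds
  obtain ⟨r, ⟨r1, r2⟩, r3⟩ := ((h2.and h3).and self_mem_nhdsWithin).exists
  have r4 : 0 < r := r3
  refine ⟨r / 2, half_pos r4, by linarith, ?_⟩
  rwa [show 2 * (r / 2) = r by ring]

theorem g1a_succ (a b : ℝ) (n k : ℕ) : grd a b n (k + 1) = grd a b n k + (b - a) / (n + 1) := by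
  unfold grd
  push_cast
  ring

theorem g1a_mono {a b : ℝ} (h : a < b) (n : ℕ) {k l : ℕ} (hkl : k ≤ l) :
    grd a b n k ≤ grd a b n l := by
  unfold grd
  have h1 : (0 : ℝ) ≤ (b - a) / (n + 1) := div_nonneg (by linarith) (by positivity)
  have h2 : (k : ℝ) ≤ l := Nat.cast_le.2 hkl
  have := mul_le_mul_of_nonneg_right h2 h1
  linarith

theorem g1a_last (a b : ℝ) (n : ℕ) : grd a b n (n + 1) = b := by
  unfold grd
  push_cast
  field_simp
  ring

theorem g1a_floor {a b : ℝ} (h : a < b) (n : ℕ) {t : ℝ} (ht : a ≤ t) :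
    ∃ k, grd a b n k ≤ t ∧ t < grd a b n (k + 1) := by
  have h1 : (0 : ℝ) < (b - a) / (n + 1) := div_pos (by linarith) (by positivity)
  have h2 : 0 ≤ (t - a) / ((b - a) / (n + 1)) := div_nonneg (by linarith) h1.le
  have h3 := (le_div_iff₀ h1).1 (Nat.floor_le h2)
  have h4 := (div_lt_iff₀ h1).1 (Nat.lt_floor_add_one ((t - a) / ((b - a) / (n + 1))))
  refine ⟨⌊(t - a) / ((b - a) / (n + 1))⌋₊, ?_, ?_⟩
  · unfold grd
    linarith
  · unfold grd
    push_cast
    linarith

theorem grid_bumps (μ : Measure ℝ) [IsFiniteMeasure μ] (h0 : ∀ t, μ {t} = 0) {a b : ℝ} (h : a < b) :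
    ∃ (β : ℕ → ℕ → ℝ → ℝ) (ε : ℕ → ℝ), (∀ n, 0 < ε n ∧ ε n ≤ (b - a) / (n + 1)) ∧
      (∀ n k, Wt (grd a b n k + ε n) (grd a b n (k + 1) - ε n) (β n k) ∧
        ∀ t, β n k t ∈ Icc (0 : ℝ) 1) ∧
      (∀ n t, ∑ k ∈ Finset.range (n + 1), β n k t ≤ 1) ∧
      ∀ᵐ t ∂μ, ∀ᶠ n in atTop, t ∈ Icc a b → ∃ k ∈ Finset.range (n + 1), β n k t = 1 := by
  have hm : ∀ n : ℕ, (0 : ℝ) < (b - a) / (n + 1) := fun n => div_pos (by linarith) (by positivity)
  choose ε e0 e1 e2 using fun n : ℕ => g1a_small μ h0 ((finite_Iic (n + 1)).image (grd a b n))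
    (η := 2⁻¹ ^ n) (ENNReal.pow_pos (by simp) n) (hm n)
  choose β b1 b2 b3 b4 using fun n k : ℕ => bump_ex (a' := grd a b n k + ε n)
    (a := grd a b n k + 2 * ε n) (b := grd a b n (k + 1) - 2 * ε n)
    (b' := grd a b n (k + 1) - ε n) (by linarith [e0 n])
    (by rw [g1a_succ]; linarith [e1 n]) (by linarith [e0 n])
  refine ⟨β, ε, fun n => ⟨e0 n, by linarith [e0 n, e1 n]⟩, fun n k => ⟨b1 n k, b2 n k⟩,
    fun n t => ?_, ?_⟩
  · by_cases hk : ∃ k, β n k t ≠ 0
    · obtain ⟨k, hk⟩ := hk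
      have h1 : ∀ l, l ≠ k → β n l t = 0 := fun l hl => by
        by_contra hl'
        have c1 := (b1 n k).2 t hk
        have c2 := (b1 n l).2 t hl'
        rcases lt_or_gt_of_ne hl with hl | hl
        · have := g1a_mono h n (show l + 1 ≤ k from hl)
          linarith [c1.1, c2.2, e0 n]
        · have := g1a_mono h n (show k + 1 ≤ l from hl)
          linarith [c1.2, c2.1, e0 n]
      by_cases hr : k ∈ Finset.range (n + 1)
      · rw [Finset.sum_eq_single_of_mem k hr fun l _ hl => h1 l hl]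
        exact (b2 n k t).2
      · rw [Finset.sum_eq_zero fun l hl => h1 l fun e => hr (e ▸ hl)]
        exact zero_le_one
    · rw [Finset.sum_eq_zero fun l _ => not_not.1 fun e => hk ⟨l, e⟩]
      exact zero_le_one
  · have hs : ∑' n : ℕ, μ (Metric.cthickening (2 * ε n) (grd a b n '' Iic (n + 1))) ≠ ⊤ := by
      refine ne_top_of_le_ne_top ?_ (ENNReal.tsum_le_tsum e2)
      rw [ENNReal.tsum_geometric]
      simp
    filter_upwards [ae_eventually_notMem hs] with t ht
    filter_upwards [ht] with n hn hab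
    have hd : ∀ j ≤ n + 1, 2 * ε n < |t - grd a b n j| := fun j hj => not_le.1 fun hle =>
      hn (Metric.mem_cthickening_of_dist_le t (grd a b n j) _ _ ⟨j, hj, rfl⟩ hle)
    obtain ⟨k, k1, k2⟩ := g1a_floor h n hab.1
    have hk : k < n + 1 := by
      by_contra hk
      have c1 := g1a_mono h n (not_lt.1 hk)
      have c2 := hd (n + 1) le_rfl
      rw [g1a_last] at c1 c2
      rw [show t - b = 0 by linarith [hab.2], abs_zero] at c2
      linarith [e0 n]
    have c1 := hd k hk.le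
    have c2 := hd (k + 1) hk
    rw [abs_of_nonneg (by linarith)] at c1
    rw [abs_of_nonpos (by linarith)] at c2
    exact ⟨k, Finset.mem_range.2 hk, b4 n k t ⟨by linarith, by linarith⟩⟩

end Vale.P116D
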