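import Vale.Agent.P116D.K1a
import Vale.Agent.P116D.Defs

/-!
K1: calculus of gradients and of the class `Fn`.
-/

namespace Vale.P116D

open Set Filter Topology MeasureTheory Complex
open scoped ContDiff

variable {D : Dom} {S : Gens D} {φ ψ χ η g d v w : ℂ → ℝ} {s σ r τ u : D.End → ℝ} {y : D.End}
  {U : Set ℂ} {z : ℂ}

theorem k1_of_le (hs : ContDiffOn ℝ ∞ φ D.G) {b : ℂ → ℝ} (hb : MemLp b 2 (volume.restrict D.G))
    (h : ∀ z ∈ D.G, ‖gr φ z‖ ≤ b z) : D.Fn φ :=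
  ⟨hs, hb.mono' (gr_meas φ).aestronglyMeasurable (ae_restrict_of_forall_mem (G_meas D) h)⟩

theorem k1_ind (D : Dom) {C : Set ℂ} (hC : IsCompact C) (M : ℝ) :
    MemLp (C.indicator fun _ => M) 2 (volume.restrict D.G) :=
  memLp_indicator_const 2 hC.measurableSet M
    (Or.inr ((Measure.restrict_apply_le _ _).trans_lt hC.measure_lt_top).ne)

theorem k1_bd {E F : Type} [NormedAddCommGroup E] [ProperSpace E] [NormedAddCommGroup F]
    {f : ℂ → E} {M : ℝ} (h : ∀ z ∈ D.G, ‖f z‖ ≤ M) {T : E → F} (hT : Continuous T) :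
    ∃ C, ∀ z ∈ D.G, ‖T (f z)‖ ≤ C := by
  obtain ⟨C, hC⟩ := (isCompact_closedBall (0 : E) M).exists_bound_of_continuousOn hT.continuousOn
  exact ⟨C, fun z hz => hC _ (mem_closedBall_zero_iff.2 (h z hz))⟩

theorem k1_smul {a M : ℝ} (h : |a| ≤ M) (p : ℂ) : ‖a • p‖ ≤ M * ‖p‖ := by
  rw [norm_smul]
  exact mul_le_mul_of_nonneg_right h (norm_nonneg _)

theorem k1_zero (h : fderiv ℝ φ z = 0) : gr φ z = 0 := by
  have h1 := norm_gr_le φ z
  rw [h, norm_zero, mul_zero] at h1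
  exact norm_le_zero_iff.1 h1

theorem Dom.Fn.congr (h : D.Fn φ) (e : EqOn ψ φ D.G) : D.Fn ψ :=
  k1_of_le (h.sm.congr e) h.l2.norm fun z hz =>
    (congrArg norm (gr_congr (e.eventuallyEq_of_mem ((G_open D).mem_nhds hz)))).le
theorem fn_const (D : Dom) (c : ℝ) : D.Fn fun _ => c :=
  k1_of_le contDiffOn_const (MemLp.zero (ε := ℝ)) fun z _ => by simp [gr_const]
theorem Dom.Fn.add (h : D.Fn φ) (h' : D.Fn ψ) : D.Fn fun z => φ z + ψ z :=
  k1_of_le (h.sm.add h'.sm) (h.l2.norm.add h'.l2.norm) fun z hz => by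
    rw [gr_add (h.diffAt hz) (h'.diffAt hz)]
    exact norm_add_le _ _
theorem Dom.Fn.sub (h : D.Fn φ) (h' : D.Fn ψ) : D.Fn fun z => φ z - ψ z :=
  k1_of_le (h.sm.sub h'.sm) (h.l2.norm.add h'.l2.norm) fun z hz => by
    rw [gr_sub (h.diffAt hz) (h'.diffAt hz)]
    exact norm_sub_le _ _
theorem Dom.Fn.neg (h : D.Fn φ) : D.Fn fun z => -φ z :=
  k1_of_le h.sm.neg h.l2.norm fun z _ => by rw [gr_neg, norm_neg]
theorem Dom.Fn.cmul (h : D.Fn φ) (c : ℝ) : D.Fn fun z => c * φ z :=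
  k1_of_le (contDiffOn_const.mul h.sm) (h.l2.norm.const_mul |c|) fun z hz => by
    rw [gr_cmul c (h.diffAt hz)]
    exact k1_smul le_rfl _
theorem Dom.Fn.sum {ι : Type} (F : Finset ι) {f : ι → ℂ → ℝ} (h : ∀ i ∈ F, D.Fn (f i)) :
    D.Fn fun z => ∑ i ∈ F, f i z :=
  k1_of_le (ContDiffOn.sum fun i hi => (h i hi).sm)
    (memLp_finsetSum F fun i hi => (h i hi).l2.norm) fun z hz => by
      rw [gr_sum F fun i hi => (h i hi).diffAt hz]
      exact norm_sum_le _ _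
theorem Dom.Fn.mul (h : D.Fn φ) (h' : D.Fn ψ) (b : D.Bd φ) (b' : D.Bd ψ) :
    D.Fn fun z => φ z * ψ z := by
  obtain ⟨M, hM⟩ := b
  obtain ⟨M', hM'⟩ := b'
  refine k1_of_le (h.sm.mul h'.sm) ((h'.l2.norm.const_mul M).add (h.l2.norm.const_mul M'))
    fun z hz => ?_
  rw [gr_mul (h.diffAt hz) (h'.diffAt hz)]
  exact (norm_add_le _ _).trans (add_le_add (k1_smul (hM z hz) _) (k1_smul (hM' z hz) _))
theorem Dom.Fn.comp {T : ℝ → ℝ} {C : ℝ} (h : D.Fn φ) (hT : ContDiff ℝ ∞ T)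
    (hC : ∀ z ∈ D.G, |deriv T (φ z)| ≤ C) : D.Fn fun z => T (φ z) :=
  k1_of_le (hT.comp_contDiffOn h.sm) (h.l2.norm.const_mul C) fun z hz => by
    rw [gr_comp (hT.differentiable (by simp) _) (h.diffAt hz)]
    exact k1_smul (hC z hz) _
theorem Dom.Fn.compB {T : ℝ → ℝ} (h : D.Fn φ) (b : D.Bd φ) (hT : ContDiff ℝ ∞ T) :
    D.Fn fun z => T (φ z) := by
  obtain ⟨M, hM⟩ := b
  obtain ⟨C, hC⟩ := k1_bd (f := φ) hM (hT.continuous_deriv (by simp))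
  exact h.comp hT hC
theorem fn_compN {k : ℕ} {Θ : (Fin k → ℝ) → ℝ} {f : Fin k → ℂ → ℝ} {C : ℝ} (h : ∀ i, D.Fn (f i))
    (hΘ : ContDiff ℝ ∞ Θ) (hC : ∀ z ∈ D.G, ‖fderiv ℝ Θ fun i => f i z‖ ≤ C) :
    D.Fn fun z => Θ fun i => f i z :=
  k1_of_le (hΘ.comp_contDiffOn (contDiffOn_pi.2 fun i => (h i).sm))
    (memLp_finsetSum Finset.univ fun i _ => (h i).l2.norm.const_mul C) fun z hz => by
      rw [gr_compN (hΘ.differentiable (by simp) _) fun i => (h i).diffAt hz]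
      refine (norm_sum_le _ _).trans (Finset.sum_le_sum fun i _ => k1_smul ?_ _)
      refine ((fderiv ℝ Θ fun i => f i z).le_opNorm (Pi.single i 1)).trans
        (le_trans (le_of_eq ?_) (hC z hz))
      rw [Pi.norm_single, norm_one, mul_one]
theorem fn_compB {k : ℕ} {Θ : (Fin k → ℝ) → ℝ} {f : Fin k → ℂ → ℝ} (h : ∀ i, D.Fn (f i))
    (b : ∀ i, D.Bd (f i)) (hΘ : ContDiff ℝ ∞ Θ) :
    D.Fn (fun z => Θ fun i => f i z) ∧ D.Bd fun z => Θ fun i => f i z := by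
  choose M hM using b
  have hx : ∀ z ∈ D.G, ‖fun i => f i z‖ ≤ ‖M‖ := fun z hz =>
    (pi_norm_le_iff_of_nonneg (norm_nonneg _)).2 fun i =>
      (hM i z hz).trans ((le_abs_self _).trans (norm_le_pi_norm M i))
  obtain ⟨C, hC⟩ := k1_bd hx (hΘ.continuous_fderiv (by simp))
  exact ⟨fn_compN h hΘ hC, k1_bd hx hΘ.continuous⟩
theorem fn_of_cs {C : Set ℂ} (h : ContDiffOn ℝ ∞ φ D.G) (hC : IsCompact C) (hG : C ⊆ D.G)
    (h0 : ∀ z ∈ D.G, z ∉ C → fderiv ℝ φ z = 0) : D.Fn φ := by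
  obtain ⟨M, hM⟩ := hC.exists_bound_of_continuousOn
    ((h.continuousOn_fderiv_of_isOpen (G_open D) (by simp)).mono hG)
  refine k1_of_le h (k1_ind D hC (2 * M)) fun z hz => ?_
  by_cases hz' : z ∈ C
  · rw [indicator_of_mem hz']
    linarith [norm_gr_le φ z, hM z hz']
  · rw [indicator_of_notMem hz', k1_zero (h0 z hz hz'), norm_zero]
theorem Dom.Wd.fn (h : D.Wd η u) : D.Fn η := by
  obtain ⟨C, hC, hG, h0⟩ := h.cs
  exact fn_of_cs h.sm.contDiffOn hC hG fun z _ => h0 z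
theorem Dom.Fn.wmul (h : D.Fn φ) (hη : D.Wd η u) (b : D.Bd η) : D.Fn fun z => η z * φ z := by
  obtain ⟨C, hC, hG, h0⟩ := hη.cs
  obtain ⟨M, hM⟩ := b
  obtain ⟨M', hM'⟩ := hC.exists_bound_of_continuousOn ((h.contOn.smul hη.fn.grCont).mono hG)
  refine k1_of_le (hη.sm.contDiffOn.mul h.sm) ((h.l2.norm.const_mul M).add (k1_ind D hC M'))
    fun z hz => ?_
  rw [gr_mul (hη.fn.diffAt hz) (h.diffAt hz)]
  refine (norm_add_le _ _).trans (add_le_add (k1_smul (hM z hz) _) ?_)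
  by_cases hz' : z ∈ C
  · rw [indicator_of_mem hz']
    exact hM' z hz'
  · rw [indicator_of_notMem hz', k1_zero (h0 z hz'), smul_zero, norm_zero]
theorem Dom.Bd.add (h : D.Bd φ) (h' : D.Bd ψ) : D.Bd fun z => φ z + ψ z := by
  obtain ⟨M, hM⟩ := h
  obtain ⟨M', hM'⟩ := h'
  exact ⟨M + M', fun z hz => (abs_add_le _ _).trans (add_le_add (hM z hz) (hM' z hz))⟩
theorem Dom.Bd.sub (h : D.Bd φ) (h' : D.Bd ψ) : D.Bd fun z => φ z - ψ z := by
  obtain ⟨M, hM⟩ := h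
  obtain ⟨M', hM'⟩ := h'
  exact ⟨M + M', fun z hz => (abs_sub _ _).trans (add_le_add (hM z hz) (hM' z hz))⟩
theorem Dom.Bd.mul (h : D.Bd φ) (h' : D.Bd ψ) : D.Bd fun z => φ z * ψ z := by
  obtain ⟨M, hM⟩ := h
  obtain ⟨M', hM'⟩ := h'
  exact ⟨M * M', fun z hz => (abs_mul _ _).trans_le
    (mul_le_mul (hM z hz) (hM' z hz) (abs_nonneg _) ((abs_nonneg _).trans (hM z hz)))⟩
theorem Dom.Bd.cmul (h : D.Bd φ) (c : ℝ) : D.Bd fun z => c * φ z := by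
  obtain ⟨M, hM⟩ := h
  exact ⟨|c| * M, fun z hz => (abs_mul _ _).trans_le
    (mul_le_mul_of_nonneg_left (hM z hz) (abs_nonneg _))⟩
theorem bd_const (D : Dom) (c : ℝ) : D.Bd fun _ => c := ⟨|c|, fun _ _ => le_rfl⟩
theorem Dom.Bd.sum {ι : Type} (F : Finset ι) {f : ι → ℂ → ℝ} (h : ∀ i ∈ F, D.Bd (f i)) :
    D.Bd fun z => ∑ i ∈ F, f i z := by
  choose! M hM using h
  exact ⟨∑ i ∈ F, M i, fun z hz => (Finset.abs_sum_le_sum_abs _ _).trans
    (Finset.sum_le_sum fun i hi => hM i hi z hz)⟩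
theorem Dom.Bd.comp {T : ℝ → ℝ} (h : D.Bd φ) (hT : Continuous T) : D.Bd fun z => T (φ z) := by
  obtain ⟨M, hM⟩ := h
  exact k1_bd (f := φ) hM hT

end Vale.P116D
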