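import Vale.Agent.P116D.K13a
import Vale.Agent.P116D.Defs

/-!
K13: smooth functions of one variable.
-/

namespace Vale.P116D

open Set Filter Topology MeasureTheory Complex
open scoped ContDiff

variable {D : Dom} {S : Gens D} {φ ψ χ η g d v w : ℂ → ℝ} {s σ r τ u : D.End → ℝ} {y : D.End}
  {U : Set ℂ} {z : ℂ}

/-- a bump: one on `[a, b]`, supported in `[a', b']` -/
theorem bump_ex {a' a b b' : ℝ} (h : a' < a) (h1 : a ≤ b) (h' : b < b') : ∃ T : ℝ → ℝ, Wt a' b' T ∧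
    (∀ x, T x ∈ Icc (0 : ℝ) 1) ∧ (∃ C, ∀ x, |deriv T x| ≤ C) ∧ ∀ x ∈ Icc a b, T x = 1 := by
  obtain ⟨T, -, hT, t1, -, t2, t3, -⟩ := step_ex h
  obtain ⟨R, -, hR, r1, -, r2, r3, -⟩ := step_ex h'
  have hs : ContDiff ℝ ∞ fun x => T x * (1 - R x) := hT.mul (contDiff_const.sub hR)
  have h0 : ∀ t, T t * (1 - R t) ≠ 0 → t ∈ Icc a' b' := fun t ht => by
    by_contra hn
    rcases not_and_or.1 hn with k | k
    · exact ht (by rw [t2 t (not_le.1 k).le, zero_mul])
    · exact ht (by rw [r3 t (not_le.1 k).le, sub_self, mul_zero])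
  have hc : HasCompactSupport fun x => T x * (1 - R x) :=
    HasCompactSupport.intro isCompact_Icc fun x hx => by_contra fun k => hx (h0 x k)
  refine ⟨fun x => T x * (1 - R x), ⟨hs, h0⟩, fun x => ?_, ?_, fun x hx => ?_⟩
  · obtain ⟨a1, a2⟩ := t1 x
    obtain ⟨b1, b2⟩ := r1 x
    exact ⟨mul_nonneg a1 (by linarith), mul_le_one₀ a2 (by linarith) (by linarith)⟩
  · exact (hs.continuous_deriv (by simp)).bounded_above_of_compact_support hc.deriv
  · simp only [t3 x hx.1, r2 x hx.2, sub_zero, mul_one]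

theorem prim_ex {T : ℝ → ℝ} (hT : ContDiff ℝ ∞ T) : ∃ P : ℝ → ℝ, ContDiff ℝ ∞ P ∧ deriv P = T := by
  have h : ∀ x, HasDerivAt (fun x => ∫ t in (0 : ℝ)..x, T t) (T x) x := fun x =>
    (hT.continuous.integral_hasStrictDerivAt 0 x).hasDerivAt
  have e : deriv (fun x => ∫ t in (0 : ℝ)..x, T t) = T := funext fun x => (h x).deriv
  exact ⟨_, contDiff_infty_iff_deriv.2 ⟨fun x => (h x).differentiableAt, by rwa [e]⟩, e⟩

/-- a bound for the derivative on a cube gives a bound for the oscillation on boxes -/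
theorem lip_cube {k : ℕ} {Θ : (Fin k → ℝ) → ℝ} (hΘ : ContDiff ℝ ∞ Θ) (M : ℝ) :
    ∃ C, 0 ≤ C ∧ ∀ x x' : Fin k → ℝ, (∀ i, |x i| ≤ M) → (∀ i, |x' i| ≤ M) →
      |Θ x - Θ x'| ≤ C * ∑ i, |x i - x' i| := by
  obtain ⟨C, hC⟩ := (isCompact_closedBall (0 : Fin k → ℝ) |M|).exists_bound_of_continuousOn
    (hΘ.continuous_fderiv (by simp)).continuousOn
  have hm : ∀ x : Fin k → ℝ, (∀ i, |x i| ≤ M) → x ∈ Metric.closedBall (0 : Fin k → ℝ) |M| :=
    fun x hx => mem_closedBall_zero_iff.2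
      ((pi_norm_le_iff_of_nonneg (abs_nonneg M)).2 fun i => (hx i).trans (le_abs_self M))
  have h0 : 0 ≤ C := (norm_nonneg _).trans (hC 0 (Metric.mem_closedBall_self (abs_nonneg M)))
  refine ⟨C, h0, fun x x' hx hx' => ?_⟩
  refine ((convex_closedBall _ _).norm_image_sub_le_of_norm_fderiv_le
    (fun y _ => hΘ.differentiable (by simp) y) hC (hm x' hx') (hm x hx)).trans ?_
  refine mul_le_mul_of_nonneg_left ((pi_norm_le_iff_of_nonneg
    (Finset.sum_nonneg fun i _ => abs_nonneg _)).2 fun i => ?_) h0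
  exact Finset.single_le_sum (f := fun i => |x i - x' i|) (fun i _ => abs_nonneg _)
    (Finset.mem_univ i)

/-- uniform approximation of a continuous weight by smooth ones -/
theorem wt_approx {l : ℝ → ℝ} {a' a b b' ε M : ℝ} (hl : Continuous l) (hs : ∀ t, l t ≠ 0 → t ∈ Icc a b)
    (hM : ∀ t, |l t| ≤ M) (h : a' < a) (h' : b < b') (hε : 0 < ε) :
    ∃ l', Wt a' b' l' ∧ (∀ t, |l' t - l t| ≤ ε) ∧ ∀ t, |l' t| ≤ M := by
  have hc : ∀ x : ℝ, Convex ℝ (Metric.closedBall (l x) ε ∩ Metric.closedBall 0 M ∩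
      {c : ℝ | x ∉ Icc a' b' → c = 0}) := fun x => by
    refine ((convex_closedBall _ _).inter (convex_closedBall _ _)).inter ?_
    intro c hc c' hc' p q _ _ _ hx
    rw [hc hx, hc' hx]
    simp
  obtain ⟨g, hg⟩ := exists_contMDiffMap_forall_mem_convex_of_local_const (n := ⊤)
    (modelWithCornersSelf ℝ ℝ) hc fun x => ⟨l x, by
      have k1 : ∀ᶠ y in 𝓝 x, y ∉ Icc a' b' → l x = 0 := by
        by_cases hx : l x = 0
        · exact Eventually.of_forall fun _ _ => hx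
        · filter_upwards [Icc_mem_nhds (h.trans_le (hs x hx).1) ((hs x hx).2.trans_lt h')]
            with y hy hn using absurd hy hn
      filter_upwards [k1, hl.continuousAt.eventually (Metric.closedBall_mem_nhds (l x) hε)]
        with y h1 h2
      exact ⟨⟨Metric.mem_closedBall'.2 h2, mem_closedBall_zero_iff.2 (hM x)⟩, h1⟩⟩
  exact ⟨g, ⟨g.contMDiff.contDiff, fun t ht => by_contra fun k => ht ((hg t).2 k)⟩,
    fun t => (hg t).1.1, fun t => mem_closedBall_zero_iff.1 (hg t).1.2⟩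

end Vale.P116D
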