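import Vale.Agent.P116D.Defs

/-!
K13: smooth functions of one variable.
-/

namespace Vale.P116D

open Set Filter Topology MeasureTheory Complex
open scoped ContDiff

variable {D : Dom} {S : Gens D} {φ ψ χ η g d v w : ℂ → ℝ} {s σ r τ u : D.End → ℝ} {y : D.End}
  {U : Set ℂ} {z : ℂ}

theorem k13a_prim {β : ℝ → ℝ} (hβ : ContDiff ℝ ∞ β) (c a : ℝ) :
    ContDiff ℝ ∞ (fun x => c + ∫ t in a..x, β t) ∧ deriv (fun x => c + ∫ t in a..x, β t) = β := by
  have h : ∀ x, HasDerivAt (fun x => c + ∫ t in a..x, β t) (β x) x := fun x =>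
    (hβ.continuous.integral_hasStrictDerivAt a x).hasDerivAt.const_add c
  have e : deriv (fun x => c + ∫ t in a..x, β t) = β := funext fun x => (h x).deriv
  exact ⟨contDiff_infty_iff_deriv.2 ⟨fun x => (h x).differentiableAt, e.symm ▸ hβ⟩, e⟩

theorem k13a_bump (a b : ℝ) {δ : ℝ} (hδ : 0 < δ) : ∃ β : ℝ → ℝ, ContDiff ℝ ∞ β ∧
    (∀ x, β x ∈ Icc (0 : ℝ) 1) ∧ (∀ x ∈ Icc a b, β x = 1) ∧ (∀ x ≤ a - δ, β x = 0) ∧
    ∀ x, b + δ ≤ x → β x = 0 := by
  refine ⟨fun x => Real.smoothTransition ((x - (a - δ)) / δ) *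
    Real.smoothTransition ((b + δ - x) / δ), ?_, fun x => ⟨?_, ?_⟩, fun x hx => ?_, fun x hx => ?_,
    fun x hx => ?_⟩
  · exact (Real.smoothTransition.contDiff.comp ((contDiff_id.sub contDiff_const).div_const δ)).mul
      (Real.smoothTransition.contDiff.comp ((contDiff_const.sub contDiff_id).div_const δ))
  · exact mul_nonneg (Real.smoothTransition.nonneg _) (Real.smoothTransition.nonneg _)
  · exact mul_le_one₀ (Real.smoothTransition.le_one _) (Real.smoothTransition.nonneg _)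
      (Real.smoothTransition.le_one _)
  · beta_reduce
    rw [Real.smoothTransition.one_of_one_le ((one_le_div hδ).2 (by linarith [hx.1])),
      Real.smoothTransition.one_of_one_le ((one_le_div hδ).2 (by linarith [hx.2])), one_mul]
  · beta_reduce
    rw [Real.smoothTransition.zero_of_nonpos (div_nonpos_of_nonpos_of_nonneg (by linarith) hδ.le),
      zero_mul]
  · beta_reduce
    rw [Real.smoothTransition.zero_of_nonpos
      (div_nonpos_of_nonpos_of_nonneg (sub_nonpos.2 hx) hδ.le), mul_zero]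

theorem k13a_lip {T : ℝ → ℝ} {C : ℝ} (hT : ContDiff ℝ ∞ T) {x x' : ℝ}
    (h : ∀ t ∈ uIcc x x', |deriv T t| ≤ C) : |T x - T x'| ≤ C * |x - x'| :=
  (convex_uIcc x x').norm_image_sub_le_of_norm_deriv_le
    (fun t _ => hT.differentiable (by simp) t) h right_mem_uIcc left_mem_uIcc

theorem k13a_const {T : ℝ → ℝ} (hT : ContDiff ℝ ∞ T) {x x' : ℝ} (h : x ≤ x')
    (h0 : ∀ t ∈ Icc x x', deriv T t = 0) : T x = T x' := by
  have h1 := k13a_lip (C := 0) hT (x := x) (x' := x') fun t ht => by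
    rw [h0 t (uIcc_of_le h ▸ ht), abs_zero]
  rwa [zero_mul, abs_nonpos_iff, sub_eq_zero] at h1

/-- a smooth clamp: the identity on `[a, b]`, values in `[a - δ, b + δ]` -/
theorem clamp_ex {a b δ : ℝ} (h : a ≤ b) (hδ : 0 < δ) : ∃ T : ℝ → ℝ, ContDiff ℝ ∞ T ∧
    (∀ x, deriv T x ∈ Icc (0 : ℝ) 1) ∧ (∀ x ∈ Icc a b, T x = x) ∧
    (∀ x, T x ∈ Icc (a - δ) (b + δ)) ∧ ∀ x, x ∉ Icc (a - 2 * δ) (b + 2 * δ) → deriv T x = 0 := by
  obtain ⟨β, h1, h2, h3, h4, h5⟩ := k13a_bump a b hδ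
  obtain ⟨h6, h7⟩ := k13a_prim h1 a a
  have h8 : ∀ x ∈ Icc a b, a + ∫ t in a..x, β t = x := by
    intro x hx
    rw [intervalIntegral.integral_congr (g := fun _ => 1) fun t ht =>
      h3 t (uIcc_subset_Icc (left_mem_Icc.2 h) hx ht)]
    simp
  obtain ⟨T, hT⟩ : ∃ T : ℝ → ℝ, T = fun x => a + ∫ t in a..x, β t := ⟨_, rfl⟩
  have h9 : ∀ x ∈ Icc a b, T x = x := hT ▸ h8
  rw [← hT] at h6 h7
  have hm : Monotone T := monotone_of_deriv_nonneg (h6.differentiable (by simp)) fun x =>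
    h7 ▸ (h2 x).1
  have hl : ∀ x x', |T x - T x'| ≤ 1 * |x - x'| := fun x x' => k13a_lip h6 fun t _ => by
    rw [h7, abs_of_nonneg (h2 t).1]
    exact (h2 t).2
  refine ⟨T, h6, h7 ▸ h2, h9, fun x => ⟨?_, ?_⟩, fun x hx => ?_⟩
  · have e1 := hl a (a - δ)
    rw [h9 a (left_mem_Icc.2 h), sub_sub_cancel, abs_of_pos hδ] at e1
    have e2 : T (min x (a - δ)) = T (a - δ) :=
      k13a_const h6 (min_le_right _ _) fun t ht => h7 ▸ h4 t ht.2
    linarith [(abs_le.1 e1).2, hm (min_le_left x (a - δ))]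
  · have e1 := hl (b + δ) b
    rw [h9 b (right_mem_Icc.2 h), add_sub_cancel_left, abs_of_pos hδ] at e1
    have e2 : T (b + δ) = T (max x (b + δ)) :=
      k13a_const h6 (le_max_right _ _) fun t ht => h7 ▸ h5 t ht.1
    linarith [(abs_le.1 e1).2, hm (le_max_left x (b + δ))]
  · rw [h7]
    rcases not_and_or.1 hx with h0 | h0
    · exact h4 x (by linarith [not_le.1 h0])
    · exact h5 x (by linarith [not_le.1 h0])
theorem lip_of_deriv {T : ℝ → ℝ} {C : ℝ} (hT : ContDiff ℝ ∞ T) (h : ∀ x, |deriv T x| ≤ C) (x x' : ℝ) :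
    |T x - T x'| ≤ C * |x - x'| := by
  exact k13a_lip hT fun t _ => h t
theorem mono_of_deriv {T : ℝ → ℝ} (hT : ContDiff ℝ ∞ T) (h : ∀ x, 0 ≤ deriv T x) : Monotone T := by
  exact monotone_of_deriv_nonneg (hT.differentiable (by simp)) h
theorem trunc_ex : ∃ T : ℕ → ℝ → ℝ, (∀ n, ContDiff ℝ ∞ (T n)) ∧ (∀ n x, deriv (T n) x ∈ Icc (0 : ℝ) 1) ∧
    (∀ (n : ℕ) (x : ℝ), |x| ≤ n → T n x = x) ∧ ∀ (n : ℕ) (x : ℝ), |T n x| ≤ n + 1 := by
  choose T h1 h2 h3 h4 _ using fun n : ℕ =>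
    clamp_ex (neg_le_self (Nat.cast_nonneg (α := ℝ) n)) one_pos
  refine ⟨T, h1, h2, fun n x hx => h3 n x (abs_le.1 hx), fun n x => abs_le.2 ⟨?_, (h4 n x).2⟩⟩
  linarith [(h4 n x).1]
/-- a smooth step: zero left of `a`, one right of `b` -/
theorem step_ex {a b : ℝ} (h : a < b) : ∃ T : ℝ → ℝ, ∃ C, ContDiff ℝ ∞ T ∧ (∀ x, T x ∈ Icc (0 : ℝ) 1) ∧
    (∀ x, deriv T x ∈ Icc 0 C) ∧ (∀ x ≤ a, T x = 0) ∧ (∀ x, b ≤ x → T x = 1) ∧
    ∀ x ∈ Ioo a b, 0 < deriv T x := by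
  obtain ⟨γ, h1, h2, h3, h4, h5⟩ : ∃ γ : ℝ → ℝ, ContDiff ℝ ∞ γ ∧ (∀ x, γ x ∈ Icc (0 : ℝ) 1) ∧
      (∀ x ∈ Ioo a b, 0 < γ x) ∧ (∀ x ≤ a, γ x = 0) ∧ ∀ x, b ≤ x → γ x = 0 := by
    refine ⟨fun x => Real.smoothTransition (x - a) * Real.smoothTransition (b - x), ?_,
      fun x => ⟨?_, ?_⟩, fun x hx => ?_, fun x hx => ?_, fun x hx => ?_⟩
    · exact (Real.smoothTransition.contDiff.comp (contDiff_id.sub contDiff_const)).mul
        (Real.smoothTransition.contDiff.comp (contDiff_const.sub contDiff_id))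
    · exact mul_nonneg (Real.smoothTransition.nonneg _) (Real.smoothTransition.nonneg _)
    · exact mul_le_one₀ (Real.smoothTransition.le_one _) (Real.smoothTransition.nonneg _)
        (Real.smoothTransition.le_one _)
    · exact mul_pos (Real.smoothTransition.pos_of_pos (sub_pos.2 hx.1))
        (Real.smoothTransition.pos_of_pos (sub_pos.2 hx.2))
    · beta_reduce
      rw [Real.smoothTransition.zero_of_nonpos (sub_nonpos.2 hx), zero_mul]
    · beta_reduce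
      rw [Real.smoothTransition.zero_of_nonpos (sub_nonpos.2 hx), mul_zero]
  have hI : 0 < ∫ t in a..b, γ t :=
    intervalIntegral.intervalIntegral_pos_of_pos_on (h1.continuous.intervalIntegrable _ _) h3 h
  obtain ⟨h6, h7⟩ := k13a_prim (h1.div_const (∫ t in a..b, γ t)) 0 a
  obtain ⟨T, hT⟩ : ∃ T : ℝ → ℝ, T = fun x => 0 + ∫ t in a..x, γ t / ∫ t in a..b, γ t := ⟨_, rfl⟩
  have ha : T a = 0 := by simp [hT]
  have hb : T b = 1 := by
    rw [hT]
    beta_reduce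
    rw [zero_add, intervalIntegral.integral_div, div_self hI.ne']
  rw [← hT] at h6 h7
  have h8 : ∀ x, 0 ≤ deriv T x := fun x => h7 ▸ div_nonneg (h2 x).1 hI.le
  have hm := mono_of_deriv h6 h8
  have h9 : ∀ x ≤ a, T x = 0 := fun x hx => (k13a_const h6 hx fun t ht => by
    rw [h7]
    exact div_eq_zero_iff.2 (Or.inl (h4 t ht.2))).trans ha
  have h10 : ∀ x, b ≤ x → T x = 1 := fun x hx => (k13a_const h6 hx fun t ht => by
    rw [h7]
    exact div_eq_zero_iff.2 (Or.inl (h5 t ht.1))).symm.trans hb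
  refine ⟨T, 1 / ∫ t in a..b, γ t, h6, fun x => ⟨?_, ?_⟩, fun x => ⟨h8 x, ?_⟩, h9, h10,
    fun x hx => h7 ▸ div_pos (h3 x hx) hI⟩
  · exact (h9 _ (min_le_right x a)).symm.trans_le (hm (min_le_left _ _))
  · exact (hm (le_max_left x b)).trans_eq (h10 _ (le_max_right _ _))
  · rw [h7]
    exact div_le_div_of_nonneg_right (h2 x).2 hI.le
/-- zero near `[a, b]`, one away from it -/
theorem off_ex {a b δ : ℝ} (h : a ≤ b) (hδ : 0 < δ) : ∃ T : ℝ → ℝ, ∃ C, ContDiff ℝ ∞ T ∧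
    (∀ x, T x ∈ Icc (0 : ℝ) 1) ∧ (∀ x, |deriv T x| ≤ C) ∧
    (∀ x ∈ Icc (a - δ / 2) (b + δ / 2), T x = 0) ∧ ∀ x, x ∉ Icc (a - δ) (b + δ) → T x = 1 := by
  obtain ⟨β, h1, h2, h3, h4, h5⟩ := k13a_bump (a - δ / 2) (b + δ / 2) (half_pos hδ)
  have h6 : ∀ x, x ∉ Icc (a - δ) (b + δ) → β x = 0 := fun x hx => by
    rcases not_and_or.1 hx with h0 | h0
    · exact h4 x (by linarith [not_le.1 h0])
    · exact h5 x (by linarith [not_le.1 h0])
  obtain ⟨C, hC⟩ := (HasCompactSupport.intro isCompact_Icc h6).deriv.exists_bound_of_continuous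
    (h1.continuous_deriv (by simp))
  refine ⟨fun x => 1 - β x, C, contDiff_const.sub h1, fun x => ⟨?_, ?_⟩, fun x => ?_,
    fun x hx => ?_, fun x hx => ?_⟩
  · exact sub_nonneg.2 (h2 x).2
  · exact sub_le_self _ (h2 x).1
  · rw [deriv_const_sub, abs_neg]
    exact hC x
  · exact sub_eq_zero.2 (h3 x hx).symm
  · exact sub_eq_self.2 (h6 x hx)

end Vale.P116D
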