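import Vale.Agent.P116D.Defs

/-!
K1: calculus of gradients and of the class `Fn`.
-/

namespace Vale.P116D

open Set Filter Topology MeasureTheory Complex
open scoped ContDiff

variable {D : Dom} {S : Gens D} {φ ψ χ η g d v w : ℂ → ℝ} {s σ r τ u : D.End → ℝ} {y : D.End}
  {U : Set ℂ} {z : ℂ}

theorem G_open (D : Dom) : IsOpen D.G := by
  exact D.cpt.isClosed.isOpen_compl
theorem G_meas (D : Dom) : MeasurableSet D.G := by
  exact (G_open D).measurableSet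
theorem G_conn (D : Dom) : IsConnected D.G := by
  exact D.conn
theorem Dom.Fn.diffAt (h : D.Fn φ) (hz : z ∈ D.G) : DifferentiableAt ℝ φ z := by
  exact (h.sm.contDiffAt ((G_open D).mem_nhds hz)).differentiableAt (by simp)
theorem Dom.Fn.cdAt (h : D.Fn φ) (hz : z ∈ D.G) : ContDiffAt ℝ ∞ φ z := by
  exact h.sm.contDiffAt ((G_open D).mem_nhds hz)
theorem Dom.Fn.contOn (h : D.Fn φ) : ContinuousOn φ D.G := by
  exact h.sm.continuousOn
theorem k1a_eq (φ : ℂ → ℝ) :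
    gr φ = fun z => ((fderiv ℝ φ z 1 : ℝ) : ℂ) + ((fderiv ℝ φ z I : ℝ) : ℂ) * I := by
  funext z
  apply Complex.ext <;> simp [gr]

theorem k1a_of {L : ℂ →L[ℝ] ℝ} (h : fderiv ℝ φ z = L) : gr φ z = ⟨L 1, L I⟩ := by
  rw [gr, h]

theorem Dom.Fn.grCont (h : D.Fn φ) : ContinuousOn (gr φ) D.G := by
  have h1 : ContinuousOn (fderiv ℝ φ) D.G := h.sm.continuousOn_fderiv_of_isOpen (G_open D) (by simp)
  rw [k1a_eq]
  exact (Complex.continuous_ofReal.comp_continuousOn (h1.clm_apply continuousOn_const)).add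
    ((Complex.continuous_ofReal.comp_continuousOn (h1.clm_apply continuousOn_const)).mul
      continuousOn_const)
theorem gr_meas (φ : ℂ → ℝ) : Measurable (gr φ) := by
  rw [k1a_eq]
  exact (Complex.measurable_ofReal.comp (measurable_fderiv_apply_const ℝ φ 1)).add
    ((Complex.measurable_ofReal.comp (measurable_fderiv_apply_const ℝ φ I)).mul_const I)
theorem gr_congr (h : φ =ᶠ[𝓝 z] ψ) : gr φ z = gr ψ z := by
  rw [gr, gr, h.fderiv_eq]
theorem gr_const (c : ℝ) (z : ℂ) : gr (fun _ => c) z = 0 := by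
  apply Complex.ext <;> simp [gr]
theorem gr_add (h : DifferentiableAt ℝ φ z) (h' : DifferentiableAt ℝ ψ z) :
    gr (fun z => φ z + ψ z) z = gr φ z + gr ψ z := by
  rw [k1a_of (h.hasFDerivAt.fun_add h'.hasFDerivAt).fderiv]
  apply Complex.ext <;> simp [gr]
theorem gr_sub (h : DifferentiableAt ℝ φ z) (h' : DifferentiableAt ℝ ψ z) :
    gr (fun z => φ z - ψ z) z = gr φ z - gr ψ z := by
  rw [k1a_of (h.hasFDerivAt.fun_sub h'.hasFDerivAt).fderiv]
  apply Complex.ext <;> simp [gr]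
theorem gr_neg (φ : ℂ → ℝ) (z : ℂ) : gr (fun z => -φ z) z = -gr φ z := by
  rw [k1a_of (fderiv_fun_neg (f := φ) (x := z))]
  apply Complex.ext <;> simp [gr]
theorem gr_cmul (c : ℝ) (h : DifferentiableAt ℝ φ z) : gr (fun z => c * φ z) z = c • gr φ z := by
  rw [k1a_of (h.hasFDerivAt.const_mul c).fderiv]
  apply Complex.ext <;> simp [gr]
theorem gr_mul (h : DifferentiableAt ℝ φ z) (h' : DifferentiableAt ℝ ψ z) :
    gr (fun z => φ z * ψ z) z = φ z • gr ψ z + ψ z • gr φ z := by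
  rw [k1a_of (h.hasFDerivAt.fun_mul h'.hasFDerivAt).fderiv]
  apply Complex.ext <;> simp [gr]
theorem gr_sum {ι : Type} (F : Finset ι) {f : ι → ℂ → ℝ} (h : ∀ i ∈ F, DifferentiableAt ℝ (f i) z) :
    gr (fun z => ∑ i ∈ F, f i z) z = ∑ i ∈ F, gr (f i) z := by
  rw [k1a_of (HasFDerivAt.fun_sum fun i hi => (h i hi).hasFDerivAt).fderiv]
  apply Complex.ext <;> simp [gr, Complex.re_sum, Complex.im_sum]
theorem gr_comp {T : ℝ → ℝ} (hT : DifferentiableAt ℝ T (φ z)) (h : DifferentiableAt ℝ φ z) :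
    gr (fun z => T (φ z)) z = deriv T (φ z) • gr φ z := by
  have h1 : HasFDerivAt (fun z => T (φ z)) (deriv T (φ z) • fderiv ℝ φ z) z :=
    hT.hasDerivAt.comp_hasFDerivAt z h.hasFDerivAt
  rw [k1a_of h1.fderiv]
  apply Complex.ext <;> simp [gr]
theorem gr_compN {k : ℕ} {Θ : (Fin k → ℝ) → ℝ} {f : Fin k → ℂ → ℝ}
    (hΘ : DifferentiableAt ℝ Θ fun i => f i z) (h : ∀ i, DifferentiableAt ℝ (f i) z) :
    gr (fun z => Θ fun i => f i z) z =
      ∑ i, fderiv ℝ Θ (fun i => f i z) (Pi.single i 1) • gr (f i) z := by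
  have h0 : HasFDerivAt (fun z i => f i z) (ContinuousLinearMap.pi fun i => fderiv ℝ (f i) z) z :=
    hasFDerivAt_pi.2 fun i => (h i).hasFDerivAt
  have h1 : HasFDerivAt (fun z => Θ fun i => f i z) ((fderiv ℝ Θ fun i => f i z).comp
      (ContinuousLinearMap.pi fun i => fderiv ℝ (f i) z)) z :=
    hΘ.hasFDerivAt.comp z h0
  have h2 : ∀ (L : (Fin k → ℝ) →L[ℝ] ℝ) (x : Fin k → ℝ),
      L x = ∑ i, L (Pi.single i 1) * x i := by
    intro L x
    conv_lhs => rw [pi_eq_sum_univ' x]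
    rw [map_sum]
    refine Finset.sum_congr rfl fun i _ => ?_
    rw [map_smul, smul_eq_mul, mul_comm]
  rw [k1a_of h1.fderiv]
  apply Complex.ext
  · simp only [ContinuousLinearMap.comp_apply, Complex.re_sum, Complex.smul_re, smul_eq_mul]
    rw [h2]
    rfl
  · simp only [ContinuousLinearMap.comp_apply, Complex.im_sum, Complex.smul_im, smul_eq_mul]
    rw [h2]
    rfl
theorem fderiv_eq_dt (φ : ℂ → ℝ) (z e : ℂ) : fderiv ℝ φ z e = dt (gr φ z) e := by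
  have h1 : e = e.re • (1 : ℂ) + e.im • I := by
    apply Complex.ext <;> simp
  conv_lhs => rw [h1]
  rw [map_add, map_smul, map_smul]
  simp only [dt, gr, smul_eq_mul]
  ring
theorem norm_gr_le (φ : ℂ → ℝ) (z : ℂ) : ‖gr φ z‖ ≤ 2 * ‖fderiv ℝ φ z‖ := by
  have h1 := (fderiv ℝ φ z).le_opNorm 1
  have h2 := (fderiv ℝ φ z).le_opNorm I
  rw [norm_one, mul_one, Real.norm_eq_abs] at h1
  rw [Complex.norm_I, mul_one, Real.norm_eq_abs] at h2
  have h3 : ‖gr φ z‖ ≤ |fderiv ℝ φ z 1| + |fderiv ℝ φ z I| :=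
    Complex.norm_le_abs_re_add_abs_im (gr φ z)
  linarith
theorem k1a_sq (p : ℂ) : ‖p‖ ^ 2 = p.re ^ 2 + p.im ^ 2 := by
  rw [← Complex.normSq_eq_norm_sq, Complex.normSq_apply]
  ring

theorem k1a_dt (p q : ℂ) : |dt p q| ≤ ‖p‖ * ‖q‖ := by
  refine abs_le_of_sq_le_sq' ?_ (by positivity) |> abs_le.2
  rw [mul_pow, k1a_sq, k1a_sq, dt]
  nlinarith [sq_nonneg (p.re * q.im - p.im * q.re)]

theorem norm_fderiv_le (φ : ℂ → ℝ) (z : ℂ) : ‖fderiv ℝ φ z‖ ≤ ‖gr φ z‖ := by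
  refine ContinuousLinearMap.opNorm_le_bound _ (norm_nonneg _) fun e => ?_
  rw [fderiv_eq_dt, Real.norm_eq_abs]
  exact k1a_dt _ _
theorem abs_wd_le (p q : ℂ) : |wd p q| ≤ ‖p‖ * ‖q‖ := by
  refine abs_le_of_sq_le_sq' ?_ (by positivity) |> abs_le.2
  rw [mul_pow, k1a_sq, k1a_sq, wd]
  nlinarith [sq_nonneg (p.re * q.re + p.im * q.im)]
theorem abs_dt_le (p q : ℂ) : |dt p q| ≤ ‖p‖ * ‖q‖ := by
  exact k1a_dt p q

end Vale.P116D
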