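import Vale.Agent.P116D.K3a
import Vale.Agent.P116D.Defs

/-!
K3: square summable functions.
-/

namespace Vale.P116D

open Set Filter Topology MeasureTheory Complex
open scoped ContDiff

variable {D : Dom} {S : Gens D} {φ ψ χ η g d v w : ℂ → ℝ} {s σ r τ u : D.End → ℝ} {y : D.End}
  {U : Set ℂ} {z : ℂ}
  {Y : Type}

theorem k3_sq (a : Y → ℝ) : nl a ^ 2 = ∑' y, a y ^ 2 :=
  Real.sq_sqrt (tsum_nonneg fun _ => sq_nonneg _)

theorem k3_fin {a : Y → ℝ} (h : Sq a) (F : Finset Y) : ∑ y ∈ F, a y ^ 2 ≤ nl a ^ 2 := by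
  rw [k3_sq]
  exact Summable.sum_le_tsum F (fun _ _ => sq_nonneg _) h

theorem k3_of_fin {a : Y → ℝ} {c : ℝ} (hc : 0 ≤ c) (h : ∀ F : Finset Y, ∑ y ∈ F, a y ^ 2 ≤ c ^ 2) :
    Sq a ∧ nl a ≤ c :=
  ⟨summable_of_sum_le (fun _ => sq_nonneg _) h,
    Real.sqrt_le_iff.2 ⟨hc, Real.tsum_le_of_sum_le (fun _ => sq_nonneg _) h⟩⟩

theorem abs_ip_le {a b : Y → ℝ} (h : Sq a) (h' : Sq b) : |ip a b| ≤ nl a * nl b := by
  have h0 : 0 ≤ nl a * nl b := mul_nonneg (Real.sqrt_nonneg _) (Real.sqrt_nonneg _)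
  have h1 : Tendsto (fun F : Finset Y => |∑ y ∈ F, a y * b y|) atTop (𝓝 |ip a b|) :=
    (h.summable h').hasSum.abs
  refine le_of_tendsto' h1 fun F => ?_
  refine abs_le.2 (abs_le_of_sq_le_sq' ?_ h0)
  refine (Finset.sum_mul_sq_le_sq_mul_sq F a b).trans ?_
  rw [mul_pow]
  exact mul_le_mul (k3_fin h F) (k3_fin h' F) (Finset.sum_nonneg fun _ _ => sq_nonneg _)
    (sq_nonneg _)
theorem nl_nonneg (a : Y → ℝ) : 0 ≤ nl a := by
  exact Real.sqrt_nonneg _
theorem nl_sq (a : Y → ℝ) : nl a ^ 2 = ip a a := by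
  rw [k3_sq, ip]
  simp only [sq]
theorem nl_add {a b : Y → ℝ} (h : Sq a) (h' : Sq b) : nl (fun y => a y + b y) ≤ nl a + nl b := by
  refine le_of_sq_le_sq ?_ (add_nonneg (nl_nonneg a) (nl_nonneg b))
  have hs := h.add h'
  have e1 : ip a (fun y => a y + b y) = ip a a + ip a b := by
    rw [ip_comm, ip_add h h' h, ip_comm b a]
  have e2 : ip b (fun y => a y + b y) = ip a b + ip b b := by
    rw [ip_comm, ip_add h h' h']
  rw [nl_sq, ip_add h h' hs, e1, e2, ← nl_sq, ← nl_sq]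
  have := (le_abs_self _).trans (abs_ip_le h h')
  nlinarith
theorem nl_cmul (t : ℝ) (a : Y → ℝ) : nl (fun y => t * a y) = |t| * nl a := by
  simp only [nl, mul_pow]
  rw [tsum_mul_left, Real.sqrt_mul (sq_nonneg t), Real.sqrt_sq_eq_abs]
theorem nl_mono {a b : Y → ℝ} (h : Sq b) (e : ∀ y, |a y| ≤ |b y|) : nl a ≤ nl b := by
  exact Real.sqrt_le_sqrt (Summable.tsum_le_tsum (fun y => sq_le_sq.2 (e y)) (h.mono e) h)
theorem nl_sum {ι : Type} (F : Finset ι) {f : ι → Y → ℝ} (h : ∀ i ∈ F, Sq (f i)) :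
    nl (fun y => ∑ i ∈ F, f i y) ≤ ∑ i ∈ F, nl (f i) := by
  classical
  induction F using Finset.induction_on with
  | empty => simp [nl]
  | insert i F hi ih =>
    simp only [Finset.sum_insert hi]
    have h1 : ∀ j ∈ F, Sq (f j) := fun j hj => h j (Finset.mem_insert_of_mem hj)
    exact (nl_add (h i (Finset.mem_insert_self i F)) (Sq.sum F h1)).trans (by linarith [ih h1])
theorem abs_le_nl {a : Y → ℝ} (h : Sq a) (y : Y) : |a y| ≤ nl a := by
  refine abs_le.2 (abs_le_of_sq_le_sq' ?_ (nl_nonneg a))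
  simpa using k3_fin h {y}
theorem nl_upd_le {a : Y → ℝ} (h : Sq a) (y : Y) (t : ℝ) : nl (upd a y t) ≤ nl (upd a y 0) + |t| := by
  refine le_of_sq_le_sq ?_ (add_nonneg (nl_nonneg _) (abs_nonneg t))
  have e1 : upd a y t y = t := by simp [upd]
  have e0 : upd a y 0 y = 0 := by simp [upd]
  rw [nl_sq, ip_upd h (h.upd y t) y t, ip_comm, ip_upd h (h.upd y 0) y t, e1, e0, ← nl_sq]
  have := mul_nonneg (nl_nonneg (upd a y 0)) (abs_nonneg t)
  nlinarith [sq_abs t]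
/-- tails -/
theorem Sq.tail {a : Y → ℝ} (h : Sq a) {ε : ℝ} (hε : 0 < ε) :
    ∃ F : Finset Y, ∀ F' : Finset Y, F ⊆ F' → nl (P116D.pw F' (fun _ => 0) a) ≤ ε := by
  classical
  obtain ⟨F, hF⟩ := summable_iff_vanishing.1 h (Iio (ε ^ 2)) (Iio_mem_nhds (by positivity))
  refine ⟨F, fun F' hF' => (k3_of_fin hε.le fun G => ?_).2⟩
  have e : ∑ y ∈ G, P116D.pw F' (fun _ => 0) a y ^ 2 = ∑ y ∈ G \ F', a y ^ 2 := by
    rw [Finset.sdiff_eq_filter, Finset.sum_filter]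
    refine Finset.sum_congr rfl fun y _ => ?_
    by_cases hy : y ∈ F' <;> simp [P116D.pw, hy]
  rw [e]
  exact le_of_lt (hF _ (Finset.disjoint_of_subset_right hF' Finset.sdiff_disjoint))
theorem ip_tendsto {f : ℕ → Y → ℝ} {a c : Y → ℝ} (h : ∀ n, Sq (f n)) (ha : Sq a) (hc : Sq c)
    (hl : Tendsto (fun n => nl fun y => f n y - a y) atTop (𝓝 0)) :
    Tendsto (fun n => ip (f n) c) atTop (𝓝 (ip a c)) := by
  rw [tendsto_iff_norm_sub_tendsto_zero]
  have h1 := hl.mul_const (nl c)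
  rw [zero_mul] at h1
  refine squeeze_zero (fun _ => norm_nonneg _) (fun n => ?_) h1
  rw [← ip_sub (h n) ha hc, Real.norm_eq_abs]
  exact abs_ip_le ((h n).sub ha) hc
/-- dominated convergence -/
theorem nl_tendsto {ι : Type} {l : Filter ι} {f : ι → Y → ℝ} {b : Y → ℝ} (hb : Sq b)
    (hf : ∀ᶠ n in l, ∀ y, |f n y| ≤ |b y|) (h0 : ∀ y, Tendsto (fun n => f n y) l (𝓝 0)) :
    Tendsto (fun n => nl (f n)) l (𝓝 0) := by
  have h1 : Tendsto (fun n => ∑' y, f n y ^ 2) l (𝓝 (∑' _ : Y, (0 : ℝ))) := by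
    refine tendsto_tsum_of_dominated_convergence hb (fun y => ?_) ?_
    · simpa using (h0 y).pow 2
    · filter_upwards [hf] with n hn y
      rw [Real.norm_of_nonneg (sq_nonneg _)]
      exact sq_le_sq.2 (hn y)
  have h2 := h1.sqrt
  rw [tsum_zero, Real.sqrt_zero] at h2
  exact h2
theorem k3_series {f : ℕ → Y → ℝ} {e : ℕ → ℝ} (h : ∀ n, Cost (f n)) (he : Summable e)
    (hl : ∀ n, nl (f n) ≤ e n) : Cost (fun y => ∑' n, f n y) ∧
      nl (fun y => ∑' n, f n y) ≤ ∑' n, e n ∧ ∀ y, Summable fun n => f n y := by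
  have he0 : ∀ n, 0 ≤ e n := fun n => (nl_nonneg _).trans (hl n)
  have hs : ∀ y, Summable fun n => f n y := fun y =>
    he.of_nonneg_of_le (fun n => (h n).1 y) fun n =>
      ((le_abs_self _).trans (abs_le_nl (h n).2 y)).trans (hl n)
  have key := k3_of_fin (a := fun y => ∑' n, f n y) (tsum_nonneg he0) fun G => by
    have h1 : Tendsto (fun N => ∑ y ∈ G, (∑ n ∈ Finset.range N, f n y) ^ 2) atTop
        (𝓝 (∑ y ∈ G, (∑' n, f n y) ^ 2)) :=
      tendsto_finsetSum G fun y _ => (hs y).hasSum.tendsto_sum_nat.pow 2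
    refine le_of_tendsto' h1 fun N => ?_
    refine (k3_fin (Sq.sum (Finset.range N) fun n _ => (h n).2) G).trans ?_
    refine pow_le_pow_left₀ (nl_nonneg _) ?_ 2
    refine (nl_sum (Finset.range N) fun n _ => (h n).2).trans ?_
    exact (Finset.sum_le_sum fun n _ => hl n).trans (he.sum_le_tsum _ fun n _ => he0 n)
  exact ⟨⟨fun y => tsum_nonneg fun n => (h n).1 y, key.1⟩, key.2, hs⟩

/-- a series of small costs -/
theorem cost_tsum {f : ℕ → Y → ℝ} {e : ℕ → ℝ} (h : ∀ n, Cost (f n)) (he : Summable e)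
    (hl : ∀ n, nl (f n) ≤ e n) : Cost (fun y => ∑' n, f n y) ∧ nl (fun y => ∑' n, f n y) ≤ ∑' n, e n ∧
      (∀ y, Summable fun n => f n y) ∧
      Tendsto (fun N => nl fun y => ∑ n ∈ Finset.range N, f n y - ∑' n, f n y) atTop (𝓝 0) := by
  obtain ⟨h1, h2, h3⟩ := k3_series h he hl
  refine ⟨h1, h2, h3, squeeze_zero (fun _ => nl_nonneg _) (fun N => ?_) (tendsto_sum_nat_add e)⟩
  obtain ⟨h4, h5, -⟩ := k3_series (f := fun n => f (n + N)) (e := fun n => e (n + N))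
    (fun n => h _) ((summable_nat_add_iff N).2 he) fun n => hl _
  refine le_trans (nl_mono h4.2 fun y => le_of_eq ?_) h5
  rw [← (h3 y).sum_add_tsum_nat_add N, sub_add_cancel_left, abs_neg]

end Vale.P116D
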