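import Vale.Agent.P116D.Defs

/-!
K3: square summable functions.
-/

namespace Vale.P116D

open Set Filter Topology MeasureTheory Complex
open scoped ContDiff

variable {D : Dom} {S : Gens D} {φ ψ χ η g d v w : ℂ → ℝ} {s σ r τ u : D.End → ℝ} {y : D.End}
  {U : Set ℂ} {z : ℂ}
  {Y : Type}

theorem Sq.mono {a b : Y → ℝ} (h : Sq b) (e : ∀ y, |a y| ≤ |b y|) : Sq a :=
  Summable.of_nonneg_of_le (fun _ => sq_nonneg _) (fun y => sq_le_sq.2 (e y)) h
theorem Sq.add {a b : Y → ℝ} (h : Sq a) (h' : Sq b) : Sq fun y => a y + b y :=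
  Summable.of_nonneg_of_le (fun _ => sq_nonneg _)
    (fun y => by nlinarith [sq_nonneg (a y - b y)])
    ((Summable.mul_left 2 h).add (Summable.mul_left 2 h'))
theorem Sq.cmul {a : Y → ℝ} (h : Sq a) (c : ℝ) : Sq fun y => c * a y :=
  (Summable.mul_left (c ^ 2) h).congr fun y => (mul_pow c (a y) 2).symm
theorem Sq.sub {a b : Y → ℝ} (h : Sq a) (h' : Sq b) : Sq fun y => a y - b y :=
  (h.add (h'.cmul (-1))).mono fun y => le_of_eq (by rw [neg_one_mul, sub_eq_add_neg])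
theorem Sq.bmul {a b : Y → ℝ} {C : ℝ} (h : Sq a) (e : ∀ y, |b y| ≤ C) : Sq fun y => b y * a y :=
  (h.cmul C).mono fun y => by
    rw [abs_mul, abs_mul]
    exact mul_le_mul_of_nonneg_right ((e y).trans (le_abs_self C)) (abs_nonneg _)
theorem k3a_zero : Sq fun _ : Y => (0 : ℝ) := by
  simpa only [Sq, ne_eq, OfNat.ofNat_ne_zero, not_false_eq_true, zero_pow] using summable_zero
theorem Sq.sum {ι : Type} (F : Finset ι) {f : ι → Y → ℝ} (h : ∀ i ∈ F, Sq (f i)) :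
    Sq fun y => ∑ i ∈ F, f i y := by
  classical
  induction F using Finset.induction_on with
  | empty => simpa only [Finset.sum_empty] using k3a_zero
  | insert i F hi ih =>
    simp only [Finset.sum_insert hi]
    exact (h i (Finset.mem_insert_self _ _)).add (ih fun j hj => h j (Finset.mem_insert_of_mem hj))
theorem k3a_fin {a b : Y → ℝ} (h : Sq b) (F : Finset Y) (e : ∀ y, y ∉ F → a y = b y) : Sq a :=
  Summable.congr_cofinite h (F.eventually_cofinite_notMem.mono fun y hy => congrArg (· ^ 2) (e y hy).symm)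
theorem Sq.upd {a : Y → ℝ} (h : Sq a) (y : Y) (c : ℝ) : Sq (P116D.upd a y c) :=
  k3a_fin h {y} fun _ hy => if_neg (Finset.notMem_singleton.1 hy)
theorem Sq.pw {b : Y → ℝ} (h : Sq b) (F : Finset Y) (a : Y → ℝ) : Sq (P116D.pw F a b) :=
  k3a_fin h F fun _ hy => if_neg hy
theorem Sq.summable {a b : Y → ℝ} (h : Sq a) (h' : Sq b) : Summable fun y => a y * b y :=
  Summable.of_norm_bounded (Summable.add h h') fun y => by
    rw [Real.norm_eq_abs, abs_le]
    constructor <;> nlinarith [sq_nonneg (a y - b y), sq_nonneg (a y + b y)]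
theorem cost_zero : Cost fun _ : Y => (0 : ℝ) := ⟨fun _ => le_rfl, k3a_zero⟩
theorem Cost.add {a b : Y → ℝ} (h : Cost a) (h' : Cost b) : Cost fun y => a y + b y :=
  ⟨fun y => add_nonneg (h.1 y) (h'.1 y), h.2.add h'.2⟩
theorem Cost.cmul {a : Y → ℝ} (h : Cost a) {c : ℝ} (hc : 0 ≤ c) : Cost fun y => c * a y :=
  ⟨fun y => mul_nonneg hc (h.1 y), h.2.cmul c⟩
theorem Cost.bmul {a b : Y → ℝ} {C : ℝ} (h : Cost a) (e : ∀ y, 0 ≤ b y ∧ b y ≤ C) :
    Cost fun y => b y * a y :=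
  ⟨fun y => mul_nonneg (e y).1 (h.1 y),
    h.2.bmul fun y => (abs_of_nonneg (e y).1).trans_le (e y).2⟩
theorem Cost.mono {a b : Y → ℝ} (h : Cost b) (e : ∀ y, 0 ≤ a y ∧ a y ≤ b y) : Cost a :=
  ⟨fun y => (e y).1, h.2.mono fun y =>
    (abs_of_nonneg (e y).1).trans_le ((e y).2.trans (le_abs_self _))⟩
theorem Cost.sum {ι : Type} (F : Finset ι) {f : ι → Y → ℝ} (h : ∀ i ∈ F, Cost (f i)) :
    Cost fun y => ∑ i ∈ F, f i y :=
  ⟨fun y => Finset.sum_nonneg fun i hi => (h i hi).1 y, Sq.sum F fun i hi => (h i hi).2⟩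
theorem Cost.upd {a : Y → ℝ} (h : Cost a) (y : Y) {c : ℝ} (hc : 0 ≤ c) : Cost (P116D.upd a y c) :=
  ⟨fun y' => by
    unfold P116D.upd
    split_ifs
    exacts [hc, h.1 y'], h.2.upd y c⟩
theorem Cost.pw {a b : Y → ℝ} (h : Cost b) (F : Finset Y) (ha : ∀ y ∈ F, 0 ≤ a y) :
    Cost (P116D.pw F a b) :=
  ⟨fun y' => by
    unfold P116D.pw
    split_ifs with hy
    exacts [ha y' hy, h.1 y'], h.2.pw F a⟩
theorem ip_comm (a b : Y → ℝ) : ip a b = ip b a := tsum_congr fun _ => mul_comm _ _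
theorem ip_add {a b c : Y → ℝ} (h : Sq a) (h' : Sq b) (hc : Sq c) :
    ip (fun y => a y + b y) c = ip a c + ip b c := by
  simp only [ip, add_mul]
  exact (h.summable hc).tsum_add (h'.summable hc)
theorem ip_sub {a b c : Y → ℝ} (h : Sq a) (h' : Sq b) (hc : Sq c) :
    ip (fun y => a y - b y) c = ip a c - ip b c := by
  simp only [ip, sub_mul]
  exact (h.summable hc).tsum_sub (h'.summable hc)
theorem ip_cmul (t : ℝ) (a c : Y → ℝ) : ip (fun y => t * a y) c = t * ip a c := by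
  simp only [ip, mul_assoc]
  exact tsum_mul_left
theorem ip_sum {ι : Type} (F : Finset ι) {f : ι → Y → ℝ} {c : Y → ℝ} (h : ∀ i ∈ F, Sq (f i))
    (hc : Sq c) : ip (fun y => ∑ i ∈ F, f i y) c = ∑ i ∈ F, ip (f i) c := by
  simp only [ip, Finset.sum_mul]
  exact Summable.tsum_finsetSum fun i hi => (h i hi).summable hc
theorem ip_zero (c : Y → ℝ) : ip (fun _ => 0) c = 0 := by
  simp only [ip, zero_mul, tsum_zero]
theorem ip_le_of {a b c e : Y → ℝ} (h : Sq a) (h' : Sq b) (hc : Sq c) (he : Sq e)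
    (hl : ∀ y, a y * b y ≤ c y * e y) : ip a b ≤ ip c e :=
  (h.summable h').tsum_le_tsum hl (hc.summable he)
theorem ip_mono {a b c : Y → ℝ} (h : Sq a) (h' : Sq b) (hc : Cost c) (e : ∀ y, a y ≤ b y) :
    ip a c ≤ ip b c :=
  ip_le_of h hc.2 h' hc.2 fun y => mul_le_mul_of_nonneg_right (e y) (hc.1 y)
theorem ip_nonneg {a b : Y → ℝ} (h : ∀ y, 0 ≤ a y) (h' : ∀ y, 0 ≤ b y) : 0 ≤ ip a b :=
  tsum_nonneg fun y => mul_nonneg (h y) (h' y)
theorem k3a_ip_fin (a c : Y → ℝ) (F : Finset Y) :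
    ip (pw F a fun _ => 0) c = ∑ y ∈ F, a y * c y := by
  rw [ip, tsum_eq_sum (s := F) fun y hy => by rw [pw, if_neg hy, zero_mul]]
  exact Finset.sum_congr rfl fun y hy => by rw [pw, if_pos hy]
theorem ip_pw {a b c : Y → ℝ} (h : Sq b) (hc : Sq c) (F : Finset Y) :
    ip (pw F a b) c = ∑ y ∈ F, a y * c y + ip (pw F (fun _ => 0) b) c := by
  rw [← k3a_ip_fin, ← ip_add (k3a_zero.pw F a) (h.pw F _) hc]
  congr 1
  funext y
  unfold pw
  split_ifs
  exacts [(add_zero _).symm, (zero_add _).symm]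
theorem k3a_upd (a : Y → ℝ) (y : Y) (t : ℝ) : upd a y t = pw {y} (fun _ => t) a := by
  funext y'
  by_cases e : y' = y
  · rw [upd, pw, if_pos e, if_pos (Finset.mem_singleton.2 e)]
  · rw [upd, pw, if_neg e, if_neg (Finset.notMem_singleton.2 e)]
theorem ip_upd {a c : Y → ℝ} (h : Sq a) (hc : Sq c) (y : Y) (t : ℝ) :
    ip (upd a y t) c = ip (upd a y 0) c + t * c y := by
  rw [k3a_upd, k3a_upd, ip_pw h hc, Finset.sum_singleton, add_comm]
theorem ip_split {a c : Y → ℝ} (h : Sq a) (hc : Sq c) (y : Y) :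
    ip a c = ip (upd a y 0) c + a y * c y := by
  rw [← ip_upd h hc]
  congr 1
  funext y'
  unfold upd
  split_ifs with e
  exacts [congrArg a e, rfl]
theorem sum_le_ip {a c : Y → ℝ} (h : Cost a) (hc : Cost c) (F : Finset Y) :
    ∑ y ∈ F, a y * c y ≤ ip a c :=
  (h.2.summable hc.2).sum_le_tsum F fun y _ => mul_nonneg (h.1 y) (hc.1 y)

end Vale.P116D
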