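import Vale.Agent.P116D.K1
import Vale.Agent.P116D.K3
import Vale.Agent.P116D.EndsH

/-!
K4: ends and cutoff functions.
-/

namespace Vale.P116D

open Set Filter Topology MeasureTheory Complex
open scoped ContDiff

variable {D : Dom} {S : Gens D} {φ ψ χ η g d v w : ℂ → ℝ} {s σ r τ u : D.End → ℝ} {y : D.End}
  {U : Set ℂ} {z : ℂ}

theorem G_mem (y : D.End) : D.G ∈ D.nb y := D.eh_G_mem y
instance nb_neBot (y : D.End) : (D.nb y).NeBot := D.eh_neBot y
theorem compl_mem {C : Set ℂ} (hC : IsCompact C) (hG : C ⊆ D.G) (y : D.End) : Cᶜ ∈ D.nb y :=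
  D.eh_compl_mem hC hG y
theorem nb_open (hU : U ∈ D.nb y) : ∃ W ∈ D.nb y, IsOpen W ∧ W ⊆ U ∧ W ⊆ D.G :=
  D.eh_open_basis hU
theorem nb_sep {y' : D.End} (h : y ≠ y') : ∃ U ∈ D.nb y, ∃ U' ∈ D.nb y', Disjoint U U' := by
  obtain ⟨U, hU, hU'⟩ := Dom.eh_sep h
  exact ⟨U, hU, Uᶜ, hU', disjoint_compl_right⟩
/-- finitely many ends have disjoint neighbourhoods -/
theorem nb_sepF (F : Finset D.End) (W : D.End → Set ℂ) (hW : ∀ y ∈ F, W y ∈ D.nb y) :
    ∃ U : D.End → Set ℂ, (∀ y ∈ F, U y ∈ D.nb y ∧ U y ⊆ W y) ∧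
      ∀ y ∈ F, ∀ y' ∈ F, y ≠ y' → Disjoint (U y) (U y') := by
  classical
  choose A hA hA' using fun y : D.End => Dom.eh_sep_finset y F
  refine ⟨fun y => (W y ∩ A y) ∩ ⋂ y' ∈ F.erase y, (A y')ᶜ, fun y hy => ⟨?_, ?_⟩, ?_⟩
  · refine inter_mem (inter_mem (hW y hy) (hA y)) ((biInter_finset_mem _).2 fun y' hy' => ?_)
    exact hA' y' y hy (Finset.ne_of_mem_erase hy').symm
  · exact fun z hz => hz.1.1
  · intro y hy y' _ hne
    refine Set.disjoint_left.2 fun z hz hz' => ?_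
    exact mem_iInter₂.1 hz'.2 y (Finset.mem_erase.2 ⟨hne, hy⟩) hz.1.2
/-- compactness of the end compactification -/
theorem cpt_of_nb (W : D.End → Set ℂ) (hW : ∀ y, W y ∈ D.nb y) :
    ∃ C, IsCompact C ∧ C ⊆ D.G ∧ ∀ z ∈ D.G, z ∉ C → ∃ y, z ∈ W y := by
  obtain ⟨R, -, -, hR⟩ := D.eh_mem_nb_none.1 (hW none)
  choose O hO hO' hO'' using fun c => D.eh_mem_nb_some.1 (hW (some c))
  refine ⟨Metric.closedBall 0 R \ ⋃ c, O c,
    (isCompact_closedBall _ _).diff (isOpen_iUnion hO), fun z hz hK => ?_, fun z hz hC => ?_⟩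
  · exact hz.2 (mem_iUnion.2 ⟨_, hO' _ (D.eh_mem_cmp.2 ⟨hK, rfl⟩)⟩)
  · by_cases h : R ≤ ‖z‖
    · exact ⟨none, hR z h⟩
    · have : z ∈ ⋃ c, O c := by
        by_contra h'
        exact hC ⟨mem_closedBall_zero_iff.2 (not_le.1 h).le, h'⟩
      obtain ⟨c, hc⟩ := mem_iUnion.1 this
      exact ⟨some c, hO'' c z hc hz⟩
theorem cs_of_van (h : ∀ y, D.Van y χ) : ∃ C, IsCompact C ∧ C ⊆ D.G ∧ D.Supp χ C := by
  obtain ⟨C, hC, hG, h'⟩ := cpt_of_nb (fun _ => {z | χ z = 0}) h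
  exact ⟨C, hC, hG, fun z hz hz' => (h' z hz hz').choose_spec⟩
theorem exhaust (D : Dom) : ∃ C : ℕ → Set ℂ, (∀ n, IsCompact (C n) ∧ C n ⊆ D.G ∧
    C n ⊆ interior (C (n + 1))) ∧ ∀ A, IsCompact A → A ⊆ D.G → ∃ n, A ⊆ C n := by
  refine ⟨fun n => Metric.closedBall 0 n \ Metric.thickening (1 / (n + 1)) D.K,
    fun n => ⟨(isCompact_closedBall _ _).diff Metric.isOpen_thickening, fun z hz hK => ?_, ?_⟩,
    fun A hA hG => ?_⟩
  · exact hz.2 (Metric.self_subset_thickening (by positivity) _ hK)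
  · have ho : IsOpen (Metric.ball (0 : ℂ) (n + 1) \ Metric.cthickening (1 / (n + 2)) D.K) :=
      Metric.isOpen_ball.sdiff Metric.isClosed_cthickening
    refine subset_trans (fun z hz => ?_) (interior_maximal (fun z hz => ?_) ho)
    · refine ⟨Metric.closedBall_subset_ball (by linarith) hz.1, fun h => hz.2 ?_⟩
      refine Metric.cthickening_subset_thickening' (by positivity) ?_ _ h
      exact one_div_lt_one_div_of_lt (by positivity) (by linarith)
    · refine ⟨?_, fun h => hz.2 ?_⟩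
      · push_cast
        exact Metric.ball_subset_closedBall hz.1
      · refine Metric.thickening_subset_cthickening _ _ ?_
        push_cast at h
        rwa [add_assoc, one_add_one_eq_two] at h
  · have hd : Disjoint A D.K := Set.disjoint_left.2 fun z hz hK => hG hz hK
    obtain ⟨δ, hδ, hd'⟩ := hd.exists_thickenings hA D.cpt.isClosed
    obtain ⟨R, hR⟩ := hA.isBounded.subset_closedBall 0
    obtain ⟨n, hn⟩ := exists_nat_gt (max R (1 / δ))
    refine ⟨n, fun z hz => ⟨Metric.closedBall_subset_closedBall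
      ((le_max_left _ _).trans hn.le) (hR hz), fun h => ?_⟩⟩
    refine Set.disjoint_left.1 hd' (Metric.self_subset_thickening hδ _ hz)
      (Metric.thickening_mono ?_ _ h)
    have h1 : 1 / δ < n := (le_max_right _ _).trans_lt hn
    rw [div_lt_iff₀ hδ] at h1
    rw [div_le_iff₀ (by positivity)]
    nlinarith
theorem wd_of_ev (h : ContDiff ℝ ∞ η) (h0 : ∀ z ∈ D.K, fderiv ℝ η z = 0)
    (e : ∀ y, ∀ᶠ z in D.nb y, η z = u y) : D.Wd η u := by
  choose W hW ho hs hG using fun y => nb_open (e y)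
  obtain ⟨C, hC, hCG, h'⟩ := cpt_of_nb W hW
  refine ⟨h, ⟨C, hC, hCG, fun z hz => ?_⟩, e⟩
  by_cases hK : z ∈ D.K
  · exact h0 z hK
  · obtain ⟨y, hy⟩ := h' z hK hz
    have : η =ᶠ[𝓝 z] fun _ => u y := mem_of_superset ((ho y).mem_nhds hy) (hs y)
    rw [this.fderiv_eq]
    simp
theorem wd_of_evG (h : ContDiffOn ℝ ∞ η D.G) (e : ∀ y, ∀ᶠ z in D.nb y, η z = u y) :
    ∃ η', D.Wd η' u ∧ EqOn η' η D.G := by
  classical
  obtain ⟨T, ξ, a, -, hξ, -, ha, -, -⟩ := Dom.eh_cover ∅ (fun y => {z | η z = u y}) e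
  have hs := Dom.Wd.eh_sum T fun y _ => (hξ y).1.wd
  have hv : ∀ y, D.Van y fun z => 1 - ∑ y ∈ T, ξ y z := fun y => by
    filter_upwards [hs.ev y] with z hz
    rw [hz, ha, sub_self]
  obtain ⟨C, hC, hG, hS⟩ := cs_of_van hv
  set ψ : ℂ → ℝ := C.indicator fun z => (1 - ∑ y ∈ T, ξ y z) * η z with hψ
  have e1 : ∀ z ∈ D.G, ψ z = (1 - ∑ y ∈ T, ξ y z) * η z := fun z hz => by
    by_cases h' : z ∈ C
    · rw [hψ, indicator_of_mem h']
    · have h2 : 1 - ∑ y ∈ T, ξ y z = 0 := hS z hz h'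
      rw [hψ, indicator_of_notMem h', h2, zero_mul]
  have e2 : ∀ z, z ∉ C → ψ =ᶠ[𝓝 z] fun _ => 0 := fun z hz => by
    filter_upwards [hC.isClosed.isOpen_compl.mem_nhds hz] with w hw
    rw [hψ, indicator_of_notMem hw]
  have hw : D.Wd ψ fun _ => 0 := by
    refine ⟨contDiff_iff_contDiffAt.2 fun z => ?_, ⟨C, hC, hG, fun z hz => ?_⟩, fun y => ?_⟩
    · by_cases hz : z ∈ D.G
      · have h1 : ContDiffAt ℝ ∞ (fun z => (1 - ∑ y ∈ T, ξ y z) * η z) z :=
          (contDiffAt_const.sub hs.sm.contDiffAt).mul (h.contDiffAt (D.eh_open.mem_nhds hz))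
        exact h1.congr_of_eventuallyEq (mem_of_superset (D.eh_open.mem_nhds hz) e1)
      · exact contDiffAt_const.congr_of_eventuallyEq (e2 z fun h' => hz (hG h'))
    · rw [(e2 z hz).fderiv_eq]
      simp
    · filter_upwards [compl_mem hC hG y] with z hz
      exact (e2 z hz).self_of_nhds
  have hw' := (Dom.Wd.eh_sum T fun y _ => (Dom.Wd.eh_const (u y)).eh_mul (hξ y).1.wd).eh_add hw
  have e3 : EqOn (fun z => ∑ y ∈ T, u y * ξ y z + ψ z) η D.G := fun z hz => by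
    have : ∑ y ∈ T, u y * ξ y z = ∑ y ∈ T, ξ y z * η z := Finset.sum_congr rfl fun y _ => by
      by_cases h' : η z = u y
      · rw [h', mul_comm]
      · rw [(hξ y).2 z hz h', mul_zero, zero_mul]
    show ∑ y ∈ T, u y * ξ y z + ψ z = η z
    rw [this, e1 z hz, ← Finset.sum_mul]
    ring
  refine ⟨_, ⟨hw'.sm, hw'.cs, fun y => ?_⟩, e3⟩
  filter_upwards [e y, G_mem y] with z hz hz'
  exact (e3 hz').trans hz
theorem wd_const (D : Dom) (c : ℝ) : D.Wd (fun _ => c) fun _ => c := Dom.Wd.eh_const c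
theorem Dom.Wd.add {η' : ℂ → ℝ} {u' : D.End → ℝ} (h : D.Wd η u) (h' : D.Wd η' u') :
    D.Wd (fun z => η z + η' z) fun y => u y + u' y := h.eh_add h'
theorem Dom.Wd.sub {η' : ℂ → ℝ} {u' : D.End → ℝ} (h : D.Wd η u) (h' : D.Wd η' u') :
    D.Wd (fun z => η z - η' z) fun y => u y - u' y := h.eh_sub h'
theorem Dom.Wd.mul {η' : ℂ → ℝ} {u' : D.End → ℝ} (h : D.Wd η u) (h' : D.Wd η' u') :
    D.Wd (fun z => η z * η' z) fun y => u y * u' y := h.eh_mul h'
theorem Dom.Wd.cmul (h : D.Wd η u) (c : ℝ) : D.Wd (fun z => c * η z) fun y => c * u y :=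
  (Dom.Wd.eh_const c).eh_mul h
theorem wd_sum {ι : Type} (F : Finset ι) {f : ι → ℂ → ℝ} {a : ι → D.End → ℝ}
    (h : ∀ i ∈ F, D.Wd (f i) (a i)) : D.Wd (fun z => ∑ i ∈ F, f i z) fun y => ∑ i ∈ F, a i y :=
  Dom.Wd.eh_sum F h
theorem Dom.Wd.bd (h : D.Wd η u) : ∃ M, D.Le η M ∧ ∀ y, |u y| ≤ M := by
  obtain ⟨R, -, -, hR⟩ := D.eh_mem_nb_none.1 (h.ev none)
  obtain ⟨M, hM⟩ := (isCompact_closedBall (0 : ℂ) R).exists_bound_of_continuousOn
    h.sm.continuous.continuousOn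
  have hb : ∀ z, |η z| ≤ max M |u none| := fun z => by
    by_cases hz : R ≤ ‖z‖
    · have : η z = u none := hR z hz
      rw [this]
      exact le_max_right _ _
    · exact (hM z (mem_closedBall_zero_iff.2 (not_le.1 hz).le)).trans (le_max_left _ _)
  refine ⟨_, fun z _ => hb z, fun y => ?_⟩
  obtain ⟨z, hz⟩ := (h.ev y).exists
  rw [← hz]
  exact hb z
theorem Dom.Cut.compl (h : D.Cut η u) : D.Cut (fun z => 1 - η z) fun y => 1 - u y := h.eh_compl
theorem Dom.Cut.mul {η' : ℂ → ℝ} {u' : D.End → ℝ} (h : D.Cut η u) (h' : D.Cut η' u') :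
    D.Cut (fun z => η z * η' z) fun y => u y * u' y := h.eh_mul h'
theorem Dom.Cut.one_mem (h : D.Cut η u) (hy : u y = 1) : {z | η z = 1} ∈ D.nb y := by
  filter_upwards [h.wd.ev y] with z hz
  rw [hz, hy]
theorem Dom.Cut.mem_of (h : D.Cut η u) (hs : D.Supp η U) (hy : u y = 1) : U ∈ D.nb y := by
  filter_upwards [h.one_mem hy, G_mem y] with z hz hz'
  by_contra hU
  have := hs z hz' hU
  rw [hz] at this
  exact one_ne_zero this
theorem k4_prod {ι : Type} (F : Finset ι) (x : ι → ℝ)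
    (h : ∀ i ∈ F, ∀ j ∈ F, i ≠ j → x i = 0 ∨ x j = 0) : 1 - ∏ i ∈ F, (1 - x i) = ∑ i ∈ F, x i := by
  classical
  induction F using Finset.induction_on with
  | empty => simp
  | insert a F ha ih =>
    have e := ih fun i hi j hj => h i (Finset.mem_insert_of_mem hi) j (Finset.mem_insert_of_mem hj)
    have e' : x a * ∑ i ∈ F, x i = 0 := by
      rw [Finset.mul_sum]
      refine Finset.sum_eq_zero fun i hi => mul_eq_zero.2 ?_
      exact h a (Finset.mem_insert_self _ _) i (Finset.mem_insert_of_mem hi)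
        fun h' => ha (h' ▸ hi)
    rw [Finset.prod_insert ha, Finset.sum_insert ha, ← e] at *
    linear_combination -e'
theorem k4_cut_prod {ι : Type} (F : Finset ι) {f : ι → ℂ → ℝ} {a : ι → D.End → ℝ}
    (h : ∀ i ∈ F, D.Cut (f i) (a i)) :
    D.Cut (fun z => ∏ i ∈ F, (1 - f i z)) fun y => ∏ i ∈ F, (1 - a i y) := by
  classical
  induction F using Finset.induction_on with
  | empty => simpa using Dom.Cut.eh_one
  | insert b F hb ih =>
    simp only [Finset.prod_insert hb]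
    exact (h b (Finset.mem_insert_self _ _)).compl.mul
      (ih fun i hi => h i (Finset.mem_insert_of_mem hi))
theorem cut_sum {ι : Type} (F : Finset ι) {f : ι → ℂ → ℝ} {a : ι → D.End → ℝ} {W : ι → Set ℂ}
    (h : ∀ i ∈ F, D.Cut (f i) (a i) ∧ D.Supp (f i) (W i))
    (hd : ∀ i ∈ F, ∀ j ∈ F, i ≠ j → Disjoint (W i) (W j)) :
    ∃ η', D.Cut η' (fun y => ∑ i ∈ F, a i y) ∧ EqOn η' (fun z => ∑ i ∈ F, f i z) D.G := by
  have hc := (k4_cut_prod F fun i hi => (h i hi).1).compl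
  have e : (fun y => 1 - ∏ i ∈ F, (1 - a i y)) = fun y => ∑ i ∈ F, a i y := by
    funext y
    refine k4_prod F _ fun i hi j hj hij => ?_
    by_contra hn
    rw [not_or] at hn
    have h1 := (h i hi).1.mem_of (h i hi).2 (((h i hi).1.val y).resolve_left hn.1)
    have h2 := (h j hj).1.mem_of (h j hj).2 (((h j hj).1.val y).resolve_left hn.2)
    obtain ⟨z, hz⟩ := Filter.nonempty_of_mem (inter_mem h1 h2)
    exact Set.disjoint_left.1 (hd i hi j hj hij) hz.1 hz.2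
  rw [e] at hc
  refine ⟨_, hc, fun z hz => k4_prod F _ fun i hi j hj hij => ?_⟩
  by_cases h1 : z ∈ W i
  · exact Or.inr ((h j hj).2 z hz (Set.disjoint_left.1 (hd i hi j hj hij) h1))
  · exact Or.inl ((h i hi).2 z hz h1)
theorem cut_ex (hU : U ∈ D.nb y) : ∃ η u, D.Cut η u ∧ u y = 1 ∧ D.Supp η U := Dom.eh_cut_ex y hU
/-- a cutoff with compact support in `G` that is one near a compact set -/
theorem cut_cpt {C : Set ℂ} (hC : IsCompact C) (hU : IsOpen U) (h : C ⊆ U) (hG : U ⊆ D.G) :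
    ∃ η C', D.Cut η (fun _ => 0) ∧ IsCompact C' ∧ C' ⊆ U ∧ (∀ z, z ∉ C' → η z = 0) ∧
      ∀ᶠ z in 𝓝ˢ C, η z = 1 := by
  obtain ⟨ψ, h1, h2, h3, h4, h5⟩ := eh_bump hC hU h
  have h0 : ∀ z, z ∉ tsupport ψ → ψ z = 0 := fun z hz => image_eq_zero_of_notMem_tsupport hz
  refine ⟨ψ, tsupport ψ, ⟨⟨h1, ⟨tsupport ψ, h2, h3.trans hG, fun z hz => ?_⟩, fun y => ?_⟩, h4,
    fun _ => Or.inl rfl⟩, h2, h3, h0, h5⟩
  · rw [(notMem_tsupport_iff_eventuallyEq.1 hz).fderiv_eq]
    simp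
  · filter_upwards [compl_mem h2 (h3.trans hG) y] with z hz using h0 z hz
/-- the cost carried by the other ends near `y` is small -/
theorem nb_tail (h : Sq σ) (y : D.End) {ε : ℝ} (hε : 0 < ε) : ∃ U ∈ D.nb y, ∀ η u, D.Cut η u →
    D.Supp η U → nl (upd (fun y' => u y' * σ y') y 0) ≤ ε := by
  obtain ⟨F, hF⟩ := h.tail hε
  obtain ⟨U, hU, hU'⟩ := Dom.eh_sep_finset y F
  refine ⟨U, hU, fun η u hη hs => le_trans (nl_mono (h.pw F _) fun y' => ?_) (hF F le_rfl)⟩
  unfold upd pw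
  by_cases h1 : y' = y
  · simp [h1]
  · by_cases h2 : y' ∈ F
    · simp [h1, h2, hη.wd.eh_val_zero hs (hU' y' h2 h1)]
    · rcases hη.val y' with h3 | h3 <;> simp [h1, h2, h3]
/-- a finite family of cutoffs with disjoint supports that covers the ends where `u` vanishes -/
theorem cover (h : D.Cut η u) (W : D.End → Set ℂ) (hW : ∀ y, u y = 0 → W y ∈ D.nb y) :
    ∃ (n : ℕ) (p : Fin n → D.End) (f : Fin n → ℂ → ℝ) (a : Fin n → D.End → ℝ) (O : Fin n → Set ℂ),
      (∀ i, u (p i) = 0 ∧ D.Cut (f i) (a i) ∧ D.Supp (f i) (O i) ∧ O i ⊆ W (p i) ∧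
        ∀ z ∈ O i, η z = 0) ∧ (∀ i j, i ≠ j → Disjoint (O i) (O j)) ∧
      ∀ y, ∑ i, a i y = 1 - u y := by
  classical
  have hU : ∀ y, (if u y = 0 then W y ∩ {z | η z = 0} else {z | η z = 1}) ∈ D.nb y := fun y => by
    split_ifs with h0
    · refine inter_mem (hW y h0) ?_
      filter_upwards [h.wd.ev y] with z hz
      rw [hz, h0]
    · exact h.one_mem ((h.val y).resolve_left h0)
  obtain ⟨T, ξ, a, -, hξ, hs, ha, -, -⟩ := Dom.eh_cover ∅ _ hU
  set T' := T.filter fun y => u y = 0 with hT'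
  have hsm : ContDiff ℝ ∞ fun p : ℝ × ℝ => Real.smoothTransition (2 * p.1 - 1) :=
    Real.smoothTransition.contDiff.comp ((contDiff_const.mul contDiff_fst).sub contDiff_const)
  have hval : ∀ y y', Real.smoothTransition (2 * a y y' - 1) = a y y' := fun y y' => by
    rcases (hξ y).1.val y' with h1 | h1 <;> rw [h1]
    · exact Real.smoothTransition.zero_of_nonpos (by norm_num)
    · exact Real.smoothTransition.one_of_one_le (by norm_num)
  have hcut : ∀ y, D.Cut (fun z => Real.smoothTransition (2 * ξ y z - 1)) (a y) := fun y => by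
    have h1 := (hξ y).1.wd.eh_comp₂ (hξ y).1.wd hsm
    simp only [hval] at h1
    exact ⟨h1, fun z => ⟨Real.smoothTransition.nonneg _, Real.smoothTransition.le_one _⟩,
      (hξ y).1.val⟩
  set p : Fin T'.card → D.End := fun i => (T'.equivFin.symm i : D.End) with hp
  have hp0 : ∀ i, p i ∈ T ∧ u (p i) = 0 := fun i => Finset.mem_filter.1 (T'.equivFin.symm i).2
  refine ⟨T'.card, p, fun i z => Real.smoothTransition (2 * ξ (p i) z - 1), fun i => a (p i),
    fun i => (W (p i) ∩ {z | η z = 0}) ∩ {z | 1 / 2 < ξ (p i) z},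
    fun i => ⟨(hp0 i).2, hcut _, fun z hz hz' => ?_, fun z hz => hz.1.1, fun z hz => hz.1.2⟩,
    fun i j hij => ?_, fun y => ?_⟩
  · refine Real.smoothTransition.zero_of_nonpos ?_
    by_cases h1 : z ∈ W (p i) ∩ {z | η z = 0}
    · have : ¬ 1 / 2 < ξ (p i) z := fun h2 => hz' ⟨h1, h2⟩
      linarith [not_lt.1 this]
    · have := (hξ (p i)).2 z hz (by rw [if_pos (hp0 i).2]; exact h1)
      rw [this]
      norm_num
  · refine Set.disjoint_left.2 fun z hz hz' => ?_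
    have hne : p i ≠ p j := fun e => hij (T'.equivFin.symm.injective (Subtype.ext e))
    have h1 : ∑ y ∈ {p i, p j}, ξ y z ≤ ∑ y ∈ T, ξ y z :=
      Finset.sum_le_sum_of_subset_of_nonneg (by
        intro y hy
        rcases Finset.mem_insert.1 hy with rfl | hy
        · exact (hp0 i).1
        · rw [Finset.mem_singleton.1 hy]
          exact (hp0 j).1) fun y _ _ => ((hξ y).1.mem z).1
    rw [Finset.sum_pair hne] at h1
    have h2 : 1 / 2 < ξ (p i) z := hz.2
    have h3 : 1 / 2 < ξ (p j) z := hz'.2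
    linarith [hs z]
  · have e1 : ∑ i, a (p i) y = ∑ y' ∈ T', a y' y := by
      rw [← Finset.sum_coe_sort T']
      exact Equiv.sum_comp T'.equivFin.symm fun y' : T' => a y' y
    rw [e1]
    have key : ∀ y', u y' ≠ u y → a y' y = 0 := fun y' hne => by
      refine (hξ y').1.wd.eh_val_zero (hξ y').2 ?_
      filter_upwards [h.wd.ev y] with z hz
      split_ifs with h0
      · exact fun h1 => hne (by rw [h0, ← hz]; exact h1.2.symm)
      · exact fun h1 => hne (by rw [(h.val y').resolve_left h0, ← hz]; exact h1.symm)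
    rcases h.val y with h0 | h0
    · rw [h0, sub_zero, ← ha y]
      refine Finset.sum_subset (Finset.filter_subset _ _) fun y' hy' hy'' => key y' ?_
      rw [h0]
      exact fun h1 => hy'' (Finset.mem_filter.2 ⟨hy', h1⟩)
    · rw [h0, sub_self]
      refine Finset.sum_eq_zero fun y' hy' => key y' ?_
      rw [h0, (Finset.mem_filter.1 hy').2]
      exact zero_ne_one

end Vale.P116D
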