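import Vale.Agent.P116D.K4
import Vale.Agent.P116D.ConnH

/-!
K5: the ends have bases of connected neighbourhoods (unicoherence of the plane).
-/

namespace Vale.P116D

open Set Filter Topology MeasureTheory Complex
open scoped ContDiff

variable {D : Dom} {S : Gens D} {φ ψ χ η g d v w : ℂ → ℝ} {s σ r τ u : D.End → ℝ} {y : D.End}
  {U : Set ℂ} {z : ℂ}

theorem nb_conn (hU : U ∈ D.nb y) :
    ∃ W ∈ D.nb y, IsOpen W ∧ IsPreconnected W ∧ W ⊆ U ∧ W ⊆ D.G := by
  obtain ⟨W, h1, h2, h3, h4, h5⟩ := Dom.ch_basis y hU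
  exact ⟨W, h1, h2, h5, h3, h4⟩

end Vale.P116D
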