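import Vale.Agent.P116D.K5

/-!
K6: cluster values and oscillation of bounded functions.
-/

namespace Vale.P116D

open Set Filter Topology MeasureTheory Complex
open scoped ContDiff

variable {D : Dom} {S : Gens D} {φ ψ χ η g d v w : ℂ → ℝ} {s σ r τ u : D.End → ℝ} {y : D.End}
  {U : Set ℂ} {z : ℂ}

theorem k6_ev (h : D.Bd φ) (y : D.End) : ∃ a b, ∀ᶠ z in D.nb y, φ z ∈ Icc a b := by
  obtain ⟨M, hM⟩ := h
  exact ⟨-M, M, mem_of_superset (G_mem y) fun z hz => abs_le.1 (hM z hz)⟩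

theorem k6_le {a b : ℝ} (h : ∀ᶠ z in D.nb y, φ z ∈ Icc a b) :
    IsBoundedUnder (· ≤ ·) (D.nb y) φ := isBoundedUnder_of_eventually_le (h.mono fun _ h => h.2)

theorem k6_ge {a b : ℝ} (h : ∀ᶠ z in D.nb y, φ z ∈ Icc a b) :
    IsBoundedUnder (· ≥ ·) (D.nb y) φ := isBoundedUnder_of_eventually_ge (h.mono fun _ h => h.1)

theorem k6_ble (h : D.Bd φ) (y : D.End) : IsBoundedUnder (· ≤ ·) (D.nb y) φ :=
  let ⟨_, _, h⟩ := k6_ev h y
  k6_le h

theorem k6_bge (h : D.Bd φ) (y : D.End) : IsBoundedUnder (· ≥ ·) (D.nb y) φ :=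
  let ⟨_, _, h⟩ := k6_ev h y
  k6_ge h

theorem lo_le_hi (h : D.Bd φ) (y : D.End) : D.lo y φ ≤ D.hi y φ :=
  liminf_le_limsup (k6_ble h y) (k6_bge h y)

theorem osc_nonneg (h : D.Bd φ) (y : D.End) : 0 ≤ D.osc y φ := sub_nonneg.2 (lo_le_hi h y)

theorem ev_mem (h : D.Bd φ) (y : D.End) {δ : ℝ} (hδ : 0 < δ) :
    ∀ᶠ z in D.nb y, φ z ∈ Ioo (D.lo y φ - δ) (D.hi y φ + δ) :=
  (eventually_lt_of_lt_liminf (sub_lt_self _ hδ) (k6_bge h y)).and
    (eventually_lt_of_limsup_lt (lt_add_of_pos_right _ hδ) (k6_ble h y))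

theorem cluster_sub {a b : ℝ} (h : ∀ᶠ z in D.nb y, φ z ∈ Icc a b) : a ≤ D.lo y φ ∧ D.hi y φ ≤ b :=
  ⟨le_liminf_of_le (k6_le h).isCoboundedUnder_ge (h.mono fun _ h => h.1),
    limsup_le_of_le (k6_ge h).isCoboundedUnder_le (h.mono fun _ h => h.2)⟩

theorem osc_le_of {a b : ℝ} (h : ∀ᶠ z in D.nb y, φ z ∈ Icc a b) : D.osc y φ ≤ b - a :=
  sub_le_sub (cluster_sub h).2 (cluster_sub h).1

theorem osc_le_of_pair {c : ℝ} (hb : D.Bd φ) (hU : U ∈ D.nb y)
    (h : ∀ z ∈ U, ∀ z' ∈ U, φ z - φ z' ≤ c) : D.osc y φ ≤ c := by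
  have h1 : D.hi y φ - c ≤ D.lo y φ := by
    refine le_liminf_of_le (k6_ble hb y).isCoboundedUnder_ge (mem_of_superset hU fun z' hz' => ?_)
    have h2 : D.hi y φ ≤ φ z' + c :=
      limsup_le_of_le (k6_bge hb y).isCoboundedUnder_le (mem_of_superset hU fun z hz => by
        show φ z ≤ φ z' + c
        linarith [h z hz z' hz'])
    show D.hi y φ - c ≤ φ z'
    linarith
  rw [Dom.osc]
  linarith

theorem k6_lip {T : ℝ → ℝ} {C : ℝ} (h : D.Bd φ) (hC : 0 ≤ C)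
    (hT : ∀ x x', |T x - T x'| ≤ C * |x - x'|) (y : D.End) :
    D.osc y (fun z => T (φ z)) ≤ C * D.osc y φ := by
  have hb : D.Bd fun z => T (φ z) := by
    obtain ⟨M, hM⟩ := h
    refine ⟨|T 0| + C * M, fun z hz => ?_⟩
    have h1 := hT (φ z) 0
    rw [sub_zero] at h1
    have h2 := mul_le_mul_of_nonneg_left (hM z hz) hC
    have h3 := abs_sub_abs_le_abs_sub (T (φ z)) (T 0)
    linarith
  refine le_of_forall_pos_le_add fun ε hε => ?_
  have hδ : 0 < ε / (2 * (C + 1)) := by positivity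
  refine osc_le_of_pair hb (ev_mem h y hδ) fun z hz z' hz' => ?_
  have h1 : |φ z - φ z'| ≤ D.osc y φ + 2 * (ε / (2 * (C + 1))) := by
    rw [abs_le, Dom.osc]
    constructor <;> linarith [hz.1, hz.2, hz'.1, hz'.2]
  have h2 : (C + 1) * (2 * (ε / (2 * (C + 1)))) = ε := by field_simp
  have h3 := (le_abs_self _).trans ((hT _ _).trans (mul_le_mul_of_nonneg_left h1 hC))
  nlinarith

theorem hi_congr (h : φ =ᶠ[D.nb y] ψ) : D.hi y φ = D.hi y ψ := limsup_congr h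

theorem lo_congr (h : φ =ᶠ[D.nb y] ψ) : D.lo y φ = D.lo y ψ := liminf_congr h

theorem osc_congr (h : φ =ᶠ[D.nb y] ψ) : D.osc y φ = D.osc y ψ := by
  rw [Dom.osc, Dom.osc, hi_congr h, lo_congr h]

theorem osc_const {c : ℝ} (h : ∀ᶠ z in D.nb y, φ z = c) : D.osc y φ = 0 := by
  rw [osc_congr (ψ := fun _ => c) h, Dom.osc, Dom.hi, Dom.lo, limsup_const, liminf_const, sub_self]

theorem osc_add (h : D.Bd φ) (h' : D.Bd ψ) (y : D.End) :
    D.osc y (fun z => φ z + ψ z) ≤ D.osc y φ + D.osc y ψ := by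
  refine le_of_forall_pos_le_add fun ε hε => ?_
  have hδ : 0 < ε / 4 := by positivity
  refine (osc_le_of (a := D.lo y φ + D.lo y ψ - ε / 2) (b := D.hi y φ + D.hi y ψ + ε / 2)
    (((ev_mem h y hδ).and (ev_mem h' y hδ)).mono fun z hz => ⟨?_, ?_⟩)).trans (le_of_eq ?_)
  · linarith [hz.1.1, hz.2.1]
  · linarith [hz.1.2, hz.2.2]
  · rw [Dom.osc, Dom.osc]
    ring

theorem osc_sub (h : D.Bd φ) (h' : D.Bd ψ) (y : D.End) :
    D.osc y (fun z => φ z - ψ z) ≤ D.osc y φ + D.osc y ψ := by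
  refine le_of_forall_pos_le_add fun ε hε => ?_
  have hδ : 0 < ε / 4 := by positivity
  refine (osc_le_of (a := D.lo y φ - D.hi y ψ - ε / 2) (b := D.hi y φ - D.lo y ψ + ε / 2)
    (((ev_mem h y hδ).and (ev_mem h' y hδ)).mono fun z hz => ⟨?_, ?_⟩)).trans (le_of_eq ?_)
  · linarith [hz.1.1, hz.2.2]
  · linarith [hz.1.2, hz.2.1]
  · rw [Dom.osc, Dom.osc]
    ring

theorem osc_cmul (h : D.Bd φ) (c : ℝ) (y : D.End) :
    D.osc y (fun z => c * φ z) = |c| * D.osc y φ := by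
  have key : ∀ (a : ℝ) {ψ : ℂ → ℝ}, D.Bd ψ → D.osc y (fun z => a * ψ z) ≤ |a| * D.osc y ψ :=
    fun a ψ hψ => k6_lip (T := fun x => a * x) hψ (abs_nonneg a)
      (fun x x' => by rw [← mul_sub, abs_mul]) y
  refine le_antisymm (key c h) ?_
  rcases eq_or_ne c 0 with rfl | hc
  · rw [abs_zero, zero_mul]
    exact osc_nonneg (h.cmul 0) y
  · have h1 := key c⁻¹ (h.cmul c)
    simp only [inv_mul_cancel_left₀ hc] at h1
    have h2 := mul_le_mul_of_nonneg_left h1 (abs_nonneg c)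
    rwa [← mul_assoc, ← abs_mul, mul_inv_cancel₀ hc, abs_one, one_mul] at h2

theorem osc_add_const (h : D.Bd φ) (c : ℝ) (y : D.End) : D.osc y (fun z => φ z + c) = D.osc y φ := by
  have key : ∀ (a : ℝ) {ψ : ℂ → ℝ}, D.Bd ψ → D.osc y (fun z => ψ z + a) ≤ D.osc y ψ :=
    fun a ψ hψ => (k6_lip (T := fun x => x + a) hψ zero_le_one
      (fun x x' => by rw [add_sub_add_right_eq_sub, one_mul]) y).trans_eq (one_mul _)
  refine le_antisymm (key c h) ?_
  have h1 := key (-c) (h.add (bd_const D c))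
  simpa only [add_neg_cancel_right] using h1

theorem osc_le_two {M : ℝ} (h : D.Le φ M) (y : D.End) : D.osc y φ ≤ 2 * M :=
  (osc_le_of (a := -M) (b := M)
    (mem_of_superset (G_mem y) fun z hz => abs_le.1 (h z hz))).trans_eq (by ring)

theorem osc_lip {T : ℝ → ℝ} {C : ℝ} (h : D.Bd φ) (hC : 0 ≤ C) (hT : ∀ x x', |T x - T x'| ≤ C * |x - x'|)
    (y : D.End) : D.osc y (fun z => T (φ z)) ≤ C * D.osc y φ := k6_lip h hC hT y

theorem osc_near {δ : ℝ} (h : D.Bd φ) (e : ∀ᶠ z in D.nb y, |ψ z - φ z| ≤ δ) :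
    D.osc y ψ ≤ D.osc y φ + 2 * δ := by
  refine le_of_forall_pos_le_add fun ε hε => ?_
  have hδ : 0 < ε / 2 := by positivity
  refine (osc_le_of (a := D.lo y φ - δ - ε / 2) (b := D.hi y φ + δ + ε / 2)
    (((ev_mem h y hδ).and e).mono fun z hz => ⟨?_, ?_⟩)).trans (le_of_eq ?_)
  · linarith [hz.1.1, (abs_le.1 hz.2).1]
  · linarith [hz.1.2, (abs_le.1 hz.2).2]
  · rw [Dom.osc]
    ring

theorem osc_wmul (h : D.Bd φ) (hη : D.Wd η u) (y : D.End) :
    D.osc y (fun z => η z * φ z) = |u y| * D.osc y φ := by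
  rw [← osc_cmul h]
  exact osc_congr ((hη.ev y).mono fun z hz => by simp only [hz])

/-- upper semicontinuity: a strict bound holds on a neighbourhood -/
theorem range_of_lt {θ : ℝ} (h : D.Bd φ) (hθ : D.osc y φ < θ) :
    ∃ U ∈ D.nb y, ∃ a b, b - a < θ ∧ a < D.lo y φ ∧ D.hi y φ < b ∧ ∀ z ∈ U, φ z ∈ Icc a b := by
  have hδ : 0 < (θ - D.osc y φ) / 3 := by linarith
  refine ⟨_, ev_mem h y hδ, _, _, ?_, sub_lt_self _ hδ, lt_add_of_pos_right _ hδ,
    fun z hz => Ioo_subset_Icc_self hz⟩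
  have : D.osc y φ = D.hi y φ - D.lo y φ := rfl
  linarith

/-- a strict bound at every end is uniform -/
theorem unif_of_lt {θ : ℝ} (h : D.Bd φ) (hθ : ∀ y, D.osc y φ < θ) :
    ∃ θ' < θ, ∀ y, D.osc y φ ≤ θ' := by
  choose U hU a b hab _ _ hm using fun y => range_of_lt h (hθ y)
  choose η v hc h1 hs using fun y => cut_ex (hU y)
  obtain ⟨T, hT⟩ := Dom.eh_compact η v fun y => (hc y).wd
  have hne : T.Nonempty := (hT none).imp fun _ h => h.1
  refine ⟨T.sup' hne fun y => b y - a y, (Finset.sup'_lt_iff hne).2 fun y _ => hab y, fun y' => ?_⟩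
  obtain ⟨y, hy, e⟩ := hT y'
  exact (osc_le_of (mem_of_superset ((hc y).mem_of (hs y) (e.trans (h1 y))) (hm y))).trans
    (Finset.le_sup' (fun y => b y - a y) hy)

/-- the values on a neighbourhood fill the cluster interval -/
theorem Ioo_sub_image (h : ContinuousOn φ D.G) (hb : D.Bd φ) (hU : U ∈ D.nb y) :
    Ioo (D.lo y φ) (D.hi y φ) ⊆ φ '' (U ∩ D.G) := by
  intro t ht
  obtain ⟨W, hW, -, hc, h1, h2⟩ := nb_conn hU
  obtain ⟨z, hz, hz'⟩ :=
    ((frequently_lt_of_liminf_lt (k6_ble hb y).isCoboundedUnder_ge ht.1).and_eventually hW).exists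
  obtain ⟨x, hx, hx'⟩ :=
    ((frequently_lt_of_lt_limsup (k6_bge hb y).isCoboundedUnder_le ht.2).and_eventually hW).exists
  exact image_mono (subset_inter h1 h2) (hc.intermediate_value hz' hx' (h.mono h2) ⟨hz.le, hx.le⟩)


end Vale.P116D
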