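import Vale.Agent.P116D.K5

/-!
KAP: a continuum that crosses a vertical strip separates its top from its bottom.
-/

namespace Vale.P116D

open Set Filter Topology MeasureTheory Complex
open scoped ContDiff

variable {D : Dom} {S : Gens D} {φ ψ χ η g d v w : ℂ → ℝ} {s σ r τ u : D.End → ℝ} {y : D.End}
  {U : Set ℂ} {z : ℂ}

theorem kap_const {X : Type} [TopologicalSpace X] {A : Set X} {f : X → ℂ} {p q : X}
    (hA : IsPreconnected A) (hf : ContinuousOn f A) (h1 : ∀ x ∈ A, exp (f x) = 1) (hp : p ∈ A)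
    (hq : q ∈ A) : f p = f q :=
  isCoveringMap_exp.constOn_of_comp hA hf
    (fun x hx y hy => Subtype.ext ((h1 x hx).trans (h1 y hy).symm)) hp hq

/-- a logarithm along a path is determined when the path stays in the slit plane -/
theorem kap_path {l f : unitInterval → ℂ} (hl : Continuous l) (hf : Continuous f)
    (hs : ∀ t, f t ∈ slitPlane) (he : ∀ t, exp (l t) = f t / f 0) (h0 : l 0 = 0) :
    l 1 = log (f 1) - log (f 0) := by
  have := kap_const (A := univ) (f := fun t => l t - (log (f t) - log (f 0))) (p := 1) (q := 0)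
    isPreconnected_univ (hl.sub ((hf.clog hs).sub continuous_const)).continuousOn
    (fun t _ => by
      rw [exp_sub, exp_sub, exp_log (slitPlane_ne_zero (hs t)), exp_log (slitPlane_ne_zero (hs 0)),
        he, div_self (div_ne_zero (slitPlane_ne_zero (hs t)) (slitPlane_ne_zero (hs 0)))])
    (mem_univ _) (mem_univ _)
  simp only [h0, sub_self] at this
  exact sub_eq_zero.1 this

theorem kap_cross {Z : Set ℂ} {a b z₀ z₁ : ℂ} {p q : ℝ} (hc : IsPreconnected Z) (ha : a ∈ Z)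
    (hb : b ∈ Z) (h1 : a.re ≤ p) (h2 : q ≤ b.re) (h0 : ∀ w ∈ Z, z₀.im < w.im ∧ w.im < z₁.im) :
    ¬ JoinedIn ({z : ℂ | z.re ∈ Ioo p q} \ Z) z₀ z₁ := by
  rintro ⟨γ, hγ⟩
  have hne : ∀ t, ∀ w ∈ Z, γ t - w ≠ 0 := fun t w hw h => (hγ t).2 (sub_eq_zero.1 h ▸ hw)
  have hne0 : ∀ w ∈ Z, z₀ - w ≠ 0 := fun w hw => by simpa using hne 0 w hw
  let H : C(unitInterval × Z, {z : ℂ // z ≠ 0}) :=
    ⟨fun x => ⟨(γ x.1 - x.2) / (z₀ - x.2), div_ne_zero (hne _ _ x.2.2) (hne0 _ x.2.2)⟩,
      Continuous.subtype_mk (((γ.continuous.comp continuous_fst).sub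
        (continuous_subtype_val.comp continuous_snd)).div (continuous_const.sub
          (continuous_subtype_val.comp continuous_snd)) fun x => hne0 _ x.2.2) _⟩
  have H0 : ∀ w : Z, H (0, w) = (⟨exp ((0 : C(Z, ℂ)) w), exp_ne_zero _⟩ : {z : ℂ // z ≠ 0}) :=
    fun w => Subtype.ext (by
      show (γ 0 - w) / (z₀ - w) = exp 0
      rw [γ.source, div_self (hne0 _ w.2), exp_zero])
  set L := isCoveringMap_exp.liftHomotopy H 0 H0 with hL
  have e1 : ∀ t (w : Z), exp (L (t, w)) = (γ t - w) / (z₀ - w) := fun t w =>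
    congrArg Subtype.val (congrFun (isCoveringMap_exp.liftHomotopy_lifts H 0 H0) (t, w))
  have e0 : ∀ w : Z, L (0, w) = 0 := fun w => isCoveringMap_exp.liftHomotopy_zero H 0 H0 w
  have la : L (1, ⟨a, ha⟩) = log (z₁ - a) - log (z₀ - a) := by
    simpa using kap_path (l := fun t => L (t, ⟨a, ha⟩)) (f := fun t => γ t - a) (by fun_prop)
      (by fun_prop) (fun t => Or.inl (by simp only [sub_re]; linarith [(hγ t).1.1]))
      (fun t => by rw [e1, γ.source]) (e0 _)
  have lb : L (1, ⟨b, hb⟩) = log (b - z₁) - log (b - z₀) := by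
    simpa using kap_path (l := fun t => L (t, ⟨b, hb⟩)) (f := fun t => b - γ t) (by fun_prop)
      (by fun_prop) (fun t => Or.inl (by simp only [sub_re]; linarith [(hγ t).1.2]))
      (fun t => by rw [e1, γ.source, ← neg_sub b, ← neg_sub b, neg_div_neg_eq]) (e0 _)
  have s1 : ∀ w : Z, z₁ - w ∈ slitPlane := fun w =>
    Or.inr (by simp only [sub_im]; linarith [(h0 w w.2).2])
  have s0 : ∀ w : Z, z₀ - w ∈ slitPlane := fun w =>
    Or.inr (by simp only [sub_im]; linarith [(h0 w w.2).1])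
  have := isPreconnected_iff_preconnectedSpace.1 hc
  have key := kap_const (A := univ) (f := fun w : Z => L (1, w) - (log (z₁ - w) - log (z₀ - w)))
    (p := ⟨b, hb⟩) (q := ⟨a, ha⟩) isPreconnected_univ
    (Continuous.sub (by fun_prop) (((continuous_const.sub continuous_subtype_val).clog s1).sub
      ((continuous_const.sub continuous_subtype_val).clog s0))).continuousOn
    (fun w _ => by
      rw [exp_sub, exp_sub, exp_log (slitPlane_ne_zero (s1 w)), exp_log (slitPlane_ne_zero (s0 w)),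
        e1, γ.target, div_self (div_ne_zero (slitPlane_ne_zero (s1 w)) (slitPlane_ne_zero (s0 w)))])
    (mem_univ _) (mem_univ _)
  simp only [la, lb, sub_self] at key
  have k := congrArg Complex.im key
  simp only [sub_im, log_im, zero_im] at k
  have a1 : arg (b - z₁) < 0 := arg_neg_iff.2 (by simp only [sub_im]; linarith [(h0 b hb).2])
  have a2 : 0 ≤ arg (b - z₀) := arg_nonneg_iff.2 (by simp only [sub_im]; linarith [(h0 b hb).1])
  have a3 : 0 ≤ arg (z₁ - b) := arg_nonneg_iff.2 (by simp only [sub_im]; linarith [(h0 b hb).2])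
  have a4 : arg (z₀ - b) < 0 := arg_neg_iff.2 (by simp only [sub_im]; linarith [(h0 b hb).1])
  linarith

theorem kap {Z : Set ℂ} {a b : ℂ} {p q : ℝ} (hZ : IsCompact Z) (hc : IsPreconnected Z)
    (hc' : IsConnected Zᶜ) (ha : a ∈ Z) (hb : b ∈ Z) (h1 : a.re ≤ p) (h2 : q ≤ b.re) :
    ∃ κ : ℂ → ℝ, (∀ z, κ z = 0 ∨ κ z = 1) ∧
      (∀ z, z.re ∈ Ioo p q → z ∉ Z → ∀ᶠ z' in 𝓝 z, κ z' = κ z) ∧
      ∃ M : ℝ, ∀ z, z.re ∈ Ioo p q → (z.im < -M → κ z = 1) ∧ (M < z.im → κ z = 0) := by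
  classical
  have _ := hc'
  obtain ⟨M, hM⟩ := hZ.isBounded.subset_closedBall 0
  have hM' : ∀ w ∈ Z, -M ≤ w.im ∧ w.im ≤ M := fun w hw =>
    abs_le.1 ((abs_im_le_norm w).trans (mem_closedBall_zero_iff.1 (hM hw)))
  set O : Set ℂ := {z : ℂ | z.re ∈ Ioo p q} \ Z with hO
  have ho : IsOpen O := (isOpen_Ioo.preimage continuous_re).sdiff hZ.isClosed
  set z₀ : ℂ := ⟨(p + q) / 2, -M - 1⟩ with hz₀
  refine ⟨fun z => if JoinedIn O z₀ z then 1 else 0, fun z => ?_, fun z hz hz' => ?_, M,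
    fun z hz => ⟨fun h => if_pos ?_, fun h => if_neg ?_⟩⟩
  · by_cases h : JoinedIn O z₀ z
    · exact Or.inr (if_pos h)
    · exact Or.inl (if_neg h)
  · obtain ⟨ε, hε, hb⟩ := Metric.isOpen_iff.1 ho z ⟨hz, hz'⟩
    filter_upwards [Metric.ball_mem_nhds z hε] with w hw
    have j : JoinedIn O z w := JoinedIn.of_segment_subset
      (((convex_ball z ε).segment_subset (Metric.mem_ball_self hε) hw).trans hb)
    exact if_congr ⟨fun h => h.trans j.symm, fun h => h.trans j⟩ rfl rfl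
  · have hcv : Convex ℝ ({z : ℂ | p < z.re} ∩ {z : ℂ | z.re < q} ∩ {z : ℂ | z.im < -M}) :=
      ((convex_halfSpace_re_gt p).inter (convex_halfSpace_re_lt q)).inter
        (convex_halfSpace_im_lt _)
    refine JoinedIn.of_segment_subset ((hcv.segment_subset ⟨⟨?_, ?_⟩, ?_⟩ ⟨hz, h⟩).trans ?_)
    · show p < (p + q) / 2
      linarith [hz.1, hz.2]
    · show (p + q) / 2 < q
      linarith [hz.1, hz.2]
    · show -M - 1 < -M
      linarith
    · exact fun w hw => ⟨hw.1, fun hw' => absurd (hM' w hw').1 (not_le.2 hw.2)⟩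
  · refine kap_cross hc ha hb h1 h2 fun w hw => ⟨?_, (hM' w hw).2.trans_lt h⟩
    show -M - 1 < w.im
    linarith [(hM' w hw).1]

end Vale.P116D
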